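import Vale.Agent.P065.W.Top

/-!
# P065: from the recursion to the bounds, with a general loss function (helper919)

The loss of the recursion is measured by a function `ψ` of `t`, as in `t ≤ C x (ψ t) ^ e`.
-/

set_option autoImplicit false

namespace Vale.Agent.P065.R2.H919

open Vale.Agent.P065 Vale.Agent.P065.W Filter

/-- the loss function: between `1` and `log`, and almost increasing up to the factor `2` -/
structure Loss (ψ : ℝ → ℝ) : Prop where
  one_le : ∃ L0 : ℝ, ∀ L : ℝ, L0 ≤ L → 1 ≤ ψ L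
  le_log : ∃ L0 : ℝ, ∀ L : ℝ, L0 ≤ L → ψ L ≤ Real.log L
  dbl : ∃ L0 : ℝ, ∀ t L : ℝ, L0 ≤ t → t ≤ 2 * L → ψ t ≤ 2 * ψ L

theorem ev_loss {ψ : ℝ → ℝ} (h : Loss ψ) (e : ℕ) (A : ℝ) (hA : 0 ≤ A) :
    ∀ᶠ L : ℝ in atTop, A * (ψ L) ^ e ≤ L := by
  obtain ⟨L1, h1⟩ := h.one_le
  obtain ⟨L2, h2⟩ := h.le_log
  filter_upwards [ev_log_pow e A, eventually_ge_atTop L1, eventually_ge_atTop L2] with L h3 h4 h5
  have h6 := h1 L h4
  have h7 := h2 L h5
  exact (mul_le_mul_of_nonneg_left (pow_le_pow_left₀ (by linarith) h7 e) hA).trans h3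

theorem gmax_psi {ψ : ℝ → ℝ} (hψ : Loss ψ) {e : ℕ} {C : ℝ} (hC : 0 < C) {t0 : ℝ}
    (h : ∀ t : ℝ, t0 ≤ t → ∃ n a g q p d x : ℝ, LC2 n a g q p d x ∧ 0 ≤ n ∧ 0 ≤ a ∧ 0 ≤ g ∧
      0 < x ∧ n + a + g + 1 ≤ t ∧ t ≤ C * x * (ψ t) ^ e) (hF : FinalStmt2) :
    ∃ (c : ℝ) (N : ℕ), 0 < c ∧ ∀ n : ℕ, N ≤ n → Even n →
      (n : ℝ) ^ (1 + c / (ψ (Real.log n)) ^ e) ≤ gmax n := by
  obtain ⟨f, hf1, hF⟩ := hF
  obtain ⟨L1, hL1⟩ := hψ.one_le
  obtain ⟨L3, hL3⟩ := hψ.dbl
  have hlog2 : 0 < Real.log 2 := Real.log_pos (by norm_num)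
  have hlog2' : 0.69 < Real.log 2 := by have := Real.log_two_gt_d9; linarith
  set c : ℝ := 1 / (2 * f * C * 2 ^ e) with hc
  have hf0 : 0 < f := by linarith
  have hc0 : 0 < c := by rw [hc]; positivity
  have tend : Tendsto (fun n : ℕ => Real.log n) atTop atTop :=
    Real.tendsto_log_atTop.comp tendsto_natCast_atTop_atTop
  have h24p : 0 < Real.log 24 := Real.log_pos (by norm_num)
  have ev : ∀ᶠ L : ℝ in atTop, (Real.log 24 / c) * (ψ L) ^ e ≤ L ∧ 3 ≤ L ∧
      t0 * (Real.log 2 * f) ≤ L ∧ 2 * (Real.log 2 * f) ≤ L ∧ L1 ≤ L ∧ L1 * (Real.log 2 * f) ≤ L ∧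
      L3 * (Real.log 2 * f) ≤ L :=
    (ev_loss hψ e _ (by positivity)).and ((eventually_ge_atTop _).and
      ((eventually_ge_atTop _).and ((eventually_ge_atTop _).and ((eventually_ge_atTop _).and
      ((eventually_ge_atTop _).and (eventually_ge_atTop _))))))
  obtain ⟨N, hN⟩ := eventually_atTop.1 (tend.eventually ev)
  refine ⟨c, N + 1, hc0, fun n hn he => ?_⟩
  obtain ⟨e1, e2, e3, e4, e5, e6, e7⟩ := hN n (by omega)
  have hn0 : (0 : ℝ) < n := by exact_mod_cast (by omega : 0 < n)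
  set L := Real.log n with hL
  have hlf : 0 < Real.log 2 * f := by positivity
  set t := L / (Real.log 2 * f) with ht
  have ht0 : t0 ≤ t := by rw [ht, le_div_iff₀ hlf]; exact e3
  have ht1 : L1 ≤ t := by rw [ht, le_div_iff₀ hlf]; exact e6
  have ht3 : L3 ≤ t := by rw [ht, le_div_iff₀ hlf]; exact e7
  obtain ⟨n', a, g, q, p, d, x, hQ, hn', ha, hg, hx, hs, htx⟩ := h t ht0
  have hψL : 1 ≤ ψ L := hL1 L e5
  have hψt : 1 ≤ ψ t := hL1 t ht1
  have hpow : (2 : ℝ) ^ (f * (n' + a + g + 1)) ≤ n := by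
    calc (2 : ℝ) ^ (f * (n' + a + g + 1)) ≤ (2 : ℝ) ^ (f * t) := by
          apply Real.rpow_le_rpow_of_exponent_le (by norm_num)
          exact mul_le_mul_of_nonneg_left hs hf0.le
      _ = n := by
          rw [Real.rpow_def_of_pos (by norm_num), ht]
          have : Real.log 2 * (f * (L / (Real.log 2 * f))) = L := by
            field_simp
          rw [this, hL, Real.exp_log hn0]
  obtain ⟨V, hV, hxV⟩ := hF hQ hn' ha hg hx n he hpow
  have hVg : (V : ℝ) ≤ gmax n := by exact_mod_cast le_csSup (bdd_GC n) hV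
  refine le_trans (le_trans ?_ hxV) hVg
  -- the loss at `t`
  have htL : t ≤ 2 * L := by
    rw [ht, div_le_iff₀ hlf]
    have : 1 ≤ 2 * (Real.log 2 * f) := by nlinarith
    nlinarith
  have hlt : ψ t ≤ 2 * ψ L := hL3 t L ht3 htL
  have hlte : ψ t ^ e ≤ 2 ^ e * ψ L ^ e := by
    rw [← mul_pow]
    exact pow_le_pow_left₀ (by linarith) hlt e
  have hLe : 0 < ψ L ^ e := by positivity
  have hx2 : L / (f * C * (2 ^ e * ψ L ^ e)) ≤ x * Real.log 2 := by
    rw [div_le_iff₀ (by positivity)]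
    have h1 : L = t * (Real.log 2 * f) := by rw [ht]; field_simp
    have h2 : t ≤ C * x * (2 ^ e * ψ L ^ e) :=
      htx.trans (mul_le_mul_of_nonneg_left hlte (by positivity))
    calc L = t * (Real.log 2 * f) := h1
      _ ≤ C * x * (2 ^ e * ψ L ^ e) * (Real.log 2 * f) :=
          mul_le_mul_of_nonneg_right h2 hlf.le
      _ = x * Real.log 2 * (f * C * (2 ^ e * ψ L ^ e)) := by ring
  have h24 : Real.log 24 ≤ L * (c / ψ L ^ e) := by
    have : Real.log 24 / c * ψ L ^ e ≤ L := e1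
    rw [div_mul_eq_mul_div, div_le_iff₀ hc0] at this
    rw [mul_div_assoc', le_div_iff₀ hLe]
    exact this
  have hkey : L * (c / ψ L ^ e) + Real.log 24 ≤ x * Real.log 2 := by
    have h1 : L / (f * C * (2 ^ e * ψ L ^ e)) = 2 * (L * (c / ψ L ^ e)) := by
      rw [hc]
      field_simp
    linarith
  have e24 : (24 : ℝ) = Real.exp (Real.log 24) := (Real.exp_log (by norm_num)).symm
  rw [le_div_iff₀ (by norm_num), Real.rpow_add hn0, Real.rpow_one, Real.rpow_def_of_pos hn0,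
    ← hL, Real.rpow_def_of_pos (by norm_num : (0 : ℝ) < 2)]
  calc (n : ℝ) * Real.exp (L * (c / ψ L ^ e)) * 24
      = n * Real.exp (L * (c / ψ L ^ e) + Real.log 24) := by
        rw [Real.exp_add, ← e24]; ring
    _ ≤ n * Real.exp (Real.log 2 * x) := by
        apply mul_le_mul_of_nonneg_left _ hn0.le
        apply Real.exp_le_exp.2
        linarith
    _ = Real.exp (Real.log 2 * x) * n := by ring

/-- transfer to `k`-sets -/
theorem ktransfer_psi {ψ : ℝ → ℝ} (hψ : Loss ψ) {e : ℕ} (F : ℕ → ℕ) (E : ℕ → ℕ → ℕ)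
    (hF : ∃ (c : ℝ) (N : ℕ), 0 < c ∧ ∀ n : ℕ, N ≤ n → Even n →
      (n : ℝ) ^ (1 + c / (ψ (Real.log n)) ^ e) ≤ F n)
    (hE : ∀ k n t : ℕ, 2 * k * t ≤ n → t * F (2 * k) ≤ E k n) :
    ∃ (c : ℝ) (K : ℕ), 0 < c ∧ ∀ k n : ℕ, K ≤ k → 2 * k ≤ n →
      (n : ℝ) * (k : ℝ) ^ (c / (ψ (Real.log k)) ^ e) ≤ E k n := by
  obtain ⟨c, N, hc, hF⟩ := hF
  obtain ⟨L1, hL1⟩ := hψ.one_le
  obtain ⟨L3, hL3⟩ := hψ.dbl
  have hlog2 : 0 < Real.log 2 := Real.log_pos (by norm_num)
  have hlog2' : Real.log 2 < 0.7 := by have := Real.log_two_lt_d9; linarith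
  set c' : ℝ := c / (2 * 2 ^ e) with hc'
  have hc'0 : 0 < c' := by rw [hc']; positivity
  have tend : Tendsto (fun n : ℕ => Real.log n) atTop atTop :=
    Real.tendsto_log_atTop.comp tendsto_natCast_atTop_atTop
  have ev : ∀ᶠ l : ℝ in atTop, (Real.log 2 / c') * (ψ l) ^ e ≤ l ∧ 3 ≤ l ∧ L1 ≤ l ∧ L3 ≤ l :=
    (ev_loss hψ e _ (by positivity)).and ((eventually_ge_atTop _).and
      ((eventually_ge_atTop _).and (eventually_ge_atTop _)))
  obtain ⟨K, hK⟩ := eventually_atTop.1 (tend.eventually ev)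
  refine ⟨c', K + N + 1, hc'0, fun k n hk hn => ?_⟩
  obtain ⟨e1, e2, e3, e4⟩ := hK k (by omega)
  have hk0 : (0 : ℝ) < k := by exact_mod_cast (by omega : 0 < k)
  have hk2 : (0 : ℝ) < ((2 * k : ℕ) : ℝ) := by push_cast; linarith
  set l := Real.log k with hl
  set L := Real.log ((2 * k : ℕ) : ℝ) with hL
  have hLl : L = l + Real.log 2 := by
    rw [hL, hl]; push_cast
    rw [Real.log_mul (by norm_num) hk0.ne']; ring
  have hψl : 1 ≤ ψ l := hL1 l e3
  have hψL1 : 1 ≤ ψ L := hL1 L (by linarith)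
  have hψL : ψ L ≤ 2 * ψ l := hL3 L l (by linarith) (by linarith)
  have hle : 0 < ψ l ^ e := by positivity
  have hLe : 0 < ψ L ^ e := by positivity
  have hLle : ψ L ^ e ≤ 2 ^ e * ψ l ^ e := by
    rw [← mul_pow]
    exact pow_le_pow_left₀ (by linarith) hψL e
  have hexp : l * (c' / ψ l ^ e) + Real.log 2 ≤ L * (c / ψ L ^ e) := by
    have h1 : 2 * (l * (c' / ψ l ^ e)) ≤ L * (c / ψ L ^ e) := by
      have h3 : 2 * (l * (c' / ψ l ^ e)) = l * (c / (2 ^ e * ψ l ^ e)) := by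
        rw [hc']; field_simp
      rw [h3]
      apply mul_le_mul (by linarith) _ (by positivity) (by linarith)
      exact div_le_div_of_nonneg_left hc.le hLe hLle
    have h2 : Real.log 2 ≤ l * (c' / ψ l ^ e) := by
      rw [div_mul_eq_mul_div, div_le_iff₀ hc'0] at e1
      rw [mul_div_assoc', le_div_iff₀ hle]
      exact e1
    linarith
  have hFk := hF (2 * k) (by omega) (even_two_mul k)
  obtain ⟨t, ht⟩ : ∃ t : ℕ, t = n / (2 * k) := ⟨_, rfl⟩
  have hkpos : 0 < 2 * k := by omega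
  have ht1 : 2 * k * t ≤ n := by rw [ht]; exact Nat.mul_div_le n (2 * k)
  have ht2 : n < 2 * k * (t + 1) := by
    rw [ht]; exact Nat.lt_mul_div_succ n hkpos
  have ht3 : 1 ≤ t := by
    rw [ht]; exact (Nat.one_le_div_iff hkpos).2 hn
  have ht4 : (n : ℝ) ≤ 2 * (2 * k) * t := by
    have h1 : n ≤ 2 * (2 * k) * t := by nlinarith only [ht2, ht3]
    exact_mod_cast h1
  have hEk : (t : ℝ) * F (2 * k) ≤ E k n := by exact_mod_cast hE k n t ht1
  have hpow : ((2 * k : ℕ) : ℝ) ^ (1 + c / ψ L ^ e) =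
      (2 * k) * Real.exp (L * (c / ψ L ^ e)) := by
    rw [Real.rpow_add hk2, Real.rpow_one, Real.rpow_def_of_pos hk2, ← hL]
    push_cast
    ring
  have hpow2 : (k : ℝ) ^ (c' / ψ l ^ e) = Real.exp (l * (c' / ψ l ^ e)) := by
    rw [Real.rpow_def_of_pos hk0, ← hl]
  have hmain : 2 * Real.exp (l * (c' / ψ l ^ e)) ≤ Real.exp (L * (c / ψ L ^ e)) := by
    have h1 : (2 : ℝ) = Real.exp (Real.log 2) := (Real.exp_log (by norm_num)).symm
    calc 2 * Real.exp (l * (c' / ψ l ^ e))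
        = Real.exp (l * (c' / ψ l ^ e) + Real.log 2) := by
          rw [Real.exp_add, ← h1]; ring
      _ ≤ _ := Real.exp_le_exp.2 hexp
  rw [hpow2]
  obtain ⟨a, ha⟩ : ∃ a : ℝ, a = Real.exp (l * (c' / ψ l ^ e)) := ⟨_, rfl⟩
  obtain ⟨b, hb⟩ : ∃ b : ℝ, b = Real.exp (L * (c / ψ L ^ e)) := ⟨_, rfl⟩
  rw [hpow, ← hb] at hFk
  rw [← ha, ← hb] at hmain
  rw [← ha]
  have ha0 : 0 < a := by rw [ha]; exact Real.exp_pos _
  have ht0 : (0 : ℝ) ≤ t := by positivity
  calc (n : ℝ) * a ≤ (2 * (2 * k) * t) * a := mul_le_mul_of_nonneg_right ht4 ha0.le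
    _ = t * ((2 * k) * (2 * a)) := by ring
    _ ≤ t * ((2 * k) * b) := by
        apply mul_le_mul_of_nonneg_left _ ht0
        apply mul_le_mul_of_nonneg_left hmain
        positivity
    _ ≤ t * F (2 * k) := mul_le_mul_of_nonneg_left hFk ht0
    _ ≤ E k n := hEk

/-- the function `log t / log log t` -/
noncomputable def psi (t : ℝ) : ℝ := Real.log t / Real.log (Real.log t)

theorem loss_psi : Loss psi := by
  have ex : Real.exp 1 < 3 := by have := Real.exp_one_lt_d9; linarith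
  -- facts for large `L`
  have big : ∀ L : ℝ, Real.exp (Real.exp 3) ≤ L → Real.exp 3 ≤ Real.log L ∧
      3 ≤ Real.log (Real.log L) := by
    intro L hL
    have h0 : 0 < L := lt_of_lt_of_le (Real.exp_pos _) hL
    have h1 : Real.exp 3 ≤ Real.log L := by
      rw [Real.le_log_iff_exp_le h0]; exact hL
    refine ⟨h1, ?_⟩
    rw [Real.le_log_iff_exp_le (lt_of_lt_of_le (Real.exp_pos _) h1)]
    exact h1
  refine ⟨⟨Real.exp (Real.exp 3), fun L hL => ?_⟩, ⟨Real.exp (Real.exp 3), fun L hL => ?_⟩,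
    ⟨2 * Real.exp (Real.exp 3), fun t L ht htL => ?_⟩⟩
  · obtain ⟨h1, h2⟩ := big L hL
    have h3 : 0 < Real.log L := lt_of_lt_of_le (Real.exp_pos _) h1
    unfold psi
    rw [one_le_div (by linarith)]
    have := Real.log_le_sub_one_of_pos h3
    linarith
  · obtain ⟨h1, h2⟩ := big L hL
    have h3 : 0 < Real.log L := lt_of_lt_of_le (Real.exp_pos _) h1
    unfold psi
    exact div_le_self h3.le (by linarith)
  · have hL : Real.exp (Real.exp 3) ≤ L := by linarith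
    have ht' : Real.exp (Real.exp 3) ≤ t := by
      have := Real.exp_pos (Real.exp 3); linarith
    obtain ⟨h1, h2⟩ := big L hL
    obtain ⟨h4, h5⟩ := big t ht'
    have h3 : 0 < Real.log L := lt_of_lt_of_le (Real.exp_pos _) h1
    have h6 : 0 < Real.log t := lt_of_lt_of_le (Real.exp_pos _) h4
    have e3 : (3 : ℝ) < Real.exp 3 := by
      have := Real.add_one_lt_exp (show (3 : ℝ) ≠ 0 by norm_num); linarith
    have hL0 : 0 < L := lt_of_lt_of_le (Real.exp_pos _) hL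
    have ht0 : 0 < t := lt_of_lt_of_le (Real.exp_pos _) ht'
    have h7 : Real.log t ≤ 2 * Real.log L := by
      have a1 : Real.log t ≤ Real.log (2 * L) := Real.log_le_log ht0 htL
      have a2 : Real.log (2 * L) = Real.log 2 + Real.log L :=
        Real.log_mul (by norm_num) hL0.ne'
      have a3 := Real.log_two_lt_d9
      linarith
    -- `y / log y` is increasing for `y ≥ e`
    have mono := Real.log_div_self_antitoneOn
    have m1 : Real.log t ∈ {x : ℝ | Real.exp 1 ≤ x} := by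
      show Real.exp 1 ≤ Real.log t
      linarith
    have m2 : 2 * Real.log L ∈ {x : ℝ | Real.exp 1 ≤ x} := by
      show Real.exp 1 ≤ 2 * Real.log L
      linarith
    have m3 := mono m1 m2 h7
    simp only at m3
    have h8 : Real.log (Real.log L) ≤ Real.log (2 * Real.log L) :=
      Real.log_le_log h3 (by linarith)
    have h9 : 0 < Real.log (2 * Real.log L) := by linarith
    -- from `log (2 l) / (2 l) ≤ log (log t) / log t`
    unfold psi
    rw [div_le_div_iff₀ (by positivity) h6] at m3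
    rw [mul_div_assoc', div_le_div_iff₀ (by linarith) (by linarith)]
    calc Real.log t * Real.log (Real.log L) ≤ Real.log t * Real.log (2 * Real.log L) :=
          mul_le_mul_of_nonneg_left h8 h6.le
      _ = Real.log (2 * Real.log L) * Real.log t := by ring
      _ ≤ Real.log (Real.log t) * (2 * Real.log L) := m3
      _ = 2 * Real.log L * Real.log (Real.log t) := by ring

end Vale.Agent.P065.R2.H919
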