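import Vale.Agent.P065.W.Asym4
import Vale.Agent.P065.R2.H919.Psi


/-!
# P065: the recursion of the meta step, number of levels `log t / log log t` (helper919)
-/

set_option linter.all false

namespace Vale.Agent.P065.R2.H919

open Vale.Agent.P065 Vale.Agent.P065.W

/-- factorials below `t`: `M! ≤ t` implies `M ≤ 2 log t / log log t` for large `t` -/
theorem fact_bound : ∃ t1 : ℝ, ∀ t : ℝ, t1 ≤ t → ∀ M : ℕ, (M.factorial : ℝ) ≤ t →
    (M : ℝ) ≤ 2 * psi t := by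
  refine ⟨Real.exp (Real.exp 8), fun t ht M hM => ?_⟩
  have h0 : 0 < t := lt_of_lt_of_le (Real.exp_pos _) ht
  have h1 : Real.exp 8 ≤ Real.log t := by
    rw [Real.le_log_iff_exp_le h0]; exact ht
  have hL0 : 0 < Real.log t := lt_of_lt_of_le (Real.exp_pos _) h1
  have h2 : 8 ≤ Real.log (Real.log t) := by
    rw [Real.le_log_iff_exp_le hL0]; exact h1
  obtain ⟨L, hL⟩ : ∃ L, L = Real.log t := ⟨_, rfl⟩
  obtain ⟨l, hl⟩ : ∃ l, l = Real.log (Real.log t) := ⟨_, rfl⟩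
  have hpsi : psi t = L / l := by rw [hL, hl]; rfl
  rw [← hl] at h2
  rw [← hL] at hL0
  have hl0 : 0 < l := by linarith
  by_contra hcon
  rw [not_le, hpsi] at hcon
  have hy0 : 0 < 2 * (L / l) := by positivity
  have hM0 : (0 : ℝ) < M := lt_trans hy0 hcon
  have hlogL : Real.log L = l := by rw [hL, hl]
  -- `log M > log 2 + l - log l`
  have h3 : Real.log 2 + l - Real.log l < Real.log M := by
    have a1 : Real.log (2 * (L / l)) < Real.log M := Real.log_lt_log hy0 hcon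
    rw [Real.log_mul (by norm_num) (by positivity), Real.log_div hL0.ne' hl0.ne', hlogL] at a1
    linarith
  have h4 : Real.log l ≤ l / 8 - 1 + 3 * Real.log 2 := by
    have a1 := Real.log_le_sub_one_of_pos (show 0 < l / 8 by positivity)
    rw [Real.log_div hl0.ne' (by norm_num)] at a1
    have a2 : Real.log 8 = 3 * Real.log 2 := by
      rw [show (8 : ℝ) = 2 ^ 3 by norm_num, Real.log_pow]; norm_num
    linarith
  have h5 := Real.log_two_gt_d9
  have h6 := Real.log_two_lt_d9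
  have h7 : 2 / 3 * l < Real.log M - 1 := by linarith
  -- `M log M - M ≤ log t`
  have h8 : (M : ℝ) * (Real.log M - 1) ≤ L := by
    have a1 := Real.pow_div_factorial_le_exp (M : ℝ) hM0.le M
    have hf : (0 : ℝ) < M.factorial := by exact_mod_cast Nat.factorial_pos M
    rw [div_le_iff₀ hf] at a1
    have a2 : (M : ℝ) ^ M ≤ Real.exp M * t :=
      a1.trans (mul_le_mul_of_nonneg_left hM (Real.exp_pos _).le)
    have a3 : Real.log ((M : ℝ) ^ M) ≤ Real.log (Real.exp M * t) :=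
      Real.log_le_log (by positivity) a2
    rw [Real.log_pow, Real.log_mul (Real.exp_pos _).ne' h0.ne', Real.log_exp, ← hL] at a3
    linarith
  have h9 : 2 * (L / l) * (2 / 3 * l) ≤ (M : ℝ) * (Real.log M - 1) :=
    mul_le_mul hcon.le h7.le (by positivity) hM0.le
  have h10 : 2 * (L / l) * (2 / 3 * l) = 4 / 3 * L := by field_simp; ring
  linarith

theorem fact_le_asN (k0 : ℕ) (hk : 4 ≤ k0) (M : ℕ) : (M.factorial : ℝ) ≤ asN k0 M := by
  induction M with
  | zero => simp [asN]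
  | succ M ih =>
    have h1 : asN k0 (M + 1) = ((k0 * (M + 1) ^ 2 : ℕ) : ℝ) * asN k0 M := rfl
    rw [h1, Nat.factorial_succ]
    have h2 : ((M + 1 : ℕ) : ℝ) ≤ ((k0 * (M + 1) ^ 2 : ℕ) : ℝ) := by
      exact_mod_cast (by nlinarith : M + 1 ≤ k0 * (M + 1) ^ 2)
    rw [Nat.cast_mul]
    exact mul_le_mul h2 ih (by positivity) (by positivity)

/-- as `AsymStmt4`, with `log t / log log t` in place of `log t` -/
def AsymStmtPsi : Prop :=
  ∀ (P : ℝ → ℝ → ℝ → ℝ → ℝ → ℝ → ℝ → Prop) (c x0 : ℝ), 1 ≤ c → 0 < x0 →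
    (∃ n a g q p d : ℝ, 0 ≤ n ∧ 0 ≤ a ∧ 0 ≤ g ∧ 0 ≤ q ∧ 0 ≤ p ∧ 0 ≤ d ∧ P n a g q p d x0) →
    (∀ {n a g q p d x : ℝ} {k K : ℕ}, P n a g q p d x → 1 ≤ k → 1 ≤ K →
      0 ≤ n → 0 ≤ a → 0 ≤ g → 0 ≤ q → 0 ≤ p → 0 ≤ d → 0 ≤ x →
      let e : ℝ := k * (d + Real.logb 2 K + 6)
      P (k * (n + a + c * (e + 1))) (k * (a + c * (q + p + e + 1)) + c * (a + g + q + p + e + 1))
        (k * (g + c * (a + q + p + e + 1)) + c * (a + g + q + p + e + 1))
        (c * (a + g + q + p + e + 1)) (k * (p + 3) + 3) e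
        (k * (x - Real.logb 2 (1 + 1 / K)) - 1)) →
    ∃ C : ℝ, 0 < C ∧ ∃ t0 : ℝ, ∀ t : ℝ, t0 ≤ t →
      ∃ n a g q p d x : ℝ, P n a g q p d x ∧ 0 ≤ n ∧ 0 ≤ a ∧ 0 ≤ g ∧ 0 < x ∧
        n + a + g + 1 ≤ t ∧ t ≤ C * x * (psi t) ^ 4

theorem asymPsi : AsymStmtPsi := by
  obtain ⟨t1, ht1f⟩ := fact_bound
  obtain ⟨t2, ht2f⟩ := loss_psi.one_le
  intro P c x0 hc hx0 hbase hstep
  obtain ⟨n0, a0, g0, q0, p0, d0, hn0, ha0, hg0, hq0, hp0, hd0, hP0⟩ := hbase
  obtain ⟨K0, k0, C1, Q, A, G, hK0, hk0, hl, hC1, hQ, hA, hG, hkx, e1, e2, e3, e4, i1, i2, i3,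
    i4, i5, i6⟩ := exists_consts hc hx0 (⟨n0, a0, g0, q0, p0, d0, x0⟩ : AsSt)
  obtain ⟨L, hLdef⟩ : ∃ L, L = Real.logb 2 K0 := ⟨_, rfl⟩
  obtain ⟨l, hldef⟩ : ∃ l, l = Real.logb 2 (1 + 1 / K0) := ⟨_, rfl⟩
  rw [← hLdef] at i1
  rw [← hldef] at hl
  have hL : 0 ≤ L := by
    rw [hLdef]
    exact Real.logb_nonneg (by norm_num) (by exact_mod_cast hK0)
  obtain ⟨S, hS⟩ : ∃ S, S = asSeq c L l k0 (⟨n0, a0, g0, q0, p0, d0, x0⟩ : AsSt) := ⟨_, rfl⟩
  have hk4 : (4 : ℝ) ≤ (k0 : ℝ) := by exact_mod_cast hk0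
  have hk00 : (0 : ℝ) < k0 := by linarith only [hk4]
  -- the invariants
  have inv : ∀ M : ℕ, AsInv L l x0 C1 Q A G (asN k0 M) ((M : ℝ) + 1) (S M) := by
    intro M
    induction M with
    | zero =>
      have hS0 : S 0 = (⟨n0, a0, g0, q0, p0, d0, x0⟩ : AsSt) := by rw [hS]; rfl
      have hN0 : asN k0 0 = 1 := rfl
      rw [hS0, hN0]
      refine ⟨hn0, ha0, hg0, hq0, hp0, hd0, ?_, ?_, ?_, ?_, ?_, ?_, ?_, ?_⟩
      · show (1 : ℝ) ≤ n0 + 1
        linarith only [hn0]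
      · show d0 + 2 * (L + 6) ≤ C1 * 1
        linarith only [i1]
      · show p0 + 5 ≤ C1 * 1
        linarith only [i2]
      · show q0 ≤ Q * 1 * (((0 : ℕ) : ℝ) + 1) ^ 2
        norm_num
        exact i3
      · show a0 ≤ A * 1 * (((0 : ℕ) : ℝ) + 1) ^ 3
        norm_num
        exact i4
      · show g0 ≤ G * 1 * (((0 : ℕ) : ℝ) + 1) ^ 4
        norm_num
        exact i5
      · show n0 ≤ G * 1 * (((0 : ℕ) : ℝ) + 1) ^ 4
        norm_num
        exact i6
      · show x0 / 2 + 1 * (x0 / 2) ≤ x0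
        linarith only []
    | succ M ih =>
      have h := AsInv.step hc hL hl hx0 hC1 hQ hA hG (asN_ge k0 hk0 M).1
        (by have : (0 : ℝ) ≤ M := Nat.cast_nonneg M
            linarith only [this]) hk4 hkx e1 e2 e3 e4 ih
      have h1 : asN k0 (M + 1) = (k0 : ℝ) * ((M : ℝ) + 1) ^ 2 * asN k0 M := by
        show ((k0 * (M + 1) ^ 2 : ℕ) : ℝ) * asN k0 M = _
        push_cast
        ring
      have h2 : S (M + 1) = asStep c L l ((k0 : ℝ) * ((M : ℝ) + 1) ^ 2) (S M) := by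
        rw [hS]
        show asStep c L l ((k0 * (M + 1) ^ 2 : ℕ) : ℝ) (asSeq c L l k0 _ M) = _
        congr 1
        push_cast
        ring
      rw [h1, h2]
      push_cast
      exact h
  have hx : ∀ M, 0 ≤ (S M).x := by
    intro M
    have h1 := (inv M).xN
    have h2 := (asN_ge k0 hk0 M).1
    have h3 : 0 ≤ asN k0 M * (x0 / 2) := by positivity
    linarith only [h1, h3, hx0]
  -- one step from a level
  have stp : ∀ (M k : ℕ), 1 ≤ k → P (S M).n (S M).a (S M).g (S M).q (S M).p (S M).d (S M).x →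
      P (asStep c L l k (S M)).n (asStep c L l k (S M)).a (asStep c L l k (S M)).g
        (asStep c L l k (S M)).q (asStep c L l k (S M)).p (asStep c L l k (S M)).d
        (asStep c L l k (S M)).x := by
    intro M k hk hP
    have hi := inv M
    have h := hstep hP hk hK0 hi.n0 hi.a0 hi.g0 hi.q0 hi.p0 hi.d0 (hx M)
    rw [← hLdef, ← hldef] at h
    exact h
  -- the property holds along the sequence
  have hPS : ∀ M : ℕ, P (S M).n (S M).a (S M).g (S M).q (S M).p (S M).d (S M).x := by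
    intro M
    induction M with
    | zero => rw [hS]; exact hP0
    | succ M ih =>
      have hk : 1 ≤ k0 * (M + 1) ^ 2 := by
        have : 0 < k0 * (M + 1) ^ 2 := by positivity
        omega
      have h := stp M _ hk ih
      rw [hS] at h ⊢
      exact h
  -- the sizes
  obtain ⟨H, hH⟩ : ∃ H : ℝ, H = 9 * c * (A + G + Q + C1 + C1 * k0 + 1) := ⟨_, rfl⟩
  have hH1 : 1 ≤ H := by
    rw [hH]
    have hCk : 0 ≤ C1 * k0 := by positivity
    have h1 : 1 ≤ A + G + Q + C1 + C1 * k0 + 1 := by linarith only [hA, hG, hQ, hC1, hCk]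
    have h2 : 1 * 1 ≤ c * (A + G + Q + C1 + C1 * k0 + 1) :=
      mul_le_mul hc h1 (by norm_num) (by linarith only [hc])
    linarith only [h2]
  have hH0 : 0 < H := by linarith only [hH1]
  obtain ⟨T, hT⟩ : ∃ T : ℕ → ℝ, ∀ M : ℕ, T M = H * asN k0 M * ((M : ℝ) + 1) ^ 4 :=
    ⟨fun M : ℕ => H * asN k0 M * ((M : ℝ) + 1) ^ 4, fun _ => rfl⟩
  have hTN : ∀ M, asN k0 M ≤ T M := by
    intro M
    rw [hT]
    have h1 := (asN_ge k0 hk0 M).1
    have h2 : (1 : ℝ) ≤ ((M : ℝ) + 1) ^ 4 := by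
      have : (0 : ℝ) ≤ M := Nat.cast_nonneg M
      exact one_le_pow₀ (by linarith only [this])
    have h3 : 1 * 1 ≤ H * ((M : ℝ) + 1) ^ 4 :=
      mul_le_mul hH1 h2 (by norm_num) (by linarith only [hH1])
    calc asN k0 M ≤ H * ((M : ℝ) + 1) ^ 4 * asN k0 M :=
          le_mul_of_one_le_left (by linarith only [h1]) (by linarith only [h3])
      _ = _ := by ring
  have hTpos : ∀ M, 0 < T M := fun M => by
    have h1 := (asN_ge k0 hk0 M).1
    have h2 := hTN M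
    linarith only [h1, h2]
  refine ⟨2 * k0 * H * (2 / x0) * 256, by positivity,
    max (max (k0 * T 0) (Real.exp 1)) (max t1 t2), ?_⟩
  intro t ht
  have ht0 : k0 * T 0 ≤ t := le_trans (le_trans (le_max_left _ _) (le_max_left _ _)) ht
  have ht1 : Real.exp 1 ≤ t := le_trans (le_trans (le_max_right _ _) (le_max_left _ _)) ht
  have htf : t1 ≤ t := le_trans (le_trans (le_max_left _ _) (le_max_right _ _)) ht
  have htg : t2 ≤ t := le_trans (le_trans (le_max_right _ _) (le_max_right _ _)) ht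
  have hps := ht2f t htg
  have htpos : 0 < t := lt_of_lt_of_le (Real.exp_pos 1) ht1
  -- the last level that fits
  classical
  have hex : ∃ M, ¬ k0 * T (M + 1) ≤ t := by
    obtain ⟨M, hM⟩ := exists_nat_ge t
    refine ⟨M, ?_⟩
    have h1 := (asN_ge k0 hk0 (M + 1)).2
    have h2 := Real.add_one_le_exp ((M + 1 : ℕ) : ℝ)
    have h3 := hTN (M + 1)
    have h4 := hTpos (M + 1)
    have h5 : 1 * T (M + 1) ≤ k0 * T (M + 1) :=
      mul_le_mul_of_nonneg_right (by linarith only [hk4]) h4.le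
    push_cast at h1 h2
    intro h
    linarith only [h1, h2, h3, h5, h, hM]
  obtain ⟨M, hM2, hM1⟩ : ∃ M, k0 * T M ≤ t ∧ t < k0 * T (M + 1) := by
    refine ⟨Nat.find hex, ?_, not_le.1 (Nat.find_spec hex)⟩
    rcases Nat.eq_zero_or_pos (Nat.find hex) with h | h
    · rw [h]; exact ht0
    · have h1 := Nat.find_min hex (m := Nat.find hex - 1) (by omega)
      rw [not_not, Nat.sub_add_cancel h] at h1
      exact h1
  have hM0 : (0 : ℝ) ≤ M := Nat.cast_nonneg M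
  have hN1 := (asN_ge k0 hk0 M).1
  have hN2 := (asN_ge k0 hk0 M).2
  obtain ⟨N, hN⟩ : ∃ N, N = asN k0 M := ⟨_, rfl⟩
  obtain ⟨m, hm⟩ : ∃ m : ℝ, m = (M : ℝ) + 1 := ⟨_, rfl⟩
  have hm1 : 1 ≤ m := by linarith only [hm, hM0]
  have hTM : T M = H * N * m ^ 4 := by rw [hT, hN, hm]
  have hkjr : ((k0 * (M + 1) ^ 2 : ℕ) : ℝ) = k0 * m ^ 2 := by rw [hm]; push_cast; ring
  have hTM1 : T (M + 1) = H * (k0 * m ^ 2 * N) * (m + 1) ^ 4 := by
    rw [hT]
    have h1 : asN k0 (M + 1) = k0 * m ^ 2 * N := by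
      show ((k0 * (M + 1) ^ 2 : ℕ) : ℝ) * asN k0 M = _
      rw [hkjr, hN]
    have h2 : (((M + 1 : ℕ) : ℝ) + 1) = m + 1 := by push_cast; rw [hm]
    rw [h1, h2]
  have hTMpos := hTpos M
  have hN0 : 0 < N := by rw [hN]; linarith only [hN1]
  -- the multiplicity of the last step
  have hfl : k0 ≤ ⌊t / T M⌋₊ := by
    apply Nat.le_floor
    rw [le_div_iff₀ hTMpos]
    exact hM2
  have hf1 : (⌊t / T M⌋₊ : ℝ) * T M ≤ t := by
    have := Nat.floor_le (show 0 ≤ t / T M from div_nonneg htpos.le hTMpos.le)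
    rwa [le_div_iff₀ hTMpos] at this
  have hpow : m ^ 4 ≤ (m + 1) ^ 4 := pow_le_pow_left₀ (by linarith only [hm1]) (by linarith only []) 4
  obtain ⟨k, hk1, hk2, hkT, htk⟩ : ∃ k : ℕ, k0 ≤ k ∧ (k : ℝ) ≤ k0 * m ^ 2 ∧ k * T M ≤ t ∧
      t ≤ 2 * k0 * H * (k * N) * (m + 1) ^ 4 := by
    rcases le_total ⌊t / T M⌋₊ (k0 * (M + 1) ^ 2) with h | h
    · refine ⟨⌊t / T M⌋₊, hfl, ?_, hf1, ?_⟩
      · rw [← hkjr]
        exact_mod_cast h
      · have h2 := Nat.lt_floor_add_one (t / T M)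
        rw [div_lt_iff₀ hTMpos] at h2
        have h3 : (4 : ℝ) ≤ (⌊t / T M⌋₊ : ℝ) := by
          have : (k0 : ℝ) ≤ (⌊t / T M⌋₊ : ℝ) := by exact_mod_cast hfl
          linarith only [this, hk4]
        obtain ⟨y, hy⟩ : ∃ y : ℝ, y = (⌊t / T M⌋₊ : ℝ) := ⟨_, rfl⟩
        rw [← hy] at h2 h3 ⊢
        have h4 : t ≤ 2 * y * T M := by
          have : (y + 1) * T M ≤ 2 * y * T M :=
            mul_le_mul_of_nonneg_right (by linarith only [h3]) hTMpos.le
          linarith only [this, h2]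
        have h5 : 2 * y * T M ≤ 2 * (H * (y * N)) * (m + 1) ^ 4 := by
          rw [hTM]
          have : 2 * y * (H * N * m ^ 4) = 2 * (H * (y * N)) * m ^ 4 := by ring
          rw [this]
          exact mul_le_mul_of_nonneg_left hpow (by positivity)
        have h6 : 2 * (H * (y * N)) * (m + 1) ^ 4 ≤
            k0 * (2 * (H * (y * N)) * (m + 1) ^ 4) :=
          le_mul_of_one_le_left (by positivity) (by linarith only [hk4])
        have h7 : (k0 : ℝ) * (2 * (H * (y * N)) * (m + 1) ^ 4) =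
          2 * k0 * H * (y * N) * (m + 1) ^ 4 := by ring
        linarith only [h4, h5, h6, h7]
    · refine ⟨k0 * (M + 1) ^ 2, ?_, hkjr.le, ?_, ?_⟩
      · have : 1 ≤ (M + 1) ^ 2 := Nat.one_le_pow _ _ (by omega)
        calc k0 = k0 * 1 := (mul_one _).symm
          _ ≤ k0 * (M + 1) ^ 2 := Nat.mul_le_mul_left _ this
      · have h2 : ((k0 * (M + 1) ^ 2 : ℕ) : ℝ) ≤ (⌊t / T M⌋₊ : ℝ) := by exact_mod_cast h
        have := mul_le_mul_of_nonneg_right h2 hTMpos.le
        linarith only [this, hf1]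
      · rw [hkjr]
        rw [hTM1] at hM1
        have h7 : 2 * (k0 : ℝ) * H * (k0 * m ^ 2 * N) * (m + 1) ^ 4 =
          2 * (k0 * (H * (k0 * m ^ 2 * N) * (m + 1) ^ 4)) := by ring
        have h8 : 0 ≤ (k0 : ℝ) * (H * (k0 * m ^ 2 * N) * (m + 1) ^ 4) := by positivity
        linarith only [h7, h8, hM1]
  have hk1r : (k0 : ℝ) ≤ k := by exact_mod_cast hk1
  have hk0' : (0 : ℝ) < k := by linarith only [hk1r, hk00]
  have hi := inv M
  rw [← hN, ← hm] at hi
  obtain ⟨r1, r2, r3, r4, r5⟩ := hi.last hc hL hl hx0 hC1 hQ hA hG (by rw [hN]; exact hN1) hm1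
    hk4 hkx hk1r hk2
  have hPk := stp M k (by omega) (hPS M)
  obtain ⟨s, hs⟩ : ∃ s, s = asStep c L l k (S M) := ⟨_, rfl⟩
  rw [← hs] at r1 r2 r3 r4 r5 hPk
  have hsx : 0 < s.x := by
    have : 0 < k * N * (x0 / 2) := by positivity
    linarith only [this, r5]
  refine ⟨s.n, s.a, s.g, s.q, s.p, s.d, s.x, hPk, r1, r2, r3, hsx, ?_, ?_⟩
  · refine r4.trans ?_
    rw [← hH]
    refine le_trans (le_of_eq ?_) hkT
    rw [hTM]
    ring
  · have hlogM : (M : ℝ) ≤ 2 * psi t := by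
      apply ht1f t htf M
      have h3 := hTN M
      have h5 : 1 * T M ≤ k0 * T M :=
        mul_le_mul_of_nonneg_right (by linarith only [hk4]) hTMpos.le
      have h6 := fact_le_asN k0 hk0 M
      linarith only [h6, h3, hM2, h5]
    have hw : m + 1 ≤ 4 * psi t := by rw [hm]; linarith only [hps, hlogM]
    have hw4 : (m + 1) ^ 4 ≤ 256 * psi t ^ 4 := by
      have h1 : (m + 1) ^ 4 ≤ (4 * psi t) ^ 4 :=
        pow_le_pow_left₀ (by linarith only [hm1]) hw 4
      have h2 : (4 * psi t) ^ 4 = 256 * psi t ^ 4 := by ring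
      linarith only [h1, h2]
    have hkN : k * N ≤ 2 / x0 * s.x := by
      have h1 := mul_le_mul_of_nonneg_left r5 (show 0 ≤ 2 / x0 by positivity)
      have h2 : 2 / x0 * (k * N * (x0 / 2)) = k * N := by field_simp
      linarith only [h1, h2]
    have hlog4 : 0 ≤ psi t ^ 4 := by positivity
    calc t ≤ 2 * k0 * H * (k * N) * (m + 1) ^ 4 := htk
      _ ≤ 2 * k0 * H * (2 / x0 * s.x) * (256 * psi t ^ 4) := by
          apply mul_le_mul _ hw4 (by positivity) (by positivity)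
          exact mul_le_mul_of_nonneg_left hkN (by positivity)
      _ = _ := by ring

end Vale.Agent.P065.R2.H919
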