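import Mathlib

/-!
# P065, stage B: the recursion over chains of cores of decreasing size, statements (helper919)

Version 2: the fifth parameter is the logarithm `z` of the largest used slope difference (not the
ratio), and the shrinking exponents `β_i = aa i + b (qb + zb + e + 1)` enter the new `z`.
-/

set_option autoImplicit false

namespace Vale.Agent.P065.R2.H919

open Finset

/-- product of a chain of `m` different cores (abstract form) -/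
def ChainStmt (P : ℝ → ℝ → ℝ → ℝ → ℝ → ℝ → ℝ → Prop) (b c : ℝ) : Prop :=
  ∀ (m : ℕ) (nn aa gg qq zz dd xx : ℕ → ℝ) (e qb zb M : ℝ), 1 ≤ m →
    (∀ i < m, P (nn i) (aa i) (gg i) (qq i) (zz i) (dd i) (xx i)) →
    (∀ i < m, 0 ≤ nn i ∧ 0 ≤ aa i ∧ 0 ≤ gg i ∧ 0 ≤ qq i ∧ 0 ≤ zz i ∧ 0 ≤ dd i) →
    (∀ i < m, qq i ≤ qb ∧ zz i ≤ zb) →
    ∑ i ∈ range m, (dd i + 6) ≤ e →
    (∀ i < m, (∑ j ∈ range (i + 1), (aa j + b * (qb + zb + e + 1))) +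
      c * (aa i + gg i + aa (i - 1) + gg (i - 1) + qb + zb + e + 1) ≤ M) →
    P (∑ i ∈ range m, (nn i + aa i + c * (e + 1))) (M + c * m)
      (M + c * m + ∑ i ∈ range m, (gg i + c * (aa i + qb + zb + e + 1)))
      (c * (aa (m - 1) + gg (m - 1) + qb + zb + e + 1))
      (M - ∑ j ∈ range m, (aa j + b * (qb + zb + e + 1)) + ∑ i ∈ range m, (zz i + 2) + c * m)
      e (∑ i ∈ range m, (xx i - 1) - 1)

/-- monotonicity in all parameters -/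
def MonoStmt (P : ℝ → ℝ → ℝ → ℝ → ℝ → ℝ → ℝ → Prop) : Prop :=
  ∀ {n a g q z d x n' a' g' q' z' d' x' : ℝ}, P n a g q z d x → n ≤ n' → a ≤ a' → g ≤ g' →
    q ≤ q' → z ≤ z' → d ≤ d' → x' ≤ x → P n' a' g' q' z' d' x'

/-- start configurations of arbitrarily large gain -/
def BaseStmtU (P : ℝ → ℝ → ℝ → ℝ → ℝ → ℝ → ℝ → Prop) : Prop :=
  ∀ X : ℝ, ∃ n a g q z d x : ℝ, 0 ≤ n ∧ 0 ≤ a ∧ 0 ≤ g ∧ 0 ≤ q ∧ 0 ≤ z ∧ 0 ≤ d ∧ X ≤ x ∧
    P n a g q z d x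

/-- **the recursion** -/
def RecStmt : Prop :=
  ∀ (P : ℝ → ℝ → ℝ → ℝ → ℝ → ℝ → ℝ → Prop) (b c : ℝ), 1 ≤ b → b ≤ c → ChainStmt P b c →
    MonoStmt P → BaseStmtU P →
    ∃ C : ℝ, 0 < C ∧ ∃ t0 : ℝ, ∀ t : ℝ, t0 ≤ t →
      ∃ n a g q z d x : ℝ, P n a g q z d x ∧ 0 ≤ n ∧ 0 ≤ a ∧ 0 ≤ g ∧ 0 < x ∧
        n + a + g + 1 ≤ t ∧ t ≤ C * x * (Real.log t) ^ 3

end Vale.Agent.P065.R2.H919
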