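import Vale.Agent.P065.R2.H919.TolU
import Vale.Agent.P065.R2.H919.RecStmt
import Vale.Agent.P065.W.MStep
import Vale.Agent.P065.W.Round
import Vale.Agent.P065.W.Triv
import Vale.Agent.P065.W.Main4

/-!
# P065, stage B: product of a chain of different cores (helper919)
-/

set_option linter.all false

namespace Vale.Agent.P065.R2.H919

open Vale.Agent.P065 Vale.Agent.P065.W

/-- Integer configuration in binary logarithms; `z` bounds the used slope differences. -/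
def LC3 (n a g q z d x : ℝ) : Prop :=
  ∃ (h D V A : ℕ) (B Γ T s Z : ℝ), IC2 h D V A B Γ T s Z ∧ 1 ≤ h ∧ (h : ℝ) ≤ 2 ^ n ∧
    1 ≤ A ∧ (A : ℝ) ≤ 2 ^ a ∧ 1 ≤ B ∧ 1 ≤ Γ ∧ B * Γ ≤ (2 : ℝ) ^ g ∧ 1 ≤ T ∧ T ≤ (2 : ℝ) ^ q ∧
    1 ≤ s ∧ s ≤ Z ∧ Z ≤ (2 : ℝ) ^ z ∧ 1 ≤ D ∧ (D : ℝ) ≤ 2 ^ d ∧
    (2 : ℝ) ^ x * (2 * h) ≤ V

/-- one insertion, separate parameters -/
theorem stepU {h D V A Xm : ℕ} {B Γ T s Z θ S η : ℝ} (hIC : IC2 h D V A B Γ T s Z) (h1 : 1 ≤ h)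
    (A1 : 1 ≤ A) (B1 : 1 ≤ B) (Γ1 : 1 ≤ Γ) (T1 : 1 ≤ T) (s0 : 0 < s) (V1 : 1 ≤ V) (X1 : 1 ≤ Xm)
    (θ0 : 0 < θ) (θ64 : θ ≤ 1 / 64) (η0 : 0 < η) (θT : 1024 * θ * T ≤ 1)
    (θZ : 2048 * θ * Xm * Z ≤ 1) (ηA : 8192 * A * η ≤ θ * s) (Yη : 128 * (8 * A * Xm) * η ≤ 1)
    (S1 : 1 ≤ S) (Ss : 4 * Z ≤ S * s)
    {N D0 E0 V0 : ℕ} {r T0 W0 U0 s1 Z0 B0 : ℝ} (hRC : RC2 N D0 E0 V0 r S T0 θ W0 U0 s1 Z0 B0)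
    (r0 : 0 < r) (r1 : r ≤ 1) (T01 : 1 ≤ T0) (W00 : 0 ≤ W0) (U00 : 0 ≤ U0) (s10 : 0 < s1)
    (B01 : 1 ≤ B0) (hX : 2 * (2 * (D0 + E0)) + 1 ≤ Xm)
    {R ρ Γg T' W' U' : ℝ} (eR : R = 8 * (8 * A * Xm)) (eρ : ρ = η / 4)
    (eΓ : Γg = 32 * A * B * Γ / η) (T1' : 1 ≤ T') (hT' : 4 * R ^ 2 * Γg ≤ T')
    (hW' : 4 * S * R ^ 2 * Γg / ρ ≤ W')
    (hU' : 4 + 64 * R ^ 2 * Γg + 64 * S * R * (W0 + 1) / ρ + θ * η * s * U0 ≤ U') :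
    RC2 (N * (2 * (2 * h * (2 * (2 * (D0 + E0)) + 1) * (8 * A * Xm) +
        2 * (h * (2 * (8 * A * Xm + A * (2 * (D0 + E0))) + 1)) * (D0 + E0))))
      D (2 * (2 * (D0 + E0)) * D)
      (V0 * ((2 * (2 * (D0 + E0)) + 1) * (2 * (8 * A * Xm) + 1) * V))
      (ρ * r / (256 * S ^ 2 * R ^ 2 * Γg)) S T' θ W' U' (θ * η * s * s1 / 2)
      (2 * θ * η * Z * Z0) (3 * B0) := by
  obtain ⟨κ, ν, βQ, βP, γ, _, _, _, _, G, F, A', hG, hcard⟩ :=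
    lattice hIC h1 A1 B1 Γ1 T1 s0 V1 (X := 2 * (D0 + E0)) (Xm := Xm) (Y := 8 * A * Xm) (θ := θ)
      (η := η) X1 hX le_rfl θ0 η0 θT θZ ηA (by push_cast; exact Yη)
  have hG' : GOk G F R ρ Γg θ η s Z (2 * h * (2 * (2 * (D0 + E0)) + 1) * (8 * A * Xm)) A'
      (h * (2 * (8 * A * Xm + A * (2 * (D0 + E0))) + 1)) D (2 * (2 * (D0 + E0)) * D) := by
    rw [eR, eρ, eΓ]
    push_cast at hG
    exact hG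
  have hmain := productU hRC r0 r1 S1 T01 θ0 θ64 W00 U00 s10 B01 G F hG' Ss T1' hT' hW' hU'
  rw [hcard] at hmain
  exact hmain

/-- uniform parameters of a chain -/
structure Uni (θ S qb zb e : ℝ) (Xm : ℕ) : Prop where
  θ0 : 0 < θ
  θ64 : θ ≤ 1 / 64
  θT : 1024 * θ * (2 : ℝ) ^ qb ≤ 1
  θZ : 2048 * θ * Xm * (2 : ℝ) ^ zb ≤ 1
  θi : 1 / θ ≤ (2 : ℝ) ^ (12 + qb + zb + e)
  eS : S = 4 * (2 : ℝ) ^ zb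
  X1 : 1 ≤ Xm
  Xe : (Xm : ℝ) ≤ (2 : ℝ) ^ e
  Xl : ∀ D : ℕ, (D : ℝ) ≤ (2 : ℝ) ^ e → D ≤ Xm
  q0 : 0 ≤ qb
  z0 : 0 ≤ zb
  e0 : 0 ≤ e

theorem Uni.exists {qb zb e : ℝ} (q0 : 0 ≤ qb) (z0 : 0 ≤ zb) (e0 : 0 ≤ e) :
    ∃ θ S Xm, Uni θ S qb zb e Xm := by
  obtain ⟨Xm, hXm⟩ : ∃ Xm : ℕ, Xm = ⌊(2 : ℝ) ^ e⌋₊ := ⟨_, rfl⟩
  have h2e : (1 : ℝ) ≤ (2 : ℝ) ^ e := b2_one e0
  have hq1 : (1 : ℝ) ≤ (2 : ℝ) ^ qb := b2_one q0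
  have hz1 : (1 : ℝ) ≤ (2 : ℝ) ^ zb := b2_one z0
  have X1 : 1 ≤ Xm := by
    rw [hXm]
    exact Nat.le_floor (by simpa using h2e)
  have Xe : (Xm : ℝ) ≤ (2 : ℝ) ^ e := by
    rw [hXm]
    exact Nat.floor_le (by positivity)
  have X1r : (1 : ℝ) ≤ Xm := by exact_mod_cast X1
  have XZ : 1 ≤ (Xm : ℝ) * (2 : ℝ) ^ zb := one_le_mul_of_one_le_of_one_le X1r hz1
  obtain ⟨P, hP⟩ : ∃ P : ℝ, P = 2048 * ((2 : ℝ) ^ qb + Xm * (2 : ℝ) ^ zb) := ⟨_, rfl⟩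
  have P0 : 0 < P := by rw [hP]; positivity
  obtain ⟨θ, hθ⟩ : ∃ θ : ℝ, θ = 1 / P := ⟨_, rfl⟩
  have θ0 : 0 < θ := by rw [hθ]; positivity
  have hθP : θ * P = 1 := by rw [hθ]; field_simp
  rw [hP] at hθP
  have k1 : 0 ≤ θ * ((Xm : ℝ) * (2 : ℝ) ^ zb) := by positivity
  have k2 : 0 ≤ θ * (2 : ℝ) ^ qb := by positivity
  refine ⟨θ, 4 * (2 : ℝ) ^ zb, Xm, θ0, ?_, by linarith only [hθP, k1, k2], by linarith only [hθP, k2],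
    ?_, rfl, X1, Xe, ?_, q0, z0, e0⟩
  · rw [hθ, div_le_div_iff₀ P0 (by norm_num), hP]
    linarith only [hq1, XZ]
  · have e1 : 1 / θ = P := by rw [hθ]; field_simp
    rw [e1, hP]
    have h1 : (2 : ℝ) ^ qb ≤ (2 : ℝ) ^ (qb + zb + e) := b2_mono le_rfl (by linarith only [z0, e0])
    have h2 : (Xm : ℝ) * (2 : ℝ) ^ zb ≤ (2 : ℝ) ^ (qb + zb + e) :=
      b2_mono (b2_mul Xe (le_refl ((2 : ℝ) ^ zb)) (by positivity)) (by linarith only [q0])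
    have h3 := b2_mul (b2_nat (c := 2048) 11 (by norm_num)) (b2_add h1 h2) (by positivity)
    exact b2_mono h3 (by push_cast; linarith only [])
  · intro D hD
    rw [hXm]
    exact Nat.le_floor hD

/-- state of the chain, in binary logarithms -/
def CS (θ S nn dd rr ww M σ ζ bb xx : ℝ) : Prop :=
  ∃ (h' D' E' V' : ℕ) (r T W U s Z B : ℝ), RC2 (2 * h') D' E' V' r S T θ W U s Z B ∧ 1 ≤ h' ∧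
    (h' : ℝ) ≤ (2 : ℝ) ^ nn ∧ 1 ≤ D' + E' ∧ ((D' + E' : ℕ) : ℝ) ≤ (2 : ℝ) ^ dd ∧ 0 < r ∧ r ≤ 1 ∧
    1 / r ≤ (2 : ℝ) ^ rr ∧ 1 ≤ T ∧ T ≤ (2 : ℝ) ^ ww ∧ 0 ≤ W ∧ W + 1 ≤ (2 : ℝ) ^ ww ∧ 1 ≤ U ∧
    U ≤ (2 : ℝ) ^ M * s ∧ W + 1 ≤ (2 : ℝ) ^ M * s ∧ s = (2 : ℝ) ^ (-σ) ∧
    Z ≤ (2 : ℝ) ^ ζ * s ∧ s ≤ Z ∧ 1 ≤ B ∧ B ≤ (2 : ℝ) ^ bb ∧
    (2 : ℝ) ^ xx * (2 * h') ≤ 2 * V'

/-- the bounds of the parameters of one insertion -/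
theorem coreBds {A Xm : ℕ} {B Γ θ S η R ρ Γg qb zb e a g β : ℝ} (Un : Uni θ S qb zb e Xm)
    (A1 : 1 ≤ A) (hA : (A : ℝ) ≤ (2 : ℝ) ^ a) (B1 : 1 ≤ B) (Γ1 : 1 ≤ Γ)
    (hB : B * Γ ≤ (2 : ℝ) ^ g) (η0 : 0 < η) (hη : 1 / η ≤ (2 : ℝ) ^ β)
    (eR : R = 8 * (8 * A * Xm)) (eρ : ρ = η / 4) (eΓ : Γg = 32 * A * B * Γ / η) :
    R ≤ (2 : ℝ) ^ (6 + a + e) ∧ Γg ≤ (2 : ℝ) ^ (5 + a + g + β) ∧
    1 / ρ ≤ (2 : ℝ) ^ (2 + β) ∧ S ≤ (2 : ℝ) ^ (zb + 2) ∧ 1 ≤ R ∧ 0 < ρ ∧ 0 < Γg ∧ 1 ≤ S := by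
  have A1r : (1 : ℝ) ≤ A := by exact_mod_cast A1
  have X1r : (1 : ℝ) ≤ Xm := by exact_mod_cast Un.X1
  have A0 : (0 : ℝ) < A := by linarith only [A1r]
  have X0 : (0 : ℝ) < Xm := by linarith only [X1r]
  have B0 : (0 : ℝ) < B := by linarith only [B1]
  have Γ0 : (0 : ℝ) < Γ := by linarith only [Γ1]
  have hz1 : (1 : ℝ) ≤ (2 : ℝ) ^ zb := b2_one Un.z0
  refine ⟨?_, ?_, ?_, ?_, ?_, ?_, ?_, ?_⟩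
  · have e1 : R = 64 * A * Xm := by rw [eR]; ring
    rw [e1]
    have h5 := b2_mul (b2_mul (b2_nat (c := 64) 6 (by norm_num)) hA A0.le) Un.Xe X0.le
    exact b2_mono h5 (by push_cast; linarith only [])
  · have e1 : Γg = 32 * A * (B * Γ) * (1 / η) := by rw [eΓ]; ring
    rw [e1]
    have h5 := b2_mul (b2_mul (b2_mul (b2_nat (c := 32) 5 (by norm_num)) hA A0.le) hB
      (by positivity)) hη (by positivity)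
    exact b2_mono h5 (by push_cast; linarith only [])
  · have e1 : 1 / ρ = 4 * (1 / η) := by rw [eρ]; field_simp
    rw [e1]
    have h5 := b2_mul (b2_nat (c := 4) 2 (by norm_num)) hη (by positivity)
    exact b2_mono h5 (by push_cast; linarith only [])
  · rw [Un.eS]
    have h5 := b2_mul (b2_nat (c := 4) 2 (by norm_num)) (le_refl ((2 : ℝ) ^ zb)) (by positivity)
    exact b2_mono h5 (by push_cast; linarith only [])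
  · rw [eR]
    have : 1 * 1 ≤ (A : ℝ) * Xm := by gcongr
    linarith only [this]
  · rw [eρ]; positivity
  · rw [eΓ]; positivity
  · rw [Un.eS]; linarith only [hz1]

end Vale.Agent.P065.R2.H919
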