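import Vale.Agent.P065.R2.H919.Chain

/-!
# P065, stage B: one step of the chain in logarithmic form (helper919)
-/

set_option linter.all false

namespace Vale.Agent.P065.R2.H919

open Vale.Agent.P065 Vale.Agent.P065.W

theorem stepCS {θ S qb zb e : ℝ} {Xm : ℕ} (Un : Uni θ S qb zb e Xm)
    {nn dd rr ww M σ ζ bb xx n a g q z d x K β wf M' : ℝ}
    (hS : CS θ S nn dd rr ww M σ ζ bb xx) (hL : LC3 n a g q z d x)
    (a0 : 0 ≤ a) (g0 : 0 ≤ g) (hq : q ≤ qb) (hz : z ≤ zb) (hdd : dd + 3 ≤ e) (ww0 : 0 ≤ ww)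
    (hK : K = qb + zb + e + 1) (hβ : β = a + 40 * K) (hwf : wf = g + 5 * a + 110 * K)
    (hM1 : M + 2 ≤ M') (hM2 : σ + β + (g + 5 * a + ww + 70 * K) + 1 ≤ M')
    (hM3 : σ + β + wf ≤ M') :
    CS θ S (nn + (n + a + 2 * e + 6)) (dd + (d + 3)) (rr + (g + 5 * a + 113 * K)) wf M' (σ + β)
      (ζ + (z + 2)) (bb + 2) (xx + (x - 1)) := by
  obtain ⟨h', D0, E0, V0, r, T0, W0, U0, s1, Z1, B0, hRC, hh1, hhb, hδ1, hδ, r0, r1, hr, T01, hT0,
    W00, hW0, U01, hU0, hW0', hs1, hZ1, sZ1, B01, hB0, hgain⟩ := hS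
  obtain ⟨h, D, V, A, B, Γ, T, s, Z, hIC, h1, hh, A1, hA, B1, Γ1, hBΓ, T1, hT, s1', sZ, hZ, D1, hD,
    hV⟩ := hL
  have q0 := Un.q0
  have z0 := Un.z0
  have e0 := Un.e0
  have K1 : 1 ≤ K := by rw [hK]; linarith only [q0, z0, e0]
  have θ0 := Un.θ0
  have X1 := Un.X1
  have A1r : (1 : ℝ) ≤ A := by exact_mod_cast A1
  have X1r : (1 : ℝ) ≤ Xm := by exact_mod_cast X1
  have h1r : (1 : ℝ) ≤ h := by exact_mod_cast h1
  have D1r : (1 : ℝ) ≤ D := by exact_mod_cast D1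
  have s0 : 0 < s := by linarith only [s1']
  have Zp : 0 < Z := by linarith only [s0, sZ]
  have Zb : Z ≤ (2 : ℝ) ^ zb := b2_mono hZ hz
  have V1 : 1 ≤ V := by
    have h2 : (0 : ℝ) < V := lt_of_lt_of_le (by positivity) hV
    exact_mod_cast h2
  have θs : θ * s ≤ 1 := by
    have k1 : θ * (1 * s) ≤ θ * (Xm * (2 : ℝ) ^ zb) := by
      gcongr
      exact sZ.trans Zb
    have k2 := Un.θZ
    have k3 : 0 ≤ θ * s := by positivity
    linarith only [k1, k2, k3]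
  have θs0 : 0 < θ * s := by positivity
  obtain ⟨η, hη⟩ : ∃ η : ℝ, η = (2 : ℝ) ^ (1 - β) / (θ * s) := ⟨_, rfl⟩
  have η0 : 0 < η := by rw [hη]; positivity
  have hθη : θ * η * s = (2 : ℝ) ^ (1 - β) := by rw [hη]; field_simp
  have hθη2 : θ * η * s / 2 = (2 : ℝ) ^ (-β) := by
    rw [hθη, show (1 - β) = -β + 1 by ring, Real.rpow_add (by norm_num), Real.rpow_one]
    ring
  have hηi : 1 / η ≤ (2 : ℝ) ^ β := by
    have e1 : 1 / η = θ * s * (2 : ℝ) ^ (β - 1) := by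
      rw [hη, one_div, inv_div, show β - 1 = -(1 - β) by ring, Real.rpow_neg (by norm_num)]
      field_simp
    rw [e1]
    have k1 : θ * s * (2 : ℝ) ^ (β - 1) ≤ 1 * (2 : ℝ) ^ (β - 1) :=
      mul_le_mul_of_nonneg_right θs (b2_pos _).le
    rw [one_mul] at k1
    exact b2_mono k1 (by linarith only [])
  have hθi := Un.θi
  -- the requirements of the lattice
  have ηA : 8192 * A * η ≤ θ * s := by
    have y1 : 8192 * (A : ℝ) * (2 : ℝ) ^ (1 - β) * (1 / θ) ^ 2 ≤ 1 := by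
      have k1 := b2_mul (b2_mul (b2_mul (b2_nat (c := 8192) 13 (by norm_num)) hA (by positivity))
        (le_refl ((2 : ℝ) ^ (1 - β))) (by positivity)) (b2_pow hθi (by positivity) 2) (by positivity)
      have k2 : (2 : ℝ) ^ (((13 : ℕ) : ℝ) + a + (1 - β) + ((2 : ℕ) : ℝ) * (12 + qb + zb + e)) ≤
          (2 : ℝ) ^ (0 : ℝ) := by
        apply Real.rpow_le_rpow_of_exponent_le (by norm_num)
        rw [hβ, hK]
        push_cast
        linarith only [q0, z0, e0]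
      rw [Real.rpow_zero] at k2
      exact k1.trans k2
    have e1 : 8192 * (A : ℝ) * η =
        (8192 * (A : ℝ) * (2 : ℝ) ^ (1 - β) * (1 / θ) ^ 2) * (θ / s) := by
      rw [hη]; field_simp
    rw [e1]
    have k3 : 0 ≤ θ / s := by positivity
    have k4 := mul_le_mul_of_nonneg_right y1 k3
    have k5 : θ / s ≤ θ * s := by
      rw [div_le_iff₀ s0]
      have : θ * (1 * 1) ≤ θ * (s * s) := by gcongr
      linarith only [this]
    linarith only [k4, k5]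
  have Yη : 128 * (8 * A * Xm) * η ≤ 1 := by
    have e1 : 128 * (8 * (A : ℝ) * Xm) * η =
        1024 * A * Xm * (2 : ℝ) ^ (1 - β) * (1 / θ) * (1 / s) := by
      rw [hη]; field_simp; ring
    rw [e1]
    have k1 := b2_mul (b2_mul (b2_mul (b2_mul (b2_nat (c := 1024) 10 (by norm_num)) hA
      (by positivity)) Un.Xe (by positivity)) (le_refl ((2 : ℝ) ^ (1 - β))) (by positivity)) hθi
      (by positivity)
    have k2 : (2 : ℝ) ^ (((10 : ℕ) : ℝ) + a + e + (1 - β) + (12 + qb + zb + e)) ≤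
        (2 : ℝ) ^ (0 : ℝ) := by
      apply Real.rpow_le_rpow_of_exponent_le (by norm_num)
      rw [hβ, hK]
      push_cast
      linarith only [q0, z0, e0]
    rw [Real.rpow_zero] at k2
    have k3 : 1 / s ≤ 1 := by rw [div_le_one s0]; exact s1'
    have k4 : 0 ≤ 1 / s := by positivity
    calc 1024 * (A : ℝ) * Xm * (2 : ℝ) ^ (1 - β) * (1 / θ) * (1 / s) ≤ 1 * 1 :=
          mul_le_mul (k1.trans k2) k3 k4 (by norm_num)
      _ = 1 := one_mul 1
  have η1 : η ≤ 1 := by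
    have h2 : 128 * (8 * 1 * 1) * η ≤ 128 * (8 * A * Xm) * η := by gcongr
    linarith only [Yη, h2, η0]
  have θT : 1024 * θ * T ≤ 1 := by
    have k1 : 1024 * θ * T ≤ 1024 * θ * (2 : ℝ) ^ qb := by
      gcongr
      exact b2_mono hT hq
    exact k1.trans Un.θT
  have θZ : 2048 * θ * Xm * Z ≤ 1 := by
    have k1 : 2048 * θ * Xm * Z ≤ 2048 * θ * Xm * (2 : ℝ) ^ zb := by gcongr
    exact k1.trans Un.θZ
  obtain ⟨R, eR⟩ : ∃ R : ℝ, R = 8 * (8 * A * Xm) := ⟨_, rfl⟩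
  obtain ⟨ρ, eρ⟩ : ∃ ρ : ℝ, ρ = η / 4 := ⟨_, rfl⟩
  obtain ⟨Γg, eΓ⟩ : ∃ Γg : ℝ, Γg = 32 * A * B * Γ / η := ⟨_, rfl⟩
  obtain ⟨bR, bΓ, bρ, bS, R1, ρ0, Γg0, S1⟩ := coreBds Un A1 hA B1 Γ1 hBΓ η0 hηi eR eρ eΓ
  have R0 : 0 < R := by linarith only [R1]
  have S0 : 0 < S := by linarith only [S1]
  have Γg1 : 1 ≤ Γg := by
    rw [eΓ, le_div_iff₀ η0]
    have : 1 * 1 * 1 * 1 ≤ 32 * (A : ℝ) * B * Γ := by gcongr; norm_num
    linarith only [this, η1]
  have Ss : 4 * Z ≤ S * s := by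
    rw [Un.eS]
    have k1 : 4 * (2 : ℝ) ^ zb * 1 ≤ 4 * (2 : ℝ) ^ zb * s := by gcongr
    linarith only [k1, Zb]
  -- columns
  obtain ⟨δ, hδe⟩ : ∃ δ : ℕ, δ = D0 + E0 := ⟨_, rfl⟩
  have δ1r : (1 : ℝ) ≤ δ := by
    have : 1 ≤ δ := by rw [hδe]; exact hδ1
    exact_mod_cast this
  have hδr : (δ : ℝ) ≤ (2 : ℝ) ^ dd := by rw [hδe]; exact hδ
  have hX : 2 * (2 * (D0 + E0)) + 1 ≤ Xm := by
    apply Un.Xl
    rw [← hδe]
    push_cast
    have k1 := b2_mul (b2_nat (c := 8) 3 (by norm_num)) hδr (by positivity)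
    have k2 : 8 * (δ : ℝ) ≤ (2 : ℝ) ^ e := b2_mono k1 (by push_cast; linarith only [hdd])
    linarith only [k2, δ1r]
  have hXr : 2 * (2 * (1 : ℝ) * δ) + 1 ≤ Xm := by
    have h3 : 2 * (2 * δ) + 1 ≤ Xm := by rw [hδe]; exact hX
    have h4 : 2 * (2 * (δ : ℝ)) + 1 ≤ Xm := by exact_mod_cast h3
    linarith only [h4]
  obtain ⟨F, hF⟩ : ∃ F : ℕ, F = 2 * (2 * h * (2 * (2 * (D0 + E0)) + 1) * (8 * A * Xm) +
      2 * (h * (2 * (8 * A * Xm + A * (2 * (D0 + E0))) + 1)) * (D0 + E0)) := ⟨_, rfl⟩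
  have hFr : (F : ℝ) = 2 * (2 * h * (2 * (2 * 1 * δ) + 1) * (8 * A * Xm) +
      2 * (h * (2 * (8 * A * Xm + A * (2 * 1 * δ)) + 1)) * δ) := by
    rw [hF, hδe]
    push_cast
    ring
  have hF1 : 1 ≤ F := by
    have : 1 ≤ h * A * Xm := Nat.one_le_iff_ne_zero.2 (by positivity)
    rw [hF]
    have h5 : 1 * (8 * A * Xm * h) ≤ (2 * (2 * (D0 + E0)) + 1) * (8 * A * Xm * h) :=
      Nat.mul_le_mul_right _ (by omega)
    have h6 : 0 ≤ 2 * (h * (2 * (8 * A * Xm + A * (2 * (D0 + E0))) + 1)) * (D0 + E0) :=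
      Nat.zero_le _
    nlinarith only [this, h5, h6]
  have hsz := size2 (K := 1) (A := (A : ℝ)) (δ := (δ : ℝ)) (h := (h : ℝ)) (X := 2 * 1 * (δ : ℝ))
    (Y := 8 * (A : ℝ) * Xm) (Xm := (Xm : ℝ)) le_rfl A1r δ1r (by positivity) rfl rfl hXr
  have hrt := ratio2 (K := 1) (A := (A : ℝ)) (δ := (δ : ℝ)) (h := (h : ℝ)) (X := 2 * 1 * (δ : ℝ))
    (Y := 8 * (A : ℝ) * Xm) (Xm := (Xm : ℝ)) (V := (V : ℝ)) (y := (2 : ℝ) ^ x) le_rfl A1r δ1r
    (by positivity) rfl rfl hXr (b2_pos x).le hV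
  -- the step
  obtain ⟨T', eT'⟩ : ∃ T' : ℝ, T' = 4 * R ^ 2 * Γg := ⟨_, rfl⟩
  obtain ⟨W', eW'⟩ : ∃ W' : ℝ, W' = 4 * S * R ^ 2 * Γg / ρ := ⟨_, rfl⟩
  obtain ⟨U', eU'⟩ : ∃ U' : ℝ, U' = 4 + 64 * R ^ 2 * Γg + 64 * S * R * (W0 + 1) / ρ +
    θ * η * s * U0 := ⟨_, rfl⟩
  have T1' : 1 ≤ T' := by
    rw [eT']
    have : 1 * 1 ^ 2 * 1 ≤ 4 * R ^ 2 * Γg := by gcongr; norm_num
    linarith only [this]
  have s10 : 0 < s1 := by rw [hs1]; positivity
  have hstep := stepU hIC h1 A1 B1 Γ1 T1 s0 V1 X1 θ0 Un.θ64 η0 θT θZ ηA Yη S1 Ss hRC r0 r1 T01 W00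
    (by linarith only [U01]) s10 B01 hX eR eρ eΓ T1' eT'.ge eW'.ge eU'.ge
  rw [← hF] at hstep
  have eN : 2 * h' * F = 2 * (h' * F) := by ring
  rw [eN] at hstep
  have es : θ * η * s * s1 / 2 = (2 : ℝ) ^ (-(σ + β)) := by
    have e1 : θ * η * s * s1 / 2 = (θ * η * s / 2) * s1 := by ring
    rw [e1, hθη2, hs1, ← Real.rpow_add (by norm_num)]
    congr 1
    ring
  have den : 1 ≤ 256 * S ^ 2 * R ^ 2 * Γg := by
    have : 1 * 1 ^ 2 * 1 ^ 2 * 1 ≤ 256 * S ^ 2 * R ^ 2 * Γg := by gcongr; norm_num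
    linarith only [this]
  have bR2 : R ^ 2 ≤ (2 : ℝ) ^ (12 + 2 * a + 2 * e) := by
    have := b2_pow bR R0.le 2
    exact b2_mono this (by push_cast; linarith only [])
  have bS2 : S ^ 2 ≤ (2 : ℝ) ^ (2 * zb + 4) := by
    have := b2_pow bS S0.le 2
    exact b2_mono this (by push_cast; linarith only [])
  have bT : T' ≤ (2 : ℝ) ^ (19 + 3 * a + 2 * e + g + β) := by
    rw [eT']
    have h5 := b2_mul (b2_mul (b2_nat (c := 4) 2 (by norm_num)) bR2 (by positivity)) bΓ Γg0.le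
    exact b2_mono h5 (by push_cast; linarith only [])
  have W'0 : 0 ≤ W' := by rw [eW']; positivity
  have bW : W' + 1 ≤ (2 : ℝ) ^ wf := by
    have e1 : W' = S * T' * (1 / ρ) := by rw [eW', eT']; ring
    have k1 : W' ≤ (2 : ℝ) ^ (zb + 2 + (19 + 3 * a + 2 * e + g + β) + (2 + β)) := by
      rw [e1]
      exact b2_mul (b2_mul bS bT (by linarith only [T1'])) bρ (by positivity)
    have k2 : W' ≤ (2 : ℝ) ^ (wf - 1) := b2_mono k1 (by
      rw [hwf, hβ, hK]; linarith only [q0, z0, e0])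
    have k3 : (1 : ℝ) ≤ (2 : ℝ) ^ (wf - 1) := b2_one (by
      rw [hwf]; linarith only [g0, a0, K1])
    exact b2_mono (b2_add k2 k3) (by linarith only [])
  have bU1 : 4 + 64 * R ^ 2 * Γg + 64 * S * R * (W0 + 1) / ρ ≤
      (2 : ℝ) ^ (g + 5 * a + ww + 70 * K) := by
    obtain ⟨hb, hhb'⟩ : ∃ hb : ℝ, hb = g + 5 * a + ww + 70 * K := ⟨_, rfl⟩
    rw [← hhb']
    have k1 : (4 : ℝ) ≤ (2 : ℝ) ^ (hb - 2) :=
      b2_mono (b2_nat (c := 4) 2 (by norm_num)) (by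
        rw [hhb']; push_cast; linarith only [g0, a0, K1, ww0])
    have k2 : 64 * R ^ 2 * Γg ≤ (2 : ℝ) ^ (hb - 2) := by
      have h5 := b2_mul (b2_mul (b2_nat (c := 64) 6 (by norm_num)) bR2 (by positivity)) bΓ Γg0.le
      exact b2_mono h5 (by
        rw [hhb', hβ, hK]; push_cast; linarith only [g0, a0, q0, z0, e0, ww0])
    have k3 : 64 * S * R * (W0 + 1) / ρ ≤ (2 : ℝ) ^ (hb - 1) := by
      have e1 : 64 * S * R * (W0 + 1) / ρ = 64 * S * R * (W0 + 1) * (1 / ρ) := by ring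
      rw [e1]
      have h5 := b2_mul (b2_mul (b2_mul (b2_mul (b2_nat (c := 64) 6 (by norm_num)) bS S0.le) bR
        R0.le) hW0 (by linarith only [W00])) bρ (by positivity)
      exact b2_mono h5 (by
        rw [hhb', hβ, hK]; push_cast; linarith only [g0, a0, q0, z0, e0, ww0])
    have k4 : 4 + 64 * R ^ 2 * Γg ≤ (2 : ℝ) ^ (hb - 1) :=
      b2_mono (b2_add k1 k2) (by linarith only [])
    exact b2_mono (b2_add k4 k3) (by linarith only [])
  have U'1 : 1 ≤ U' := by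
    rw [eU']
    have k1 : 0 ≤ 64 * R ^ 2 * Γg := by positivity
    have k2 : 0 ≤ 64 * S * R * (W0 + 1) / ρ := by positivity
    have k3 : 0 ≤ θ * η * s * U0 := by positivity
    linarith only [k1, k2, k3]
  refine ⟨h' * F, D, 2 * (2 * (D0 + E0)) * D, _, _, T', W', U', _, _, _, hstep, ?_, ?_, ?_, ?_, ?_,
    ?_, ?_, T1', ?_, W'0, bW, U'1, ?_, ?_, es, ?_, ?_, ?_, ?_, ?_⟩
  · exact Nat.one_le_iff_ne_zero.2 (by positivity)
  · push_cast
    have k1 : (F : ℝ) ≤ (2 : ℝ) ^ (n + a + 2 * e + 6) := by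
      rw [hFr]
      refine hsz.trans ?_
      have k2 := b2_mul (b2_mul (b2_mul (b2_nat (c := 64) 6 (by norm_num)) hh (by positivity)) hA
        (by positivity)) (b2_pow Un.Xe (by positivity) 2) (by positivity)
      exact b2_mono k2 (by push_cast; linarith only [])
    exact b2_mul hhb k1 (by positivity)
  · exact le_trans D1 (Nat.le_add_right _ _)
  · rw [← hδe]
    push_cast
    have k1 : (D : ℝ) + 2 * (2 * δ) * D ≤ δ * (D * 8) := by
      have : (1 : ℝ) * D ≤ δ * D := by gcongr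
      have h6 : (0 : ℝ) ≤ δ * D := by positivity
      linarith only [this, h6]
    have k2 := b2_mul hδr (b2_mul hD (b2_nat (c := 8) 3 (by norm_num)) (by norm_num))
      (by positivity)
    exact b2_mono (k1.trans k2) (by push_cast; linarith only [])
  · positivity
  · rw [div_le_one (by linarith only [den])]
    have k1 : ρ * r ≤ 1 * 1 := by
      have : ρ ≤ 1 := by rw [eρ]; linarith only [η1]
      gcongr
    linarith only [k1, den]
  · have e1 : 1 / (ρ * r / (256 * S ^ 2 * R ^ 2 * Γg)) =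
        (1 / r) * (256 * S ^ 2 * R ^ 2 * Γg * (1 / ρ)) := by
      field_simp
    rw [e1]
    have h5 := b2_mul (b2_mul (b2_mul (b2_mul (b2_nat (c := 256) 8 (by norm_num)) bS2
      (by positivity)) bR2 (by positivity)) bΓ (by positivity)) bρ (by positivity)
    refine b2_mul hr (b2_mono h5 ?_) (by positivity)
    rw [hβ, hK]
    push_cast
    linarith only [q0, z0, e0]
  · exact b2_mono bT (by rw [hwf, hβ, hK]; linarith only [q0, z0, e0, a0])
  · -- U'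
    rw [es, eU', ← Real.rpow_add (by norm_num)]
    have k1 : 4 + 64 * R ^ 2 * Γg + 64 * S * R * (W0 + 1) / ρ ≤
        (2 : ℝ) ^ (M' + -(σ + β) - 1) := b2_mono bU1 (by linarith only [hM2])
    have k2 : θ * η * s * U0 ≤ (2 : ℝ) ^ (M' + -(σ + β) - 1) := by
      rw [hθη]
      have k3 := b2_mul (le_refl ((2 : ℝ) ^ (1 - β)))
        (b2_mul (le_refl ((2 : ℝ) ^ M)) (le_refl ((2 : ℝ) ^ (-σ))) (b2_pos _).le)
        (by positivity)
      have k4 : (2 : ℝ) ^ (1 - β) * U0 ≤ (2 : ℝ) ^ (1 - β) * ((2 : ℝ) ^ M * (2 : ℝ) ^ (-σ)) := by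
        rw [hs1] at hU0
        gcongr
      exact b2_mono (k4.trans k3) (by linarith only [hM1])
    exact b2_mono (b2_add k1 k2) (by linarith only [])
  · rw [es, ← Real.rpow_add (by norm_num)]
    exact b2_mono bW (by linarith only [hM3])
  · -- Z
    have e1 : 2 * θ * η * Z * Z1 = 4 * (θ * η * s / 2) * (Z * (1 / s)) * Z1 := by
      field_simp
      ring
    rw [e1, hθη2, es]
    have k1 : Z * (1 / s) ≤ (2 : ℝ) ^ z := by
      have k2 : 1 / s ≤ 1 := by rw [div_le_one s0]; exact s1'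
      have k3 : Z * (1 / s) ≤ Z * 1 := by gcongr
      linarith only [k3, hZ]
    have k4 : Z1 ≤ (2 : ℝ) ^ (ζ + -σ) := by
      rw [hs1] at hZ1
      refine hZ1.trans ?_
      rw [Real.rpow_add (by norm_num)]
    have Z10 : 0 < Z1 := by linarith only [s10, sZ1]
    have k5 := b2_mul (b2_mul (b2_mul (b2_nat (c := 4) 2 (by norm_num))
      (le_refl ((2 : ℝ) ^ (-β))) (b2_pos _).le) k1 (by positivity)) k4 Z10.le
    rw [← Real.rpow_add (by norm_num)]
    exact b2_mono k5 (by push_cast; linarith only [])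
  · have k1 : θ * η * s * s1 / 2 ≤ θ * η * (s * s1) := by
      have : 0 ≤ θ * η * (s * s1) := by positivity
      linarith only [this]
    have k2 : θ * η * (s * s1) ≤ θ * η * (Z * Z1) := by gcongr
    have Z10 : 0 < Z1 := by linarith only [s10, sZ1]
    have k3 : 0 ≤ θ * η * (Z * Z1) := by positivity
    linarith only [k1, k2, k3]
  · linarith only [B01]
  · have k1 := b2_mul (b2_nat (c := 3) 2 (by norm_num)) hB0 (by positivity)
    exact b2_mono k1 (by push_cast; linarith only [])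
  · -- gain
    have e2 : (2 : ℝ) ^ (xx + (x - 1)) = (2 : ℝ) ^ xx * ((2 : ℝ) ^ x / (1 + 1 / 1)) := by
      rw [Real.rpow_add (by norm_num), Real.rpow_sub (by norm_num), Real.rpow_one]
      norm_num
    rw [e2]
    push_cast
    have hde : ((D0 : ℝ) + E0) = δ := by rw [hδe]; push_cast; ring
    rw [hde]
    have hrt' : (2 : ℝ) ^ x / (1 + 1 / 1) * F ≤
        (2 * (2 * 1 * (δ : ℝ)) + 1) * (2 * (8 * (A : ℝ) * Xm) + 1) * V := by
      rw [hFr]
      exact hrt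
    calc (2 : ℝ) ^ xx * ((2 : ℝ) ^ x / (1 + 1 / 1)) * (2 * (h' * F))
        = ((2 : ℝ) ^ xx * (2 * h')) * ((2 : ℝ) ^ x / (1 + 1 / 1) * F) := by ring
      _ ≤ (2 * V0) * ((2 * (2 * 1 * (δ : ℝ)) + 1) * (2 * (8 * (A : ℝ) * Xm) + 1) * V) := by
          gcongr
      _ = 2 * (V0 * ((2 * (2 * (δ : ℝ)) + 1) * (2 * (8 * (A : ℝ) * Xm) + 1) * V)) := by ring

end Vale.Agent.P065.R2.H919
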