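import Vale.Agent.P065.R2.H919.ChainB

/-!
# P065, stage B: the chain statement for the configurations (helper919)
-/

set_option linter.all false

namespace Vale.Agent.P065.R2.H919

open Vale.Agent.P065 Vale.Agent.P065.W Finset

/-- the start of the chain -/
theorem startCS {θ S ww M : ℝ} (θ0 : 0 < θ) (S1 : 1 ≤ S) (w0 : 0 ≤ ww) (M0 : 0 ≤ M) :
    CS θ S 0 0 0 ww M 0 0 0 0 := by
  have hw : (1 : ℝ) ≤ (2 : ℝ) ^ ww := b2_one w0
  have hM : (1 : ℝ) ≤ (2 : ℝ) ^ M := b2_one M0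
  refine ⟨1, 1, 0, 1, 1, 1, 0, 1, 1, 1, 1, ?_, le_rfl, by norm_num, by norm_num, by norm_num,
    by norm_num, le_rfl, by norm_num, le_rfl, hw, le_rfl, by linarith only [hw], le_rfl,
    by linarith only [hM], by linarith only [hM], by norm_num, by norm_num, le_rfl, le_rfl,
    by norm_num, by norm_num⟩
  exact triv (S := S) (T := 1) (θ := θ) (W := 0) (U := 1) S1 le_rfl θ0 le_rfl (by norm_num)

/-- the state after `i` insertions -/
theorem iterCS {θ S qb zb e : ℝ} {Xm : ℕ} (Un : Uni θ S qb zb e Xm) {m : ℕ}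
    {nn aa gg qq zz dd xx : ℕ → ℝ} {M K : ℝ} (hK : K = qb + zb + e + 1) (hm : 1 ≤ m)
    (hP : ∀ i < m, LC3 (nn i) (aa i) (gg i) (qq i) (zz i) (dd i) (xx i))
    (h0 : ∀ i < m, 0 ≤ nn i ∧ 0 ≤ aa i ∧ 0 ≤ gg i ∧ 0 ≤ qq i ∧ 0 ≤ zz i ∧ 0 ≤ dd i)
    (hb : ∀ i < m, qq i ≤ qb ∧ zz i ≤ zb) (hd : ∑ i ∈ range m, (dd i + 6) ≤ e)
    (hM : ∀ i < m, (∑ j ∈ range (i + 1), (aa j + 40 * K)) +
      200 * (aa i + gg i + aa (i - 1) + gg (i - 1) + K) ≤ M) :
    ∀ i ≤ m, CS θ S (∑ j ∈ range i, (nn j + aa j + 2 * e + 6)) (∑ j ∈ range i, (dd j + 3))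
      (∑ j ∈ range i, (gg j + 5 * aa j + 113 * K)) (gg (i - 1) + 5 * aa (i - 1) + 110 * K)
      (M + 2 * i) (∑ j ∈ range i, (aa j + 40 * K)) (∑ j ∈ range i, (zz j + 2)) (2 * i)
      (∑ j ∈ range i, (xx j - 1)) := by
  have q0 := Un.q0
  have z0 := Un.z0
  have e0 := Un.e0
  have K1 : 1 ≤ K := by rw [hK]; linarith only [q0, z0, e0]
  have M0 : 0 ≤ M := by
    have h1 := hM 0 (by omega)
    obtain ⟨a1, a2, a3, a4, a5, a6⟩ := h0 0 (by omega)
    simp only [Finset.sum_range_succ, Finset.sum_range_zero, Nat.zero_sub] at h1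
    linarith only [h1, a2, a3, K1]
  intro i
  induction i with
  | zero =>
    intro _
    obtain ⟨a1, a2, a3, a4, a5, a6⟩ := h0 0 (by omega)
    have h1 := startCS (θ := θ) (S := S) (ww := gg 0 + 5 * aa 0 + 110 * K) (M := M) Un.θ0
      (by rw [Un.eS]; have := b2_one z0; linarith only [this]) (by linarith only [a2, a3, K1]) M0
    simpa using h1
  | succ i ih =>
    intro hi
    have hS := ih (by omega)
    have hi' : i < m := by omega
    obtain ⟨a1, a2, a3, a4, a5, a6⟩ := h0 i hi'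
    obtain ⟨b1, b2⟩ := hb i hi'
    obtain ⟨c1, c2, c3, c4, c5, c6⟩ := h0 (i - 1) (by omega)
    have hMi := hM i hi'
    rw [Finset.sum_range_succ] at hMi
    have hdd : ∑ j ∈ range i, (dd j + 3) + 3 ≤ e := by
      have k1 : ∑ j ∈ range (i + 1), (dd j + 6) ≤ ∑ j ∈ range m, (dd j + 6) := by
        apply Finset.sum_le_sum_of_subset_of_nonneg
        · intro j hj
          rw [Finset.mem_range] at hj ⊢
          omega
        · intro j hj _
          rw [Finset.mem_range] at hj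
          have := (h0 j hj).2.2.2.2.2
          linarith only [this]
      have k2 : ∑ j ∈ range i, (dd j + 3) ≤ ∑ j ∈ range i, (dd j + 6) := by
        apply Finset.sum_le_sum
        intro j _
        linarith only []
      rw [Finset.sum_range_succ] at k1
      linarith only [k1, k2, hd, a6]
    have hi0 : (0 : ℝ) ≤ i := Nat.cast_nonneg i
    have h := stepCS Un hS (hP i hi') a2 a3 b1 b2 hdd (by linarith only [c2, c3, K1]) hK rfl rfl
      (M' := M + 2 * ((i + 1 : ℕ) : ℝ)) (by push_cast; linarith only [])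
      (by push_cast; linarith only [hMi, a2, a3, c2, c3, K1, hi0])
      (by push_cast; linarith only [hMi, a2, a3, c2, c3, K1, hi0])
    rw [Finset.sum_range_succ, Finset.sum_range_succ, Finset.sum_range_succ,
      Finset.sum_range_succ, Finset.sum_range_succ, Finset.sum_range_succ]
    have e1 : nn i + aa i + 2 * e + 6 = (nn i + aa i + 2 * e + 6) := rfl
    have e2 : (2 : ℝ) * ((i + 1 : ℕ) : ℝ) = 2 * (i : ℝ) + 2 := by push_cast; ring
    have e3 : i + 1 - 1 = i := by omega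
    rw [e3]
    have e4 : M + 2 * ((i + 1 : ℕ) : ℝ) = M + 2 * ((i + 1 : ℕ) : ℝ) := rfl
    rw [show (2 : ℝ) * ((i + 1 : ℕ) : ℝ) = 2 * (i : ℝ) + 2 from e2] at h ⊢
    exact h

/-- **the chain statement for integer configurations** -/
theorem chain : ChainStmt LC3 40 200 := by
  intro m nn aa gg qq zz dd xx e qb zb M hm hP h0 hb hd hM
  obtain ⟨a1, a2, a3, a4, a5, a6⟩ := h0 0 (by omega)
  obtain ⟨b1, b2⟩ := hb 0 (by omega)
  have q0 : 0 ≤ qb := a4.trans b1
  have z0 : 0 ≤ zb := a5.trans b2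
  have e0 : 0 ≤ e := by
    refine le_trans ?_ hd
    apply Finset.sum_nonneg
    intro i hi
    rw [Finset.mem_range] at hi
    have := (h0 i hi).2.2.2.2.2
    linarith only [this]
  obtain ⟨θ, S, Xm, Un⟩ := Uni.exists q0 z0 e0
  obtain ⟨K, hK⟩ : ∃ K : ℝ, K = qb + zb + e + 1 := ⟨_, rfl⟩
  have K1 : 1 ≤ K := by rw [hK]; linarith only [q0, z0, e0]
  have hM' : ∀ i < m, (∑ j ∈ range (i + 1), (aa j + 40 * K)) +
      200 * (aa i + gg i + aa (i - 1) + gg (i - 1) + K) ≤ M := by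
    intro i hi
    have h1 := hM i hi
    rw [← hK] at h1
    have e1 : aa i + gg i + aa (i - 1) + gg (i - 1) + qb + zb + e + 1 =
      aa i + gg i + aa (i - 1) + gg (i - 1) + K := by rw [hK]; ring
    rw [e1] at h1
    exact h1
  have hS := iterCS Un hK hm hP h0 hb hd hM' m le_rfl
  obtain ⟨h', D', E', V', r, T, W, U, s, Z, B, hRC, hh1, hhb, hδ1, hδ, r0, r1, hr, T1, hT,
    W0, hW, U1, hU, hW', hs, hZ, sZ, B1, hB, hgain⟩ := hS
  obtain ⟨c1, c2, c3, c4, c5, c6⟩ := h0 (m - 1) (by omega)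
  have m1 : (1 : ℝ) ≤ m := by exact_mod_cast hm
  obtain ⟨σ, hσ⟩ : ∃ σ : ℝ, σ = ∑ j ∈ range m, (aa j + 40 * K) := ⟨_, rfl⟩
  obtain ⟨ζ, hζ⟩ : ∃ ζ : ℝ, ζ = ∑ j ∈ range m, (zz j + 2) := ⟨_, rfl⟩
  obtain ⟨ρ, hρ⟩ : ∃ ρ : ℝ, ρ = ∑ j ∈ range m, (gg j + 5 * aa j + 113 * K) := ⟨_, rfl⟩
  rw [← hσ] at hs
  rw [← hζ] at hZ
  rw [← hρ] at hr
  have hσM : σ + 200 * K ≤ M := by
    have h1 := hM' (m - 1) (by omega)
    have e1 : m - 1 + 1 = m := by omega
    rw [e1, ← hσ] at h1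
    obtain ⟨d1, d2, d3, d4, d5, d6⟩ := h0 (m - 1 - 1) (by omega)
    linarith only [h1, c2, c3, d2, d3]
  have σ0 : 0 ≤ σ := by
    rw [hσ]
    apply Finset.sum_nonneg
    intro i hi
    rw [Finset.mem_range] at hi
    have := (h0 i hi).2.1
    linarith only [this, K1]
  have ζ0 : 0 ≤ ζ := by
    rw [hζ]
    apply Finset.sum_nonneg
    intro i hi
    rw [Finset.mem_range] at hi
    have := (h0 i hi).2.2.2.2.1
    linarith only [this]
  have s0 : 0 < s := by rw [hs]; positivity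
  have S1 : 1 ≤ S := by rw [Un.eS]; have := b2_one z0; linarith only [this]
  obtain ⟨L, hL⟩ : ∃ L : ℕ, L = ⌈(2 : ℝ) ^ (M + 2 * m + 7)⌉₊ := ⟨_, rfl⟩
  have hu1 : (1 : ℝ) ≤ (2 : ℝ) ^ (M + 2 * m + 7) := b2_one (by linarith only [hσM, σ0, K1, m1])
  have hL1 : (2 : ℝ) ^ (M + 2 * m + 7) ≤ L := by rw [hL]; exact Nat.le_ceil _
  have hL2 : (L : ℝ) ≤ (2 : ℝ) ^ (M + 2 * m + 8) := by
    rw [hL]
    have h1 := Nat.ceil_lt_add_one (by linarith only [hu1] : (0 : ℝ) ≤ (2 : ℝ) ^ (M + 2 * m + 7))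
    have h2 := b2_add (le_refl ((2 : ℝ) ^ (M + 2 * m + 7))) (le_refl ((2 : ℝ) ^ (M + 2 * m + 7)))
    have h3 : (2 : ℝ) ^ (M + 2 * m + 7 + 1) = (2 : ℝ) ^ (M + 2 * m + 8) := by
      congr 1; ring
    rw [h3] at h2
    linarith only [h1, h2, hu1]
  have hLr : (1 : ℝ) ≤ L := hu1.trans hL1
  have hLs : 64 * (U + W + 1) ≤ L * s := by
    have k1 : U + W + 1 ≤ 2 * ((2 : ℝ) ^ (M + 2 * m) * s) := by linarith only [hU, hW']
    have k2 : (2 : ℝ) ^ (M + 2 * m + 7) = 128 * (2 : ℝ) ^ (M + 2 * m) := by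
      rw [Real.rpow_add (by norm_num)]
      norm_num
      ring
    have k3 : (128 * (2 : ℝ) ^ (M + 2 * m)) * s ≤ L * s := by
      rw [← k2]
      gcongr
    linarith only [k1, k3]
  have hIC := roundStmt2 hRC hh1 r0 r1 S1 T1 W0 U1 s0 B1 hLs
  have hLs64 : 64 ≤ (L : ℝ) * s := by linarith only [hLs, U1, W0]
  have hBb : B ≤ (2 : ℝ) ^ (2 * (m : ℝ)) := hB
  have hB0 : 0 < B := by linarith only [B1]
  refine ⟨h', D' + E', V', ⌈2 * (L : ℝ) * B⌉₊, 8 * L * B ^ 2, 1 / r, 8 * (T + S), L * s / 2,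
    2 * L * Z, hIC, hh1, ?_, ?_, ?_, ?_, ?_, ?_, ?_, ?_, ?_, ?_, ?_, hδ1, ?_, ?_⟩
  · refine b2_mono hhb ?_
    apply Finset.sum_le_sum
    intro i _
    linarith only [e0]
  · exact Nat.one_le_iff_ne_zero.2 (Nat.ceil_pos.2 (by positivity)).ne'
  · have h4 : (0 : ℝ) ≤ 2 * L * B := by positivity
    have h5 := Nat.ceil_lt_add_one h4
    have h6 : (1 : ℝ) * 1 ≤ L * B := by gcongr
    have h7 : ((⌈2 * (L : ℝ) * B⌉₊ : ℕ) : ℝ) ≤ 4 * L * B := by linarith only [h5, h6]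
    have h8 := b2_mul (b2_mul (b2_nat (c := 4) 2 (by norm_num)) hL2 (by positivity)) hBb
      (by positivity)
    exact b2_mono (h7.trans h8) (by push_cast; linarith only [m1])
  · have h6 : (1 : ℝ) * 1 ^ 2 ≤ L * B ^ 2 := by gcongr
    linarith only [h6]
  · rw [le_div_iff₀ r0, one_mul]
    exact r1
  · have h4 := b2_mul (b2_mul (b2_mul (b2_nat (c := 8) 3 (by norm_num)) hL2 (by positivity))
      (b2_pow hBb (by positivity) 2) (by positivity)) hr (by positivity)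
    refine b2_mono h4 ?_
    have k1 : ρ ≤ ∑ i ∈ range m, (gg i + 200 * (aa i + qb + zb + e + 1)) := by
      rw [hρ]
      apply Finset.sum_le_sum
      intro i hi
      rw [Finset.mem_range] at hi
      have := (h0 i hi).2.1
      have e1 : gg i + 200 * (aa i + qb + zb + e + 1) = gg i + 200 * (aa i + K) := by
        rw [hK]; ring
      rw [e1]
      linarith only [this, K1]
    push_cast
    linarith only [k1, m1]
  · linarith only [T1, S1]
  · have k1 : T ≤ (2 : ℝ) ^ (gg (m - 1) + 5 * aa (m - 1) + 110 * K) := hT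
    have k2 : S ≤ (2 : ℝ) ^ (gg (m - 1) + 5 * aa (m - 1) + 110 * K) := by
      rw [Un.eS]
      have h5 := b2_mul (b2_nat (c := 4) 2 (by norm_num)) (le_refl ((2 : ℝ) ^ zb)) (by positivity)
      refine b2_mono h5 ?_
      push_cast
      have : zb ≤ K := by rw [hK]; linarith only [q0, e0]
      linarith only [this, c2, c3, K1]
    have k3 := b2_mul (b2_nat (c := 8) 3 (by norm_num)) (b2_add k1 k2) (by positivity)
    refine b2_mono k3 ?_
    have e1 : 200 * (aa (m - 1) + gg (m - 1) + qb + zb + e + 1) =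
      200 * (aa (m - 1) + gg (m - 1) + K) := by rw [hK]; ring
    rw [e1]
    push_cast
    linarith only [c2, c3, K1]
  · linarith only [hLs64]
  · have k1 : (L : ℝ) * s ≤ L * Z := by gcongr
    have k2 : 0 ≤ (L : ℝ) * Z := by
      have : 0 < Z := lt_of_lt_of_le s0 sZ
      positivity
    linarith only [k1, k2]
  · have k1 : Z ≤ (2 : ℝ) ^ (ζ + -σ) := by
      rw [hs] at hZ
      refine hZ.trans ?_
      rw [Real.rpow_add (by norm_num)]
    have Z0 : 0 < Z := lt_of_lt_of_le s0 sZ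
    have k2 := b2_mul (b2_mul (b2_nat (c := 2) 1 (by norm_num)) hL2 (by positivity)) k1 Z0.le
    refine b2_mono k2 ?_
    have e1 : ∑ j ∈ range m, (aa j + 40 * (qb + zb + e + 1)) = σ := by rw [hσ, hK]
    rw [e1, ← hζ]
    push_cast
    linarith only [m1]
  · refine b2_mono hδ (le_trans ?_ hd)
    apply Finset.sum_le_sum
    intro i _
    linarith only []
  · have e1 : (2 : ℝ) ^ (∑ i ∈ range m, (xx i - 1) - 1) =
        (2 : ℝ) ^ (∑ i ∈ range m, (xx i - 1)) / 2 := by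
      rw [Real.rpow_sub (by norm_num), Real.rpow_one]
    rw [e1]
    linarith only [hgain]

end Vale.Agent.P065.R2.H919
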