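import Vale.Agent.P065.R2.H919.Fin3
import Vale.Agent.P065.R2.H201.Rec

/-!
# P065: lower bounds `h(n) ≥ n ^ (1 + c / (log log n) ^ 3)` (helper919, helper201)
-/

set_option autoImplicit false

namespace Vale.Agent.P065.R2.H919

open Vale.Agent.P065

theorem cubic :
    (∃ (c : ℝ) (N : ℕ), 0 < c ∧ ∀ n : ℕ, N ≤ n → Even n →
      ∃ P : Finset (ℝ × ℝ), P.card = n ∧ GenPos P ∧
        (n : ℝ) ^ (1 + c / (Real.log (Real.log n)) ^ 3) ≤ halvingNumber P) ∧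
    (∃ (c : ℝ) (K : ℕ), 0 < c ∧ ∀ k n : ℕ, K ≤ k → 2 * k ≤ n →
      ∃ P : Finset (ℝ × ℝ), P.card = n ∧ GenPos P ∧
        (n : ℝ) * (k : ℝ) ^ (c / (Real.log (Real.log k)) ^ 3) ≤ kSetNumber P k) :=
  final3_of H201.recStmt

end Vale.Agent.P065.R2.H919
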