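import Vale.Agent.P065.R2.H919.AsymA
import Vale.Agent.P065.W.Main4
import Vale.Agent.P065.UB.Final.Lower

/-!
# P065: lower bounds `h(n) ≥ n ^ (1 + c (log log log n / log log n) ^ 4)` (helper919)
-/

set_option autoImplicit false

namespace Vale.Agent.P065.R2.H919

open Finset Vale.Agent.P065 Vale.Agent.P065.W

theorem mainPsi :
    (∃ (c : ℝ) (N : ℕ), 0 < c ∧ ∀ n : ℕ, N ≤ n → Even n →
      (n : ℝ) ^ (1 + c / (psi (Real.log n)) ^ 4) ≤ gmax n) ∧
    (∃ (c : ℝ) (K : ℕ), 0 < c ∧ ∀ k n : ℕ, K ≤ k → 2 * k ≤ n →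
      (n : ℝ) * (k : ℝ) ^ (c / (psi (Real.log k)) ^ 4) ≤ emax k n) := by
  obtain ⟨c, hc, hM⟩ := metaStep (product_of sigOk bal clear tol) lattice roundStmt2 triv
  have hx0 : 0 < Real.logb 2 (9 / 8) := Real.logb_pos (by norm_num) (by norm_num)
  obtain ⟨C, hC, t0, h⟩ := asymPsi LC2 c (Real.logb 2 (9 / 8)) hc hx0 base
    (fun h hk hK h1 h2 h3 h4 h5 h6 h7 => hM h hk hK h1 h2 h3 h4 h5 h6 h7)
  have h1 := gmax_psi loss_psi (e := 4) hC h final
  exact ⟨h1, ktransfer_psi loss_psi gmax emax h1 mul_gmax_le_emax⟩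

theorem psi_form (c L : ℝ) : c / (psi L) ^ 4 =
    c * (Real.log (Real.log L) / Real.log L) ^ 4 := by
  rw [psi, div_pow, div_pow, div_div_eq_mul_div, mul_div_assoc]

/-- the lower bounds, through point sets -/
theorem lower :
    (∃ (c : ℝ) (N : ℕ), 0 < c ∧ ∀ n : ℕ, N ≤ n → Even n →
      ∃ P : Finset (ℝ × ℝ), P.card = n ∧ GenPos P ∧
        (n : ℝ) ^ (1 + c * (Real.log (Real.log (Real.log n)) / Real.log (Real.log n)) ^ 4) ≤
          halvingNumber P) ∧
    (∃ (c : ℝ) (K : ℕ), 0 < c ∧ ∀ k n : ℕ, K ≤ k → 2 * k ≤ n →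
      ∃ P : Finset (ℝ × ℝ), P.card = n ∧ GenPos P ∧
        (n : ℝ) * (k : ℝ) ^ (c * (Real.log (Real.log (Real.log k)) / Real.log (Real.log k)) ^ 4) ≤
          kSetNumber P k) := by
  obtain ⟨⟨c, N, hc, h⟩, ⟨c', K, hc', h'⟩⟩ := mainPsi
  constructor
  · refine ⟨c, N + 1, hc, fun n hn he => ?_⟩
    rw [← psi_form]
    have h1 := (h n (by omega) he).trans (by exact_mod_cast gmax_le_hmax n :
      ((gmax n : ℕ) : ℝ) ≤ hmax n)
    have hn0 : (0 : ℝ) < n := by exact_mod_cast (by omega : 0 < n)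
    have hpos : (0 : ℝ) < hmax n := lt_of_lt_of_le (Real.rpow_pos_of_pos hn0 _) h1
    have hpos' : 0 < hmax n := by exact_mod_cast hpos
    have hne : {m | ∃ P : Finset (ℝ × ℝ), P.card = n ∧ GenPos P ∧ halvingNumber P = m}.Nonempty := by
      by_contra hcon
      rw [Set.not_nonempty_iff_eq_empty] at hcon
      unfold hmax at hpos'
      rw [hcon, csSup_empty] at hpos'
      exact lt_irrefl _ hpos'
    obtain ⟨P, hP, hg, hm⟩ := Nat.sSup_mem hne (bddAbove_hmax n)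
    refine ⟨P, hP, hg, ?_⟩
    rw [hm]
    exact h1
  · refine ⟨c', K + 1, hc', fun k n hk hn => ?_⟩
    rw [← psi_form]
    have h1 := h' k n (by omega) hn
    have hn0 : (0 : ℝ) < n := by exact_mod_cast (by omega : 0 < n)
    have hk0 : (0 : ℝ) < k := by exact_mod_cast (by omega : 0 < k)
    have hpos : (0 : ℝ) < emax k n :=
      lt_of_lt_of_le (mul_pos hn0 (Real.rpow_pos_of_pos hk0 _)) h1
    have hpos' : 0 < emax k n := by exact_mod_cast hpos
    have hne : {m | ∃ P : Finset (ℝ × ℝ), P.card = n ∧ GenPos P ∧ kSetNumber P k = m}.Nonempty := by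
      by_contra hcon
      rw [Set.not_nonempty_iff_eq_empty] at hcon
      unfold emax at hpos'
      rw [hcon, csSup_empty] at hpos'
      exact lt_irrefl _ hpos'
    obtain ⟨P, hP, hg, hm⟩ := Nat.sSup_mem hne (bddAbove_emax k n)
    refine ⟨P, hP, hg, ?_⟩
    rw [hm]
    exact h1

end Vale.Agent.P065.R2.H919
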