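import Vale.Agent.P065.R2.H919.ChainC
import Vale.Agent.P065.R2.H919.Low

/-!
# P065, stage B: base, monotonicity and final form (helper919)
-/

set_option linter.all false

namespace Vale.Agent.P065.R2.H919

open Finset Vale.Agent.P065 Vale.Agent.P065.W

theorem LC3_mono : MonoStmt LC3 := by
  intro n a g q z d x n' a' g' q' z' d' x' h hn ha hg hq hz hd hx
  obtain ⟨h', D, V, A, B, Γ, T, s, Z, hIC, h1, hh, A1, hA, B1, Γ1, hBΓ, T1, hT, s1, sZ, hZ, D1, hD,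
    hV⟩ := h
  refine ⟨h', D, V, A, B, Γ, T, s, Z, hIC, h1, b2_mono hh hn, A1, b2_mono hA ha, B1, Γ1,
    b2_mono hBΓ hg, T1, b2_mono hT hq, s1, sZ, b2_mono hZ hz, D1, b2_mono hD hd, ?_⟩
  refine le_trans ?_ hV
  have h2 : (2 : ℝ) ^ x' ≤ (2 : ℝ) ^ x := Real.rpow_le_rpow_of_exponent_le (by norm_num) hx
  gcongr

theorem LC2_of_LC3 {n a g q z d x : ℝ} (h : LC3 n a g q z d x) : LC2 n a g q z d x := by
  obtain ⟨h', D, V, A, B, Γ, T, s, Z, hIC, h1, hh, A1, hA, B1, Γ1, hBΓ, T1, hT, s1, sZ, hZ, D1, hD,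
    hV⟩ := h
  refine ⟨h', D, V, A, B, Γ, T, s, Z, hIC, h1, hh, A1, hA, B1, Γ1, hBΓ, T1, hT, s1, sZ, ?_, D1, hD,
    hV⟩
  refine hZ.trans ?_
  have h2 : (2 : ℝ) ^ z * 1 ≤ (2 : ℝ) ^ z * s := by gcongr
  linarith only [h2]

theorem LC3_of_LC2 {n a g q p d x : ℝ} (h : LC2 n a g q p d x) : ∃ z, 0 ≤ z ∧
    LC3 n a g q z d x := by
  obtain ⟨h', D, V, A, B, Γ, T, s, Z, hIC, h1, hh, A1, hA, B1, Γ1, hBΓ, T1, hT, s1, sZ, hZ, D1, hD,
    hV⟩ := h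
  have Z1 : 1 ≤ Z := s1.trans sZ
  refine ⟨Real.logb 2 Z, Real.logb_nonneg (by norm_num) Z1, h', D, V, A, B, Γ, T, s, Z, hIC, h1, hh,
    A1, hA, B1, Γ1, hBΓ, T1, hT, s1, sZ, ?_, D1, hD, hV⟩
  rw [Real.rpow_logb (by norm_num) (by norm_num) (by linarith only [Z1])]

/-- start configurations of arbitrarily large gain -/
theorem LC3_base : BaseStmtU LC3 := by
  intro X
  obtain ⟨c, hc, hM⟩ := metaStep (product_of sigOk bal clear tol) lattice roundStmt2 triv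
  have hx0 : 0 < Real.logb 2 (9 / 8) := Real.logb_pos (by norm_num) (by norm_num)
  obtain ⟨C, hC, t0, h⟩ := asym4 LC2 c (Real.logb 2 (9 / 8)) hc hx0 base
    (fun h hk hK h1 h2 h3 h4 h5 h6 h7 => hM h hk hK h1 h2 h3 h4 h5 h6 h7)
  have hev : ∀ᶠ t : ℝ in Filter.atTop, (C * (|X| + 1)) * (Real.log t) ^ 4 ≤ t ∧ t0 ≤ t ∧
      Real.exp 1 ≤ t :=
    (ev_log_pow 4 _).and ((Filter.eventually_ge_atTop _).and (Filter.eventually_ge_atTop _))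
  obtain ⟨t, ht1, ht2, ht3⟩ := hev.exists
  obtain ⟨n, a, g, q, p, d, x, hL, hn, ha, hg, hx, hs, htx⟩ := h t ht2
  obtain ⟨z, hz, hL3⟩ := LC3_of_LC2 hL
  refine ⟨n, a, g, max q 0, z, max d 0, x, hn, ha, hg, le_max_right _ _, hz, le_max_right _ _, ?_,
    LC3_mono hL3 le_rfl le_rfl le_rfl (le_max_left _ _) le_rfl (le_max_left _ _) le_rfl⟩
  have hlog : 1 ≤ Real.log t := by
    rw [Real.le_log_iff_exp_le (lt_of_lt_of_le (Real.exp_pos 1) ht3)]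
    exact ht3
  have hl4 : 0 < (Real.log t) ^ 4 := by positivity
  have h1 : (C * (|X| + 1)) * (Real.log t) ^ 4 ≤ (C * x) * (Real.log t) ^ 4 := ht1.trans htx
  have h2 : C * (|X| + 1) ≤ C * x := le_of_mul_le_mul_right h1 hl4
  have h3 : |X| + 1 ≤ x := le_of_mul_le_mul_left h2 hC
  have h4 := le_abs_self X
  linarith only [h3, h4]

/-- the bounds with exponent 3, from the recursion -/
theorem main3_of (hr : RecStmt) :
    (∃ (c : ℝ) (N : ℕ), 0 < c ∧ ∀ n : ℕ, N ≤ n → Even n →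
      (n : ℝ) ^ (1 + c / (Real.log (Real.log n)) ^ 3) ≤ gmax n) ∧
    (∃ (c : ℝ) (K : ℕ), 0 < c ∧ ∀ k n : ℕ, K ≤ k → 2 * k ≤ n →
      (n : ℝ) * (k : ℝ) ^ (c / (Real.log (Real.log k)) ^ 3) ≤ emax k n) := by
  obtain ⟨C, hC, t0, h⟩ := hr LC3 40 200 (by norm_num) (by norm_num) chain LC3_mono LC3_base
  have h' : ∀ t : ℝ, t0 ≤ t → ∃ n a g q p d x : ℝ, LC2 n a g q p d x ∧ 0 ≤ n ∧ 0 ≤ a ∧ 0 ≤ g ∧
      0 < x ∧ n + a + g + 1 ≤ t ∧ t ≤ C * x * (Real.log t) ^ 3 := by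
    intro t ht
    obtain ⟨n, a, g, q, z, d, x, hL, h1⟩ := h t ht
    exact ⟨n, a, g, q, z, d, x, LC2_of_LC3 hL, h1⟩
  have h1 := gmax_of (e := 3) hC h' final
  exact ⟨h1, ktransfer2 gmax emax h1 mul_gmax_le_emax⟩

/-- the bounds with a general loss function, from the recursion -/
theorem mainLoss_of {ψ : ℝ → ℝ} (hψ : Loss ψ) {e : ℕ} {C : ℝ} (hC : 0 < C) {t0 : ℝ}
    (h : ∀ t : ℝ, t0 ≤ t → ∃ n a g q z d x : ℝ, LC3 n a g q z d x ∧ 0 ≤ n ∧ 0 ≤ a ∧ 0 ≤ g ∧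
      0 < x ∧ n + a + g + 1 ≤ t ∧ t ≤ C * x * (ψ t) ^ e) :
    (∃ (c : ℝ) (N : ℕ), 0 < c ∧ ∀ n : ℕ, N ≤ n → Even n →
      (n : ℝ) ^ (1 + c / (ψ (Real.log n)) ^ e) ≤ gmax n) ∧
    (∃ (c : ℝ) (K : ℕ), 0 < c ∧ ∀ k n : ℕ, K ≤ k → 2 * k ≤ n →
      (n : ℝ) * (k : ℝ) ^ (c / (ψ (Real.log k)) ^ e) ≤ emax k n) := by
  have h' : ∀ t : ℝ, t0 ≤ t → ∃ n a g q p d x : ℝ, LC2 n a g q p d x ∧ 0 ≤ n ∧ 0 ≤ a ∧ 0 ≤ g ∧
      0 < x ∧ n + a + g + 1 ≤ t ∧ t ≤ C * x * (ψ t) ^ e := by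
    intro t ht
    obtain ⟨n, a, g, q, z, d, x, hL, h1⟩ := h t ht
    exact ⟨n, a, g, q, z, d, x, LC2_of_LC3 hL, h1⟩
  have h1 := gmax_psi hψ (e := e) hC h' final
  exact ⟨h1, ktransfer_psi hψ gmax emax h1 mul_gmax_le_emax⟩

/-- the same through point sets, for an arbitrary exponent function -/
theorem points_of {f : ℝ → ℝ}
    (h : (∃ (c : ℝ) (N : ℕ), 0 < c ∧ ∀ n : ℕ, N ≤ n → Even n →
      (n : ℝ) ^ (1 + c * f n) ≤ gmax n) ∧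
    (∃ (c : ℝ) (K : ℕ), 0 < c ∧ ∀ k n : ℕ, K ≤ k → 2 * k ≤ n →
      (n : ℝ) * (k : ℝ) ^ (c * f k) ≤ emax k n)) :
    (∃ (c : ℝ) (N : ℕ), 0 < c ∧ ∀ n : ℕ, N ≤ n → Even n →
      ∃ P : Finset (ℝ × ℝ), P.card = n ∧ GenPos P ∧ (n : ℝ) ^ (1 + c * f n) ≤ halvingNumber P) ∧
    (∃ (c : ℝ) (K : ℕ), 0 < c ∧ ∀ k n : ℕ, K ≤ k → 2 * k ≤ n →
      ∃ P : Finset (ℝ × ℝ), P.card = n ∧ GenPos P ∧
        (n : ℝ) * (k : ℝ) ^ (c * f k) ≤ kSetNumber P k) := by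
  obtain ⟨⟨c, N, hc, h⟩, ⟨c', K, hc', h'⟩⟩ := h
  constructor
  · refine ⟨c, N + 1, hc, fun n hn he => ?_⟩
    have h1 := (h n (by omega) he).trans (by exact_mod_cast gmax_le_hmax n :
      ((gmax n : ℕ) : ℝ) ≤ hmax n)
    have hn0 : (0 : ℝ) < n := by exact_mod_cast (by omega : 0 < n)
    have hpos : (0 : ℝ) < hmax n := lt_of_lt_of_le (Real.rpow_pos_of_pos hn0 _) h1
    have hpos' : 0 < hmax n := by exact_mod_cast hpos
    have hne : {m | ∃ P : Finset (ℝ × ℝ), P.card = n ∧ GenPos P ∧ halvingNumber P = m}.Nonempty := by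
      by_contra hcon
      rw [Set.not_nonempty_iff_eq_empty] at hcon
      unfold hmax at hpos'
      rw [hcon, csSup_empty] at hpos'
      exact lt_irrefl _ hpos'
    obtain ⟨P, hP, hg, hm⟩ := Nat.sSup_mem hne (bddAbove_hmax n)
    refine ⟨P, hP, hg, ?_⟩
    rw [hm]
    exact h1
  · refine ⟨c', K + 1, hc', fun k n hk hn => ?_⟩
    have h1 := h' k n (by omega) hn
    have hn0 : (0 : ℝ) < n := by exact_mod_cast (by omega : 0 < n)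
    have hk0 : (0 : ℝ) < k := by exact_mod_cast (by omega : 0 < k)
    have hpos : (0 : ℝ) < emax k n :=
      lt_of_lt_of_le (mul_pos hn0 (Real.rpow_pos_of_pos hk0 _)) h1
    have hpos' : 0 < emax k n := by exact_mod_cast hpos
    have hne : {m | ∃ P : Finset (ℝ × ℝ), P.card = n ∧ GenPos P ∧ kSetNumber P k = m}.Nonempty := by
      by_contra hcon
      rw [Set.not_nonempty_iff_eq_empty] at hcon
      unfold emax at hpos'
      rw [hcon, csSup_empty] at hpos'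
      exact lt_irrefl _ hpos'
    obtain ⟨P, hP, hg, hm⟩ := Nat.sSup_mem hne (bddAbove_emax k n)
    refine ⟨P, hP, hg, ?_⟩
    rw [hm]
    exact h1

/-- **final form, exponent 3, from the recursion** -/
theorem final3_of (hr : RecStmt) :
    (∃ (c : ℝ) (N : ℕ), 0 < c ∧ ∀ n : ℕ, N ≤ n → Even n →
      ∃ P : Finset (ℝ × ℝ), P.card = n ∧ GenPos P ∧
        (n : ℝ) ^ (1 + c / (Real.log (Real.log n)) ^ 3) ≤ halvingNumber P) ∧
    (∃ (c : ℝ) (K : ℕ), 0 < c ∧ ∀ k n : ℕ, K ≤ k → 2 * k ≤ n →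
      ∃ P : Finset (ℝ × ℝ), P.card = n ∧ GenPos P ∧
        (n : ℝ) * (k : ℝ) ^ (c / (Real.log (Real.log k)) ^ 3) ≤ kSetNumber P k) := by
  have h := points_of (f := fun y => 1 / (Real.log (Real.log y)) ^ 3)
    (by simpa only [mul_one_div] using main3_of hr)
  simpa only [mul_one_div] using h

end Vale.Agent.P065.R2.H919
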