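import Vale.Agent.P065.R2.H919.SharpStmt2
import Vale.Agent.P065.R2.H201.Rec

/-!
# P065, stage B': all levels up to the target level (helper919)
-/

set_option autoImplicit false

namespace Vale.Agent.P065.R2.H919

open Finset

/-- numeric context for a fixed target level: `s1 = w + 1`, `X = 2 ^ r`, `N = lam 2 ^ r` -/
structure LCtx (c c2 c3 D e1 e4 C1 s1 ρ T U X N Y αw : ℝ) : Prop where
  c1 : 1 ≤ c
  c21 : 1 ≤ c2
  c31 : c2 ≤ c3
  D1 : 1 ≤ D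
  e11 : 3 * c + 1 ≤ e1
  e41 : 1 ≤ e4
  U1 : 1 ≤ U
  ρ1 : 1 ≤ ρ
  s11 : 1 ≤ s1
  hT : T = s1 / ρ
  C1e : C1 = e1 + 10 * c + 2 * e4 + 3 * c * (c2 + c3) + 6 * c * c2 + 57 * c + 48 * c ^ 2 + 4
  hX : C1 * (T + 1) ≤ X
  hU : C1 * U ^ 3 ≤ X
  hN : X ≤ N
  hY : C1 * s1 ^ 3 ≤ Y
  hα : αw = c2 * D * U ^ 2 + 8 * c * D * N * T
  hαY : αw ≤ D * Y

namespace LCtx

variable {c c2 c3 D e1 e4 C1 s1 ρ T U X N Y αw : ℝ}

theorem pos (h : LCtx c c2 c3 D e1 e4 C1 s1 ρ T U X N Y αw) :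
    0 < c ∧ 0 < c2 ∧ 0 < c3 ∧ 0 < D ∧ 0 < e1 ∧ 0 < e4 ∧ 0 < U ∧ 0 < ρ ∧ 0 < s1 ∧ 0 < T ∧ 0 < X ∧
      0 < N ∧ 4 ≤ C1 ∧ U ≤ U ^ 2 ∧ U ^ 2 ≤ U ^ 3 ∧ 0 < αw := by
  have h1 := h.c1
  have h2 := h.c21
  have h3 := h.c31
  have h4 := h.D1
  have h5 := h.e11
  have h6 := h.e41
  have h7 := h.U1
  have h8 := h.ρ1
  have h9 := h.s11
  have T0 : 0 < T := by rw [h.hT]; positivity
  have c0 : 0 < c := by linarith
  have c30 : 0 < c3 := by linarith
  have hC : 4 ≤ C1 := by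
    rw [h.C1e]
    have : 0 ≤ 3 * c * (c2 + c3) + 6 * c * c2 + 57 * c + 48 * c ^ 2 := by positivity
    linarith
  have X0 : 0 < X := by
    have : 0 < C1 * (T + 1) := by positivity
    linarith [h.hX]
  have N0 : 0 < N := by linarith [h.hN]
  have u1 : U ≤ U ^ 2 := by nlinarith
  have u2 : U ^ 2 ≤ U ^ 3 := by nlinarith [mul_nonneg (sq_nonneg U) (by linarith : 0 ≤ U - 1)]
  refine ⟨c0, by linarith, c30, by linarith, by linarith, by linarith, by linarith, by linarith,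
    by linarith, T0, X0, N0, hC, u1, u2, ?_⟩
  rw [h.hα]
  positivity

theorem kap (h : LCtx c c2 c3 D e1 e4 C1 s1 ρ T U X N Y αw) : e1 * D ≤ D * X := by
  obtain ⟨c0, c20, c30, D0, e10, e40, U0, ρ0, s10, T0, X0, N0, hC, u1, u2, α0⟩ := h.pos
  have h1 := h.hX
  have h2 : e1 ≤ C1 := by
    rw [h.C1e]
    have : 0 ≤ 3 * c * (c2 + c3) + 6 * c * c2 + 57 * c + 48 * c ^ 2 := by positivity
    linarith
  have h3 : C1 * 1 ≤ C1 * (T + 1) := by gcongr; linarith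
  rw [mul_comm]
  apply mul_le_mul_of_nonneg_left _ D0.le
  linarith

theorem zet (h : LCtx c c2 c3 D e1 e4 C1 s1 ρ T U X N Y αw) {s : ℝ} (s0 : 0 ≤ s) (hs : s ≤ s1) :
    e4 * D * U + 5 * c * D / ρ * s ≤ D * X := by
  obtain ⟨c0, c20, c30, D0, e10, e40, U0, ρ0, s10, T0, X0, N0, hC, u1, u2, α0⟩ := h.pos
  have h0 : 0 ≤ 3 * c * (c2 + c3) + 6 * c * c2 + 57 * c + 48 * c ^ 2 := by positivity
  have h1 : 2 * e4 ≤ C1 := by rw [h.C1e]; linarith
  have h2 : 10 * c ≤ C1 := by rw [h.C1e]; linarith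
  have h3 : 5 * c * D / ρ * s ≤ 5 * c * D * T := by
    rw [h.hT]
    have e : 5 * c * D * (s1 / ρ) = 5 * c * D / ρ * s1 := by ring
    rw [e]
    exact mul_le_mul_of_nonneg_left hs (by positivity)
  have h4 : 2 * e4 * U ≤ X := by
    calc 2 * e4 * U ≤ C1 * U ^ 3 := by
          apply mul_le_mul h1 (u1.trans u2) U0.le (by linarith)
      _ ≤ X := h.hU
  have h5 : 10 * c * T ≤ X := by
    calc 10 * c * T ≤ C1 * (T + 1) := by
          apply mul_le_mul h2 (by linarith) T0.le (by linarith)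
      _ ≤ X := h.hX
  have h6 := mul_le_mul_of_nonneg_left h4 D0.le
  have h7 := mul_le_mul_of_nonneg_left h5 D0.le
  nlinarith

/-- covering: the tail pays for the core -/
theorem cov (h : LCtx c c2 c3 D e1 e4 C1 s1 ρ T U X N Y αw) {s : ℝ} (s0 : 0 ≤ s) :
    3 * c * ((c2 * D * U ^ 2 + 8 * c * D * N / ρ * s) +
      (c3 * D * U ^ 3 + (2 * c * αw + 11 * c * D * N) / ρ * s)) ≤
      (c2 * D * U ^ 2 + 8 * c * D * N / ρ * s) * X := by
  obtain ⟨c0, c20, c30, D0, e10, e40, U0, ρ0, s10, T0, X0, N0, hC, u1, u2, α0⟩ := h.pos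
  have hp : 0 ≤ 10 * c + 2 * e4 + e1 := by positivity
  -- constant terms
  have k1 : 3 * c * (c2 * D * U ^ 2 + c3 * D * U ^ 3) ≤ c2 * D * U ^ 2 * X := by
    have h1 : 3 * c * (c2 + c3) ≤ C1 := by
      rw [h.C1e]
      have : 0 ≤ 6 * c * c2 + 57 * c + 48 * c ^ 2 := by positivity
      linarith
    have h2 : 3 * c * (c2 + c3) * U ≤ X := by
      calc 3 * c * (c2 + c3) * U ≤ C1 * U ^ 3 :=
            mul_le_mul h1 (u1.trans u2) U0.le (by linarith)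
        _ ≤ X := h.hU
    have h3 : X ≤ c2 * X := le_mul_of_one_le_left X0.le h.c21
    have h4 : 3 * c * (c2 + c3 * U) ≤ c2 * X := by
      have : c2 ≤ c2 * U := le_mul_of_one_le_right c20.le h.U1
      have h5 : 3 * c * (c2 + c3 * U) ≤ 3 * c * (c2 + c3) * U := by
        have : 3 * c * (c2 + c3 * U) ≤ 3 * c * (c2 * U + c3 * U) := by gcongr
        linarith
      linarith
    calc 3 * c * (c2 * D * U ^ 2 + c3 * D * U ^ 3) = (3 * c * (c2 + c3 * U)) * (D * U ^ 2) := by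
          ring
      _ ≤ (c2 * X) * (D * U ^ 2) := mul_le_mul_of_nonneg_right h4 (by positivity)
      _ = c2 * D * U ^ 2 * X := by ring
  -- slopes
  have k2 : 3 * c * (8 * c * D * N + (2 * c * αw + 11 * c * D * N)) ≤ 8 * c * D * N * X := by
    have h1 : 6 * c * c2 * U ^ 2 ≤ N := by
      have h2 : 6 * c * c2 ≤ C1 := by
        rw [h.C1e]
        have : 0 ≤ 3 * c * (c2 + c3) + 57 * c + 48 * c ^ 2 := by positivity
        linarith
      calc 6 * c * c2 * U ^ 2 ≤ C1 * U ^ 3 := mul_le_mul h2 u2 (by positivity) (by linarith)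
        _ ≤ X := h.hU
        _ ≤ N := h.hN
    have h3 : 57 * c + 48 * c ^ 2 * T + 1 ≤ X := by
      have h4 : 57 * c + 48 * c ^ 2 + 1 ≤ C1 := by
        rw [h.C1e]
        have : 0 ≤ 3 * c * (c2 + c3) + 6 * c * c2 := by positivity
        linarith
      have h5 : (57 * c + 48 * c ^ 2 + 1) * (T + 1) ≤ C1 * (T + 1) := by gcongr
      have h6 : 57 * c + 48 * c ^ 2 * T + 1 ≤ (57 * c + 48 * c ^ 2 + 1) * (T + 1) := by
        have : 0 ≤ 57 * c * T + 48 * c ^ 2 + T := by positivity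
        nlinarith
      linarith [h.hX]
    have h7 : (57 * c + 48 * c ^ 2 * T + 1) * N ≤ X * N := by gcongr
    have h8 : 57 * c * N + 6 * c * c2 * U ^ 2 + 48 * c ^ 2 * N * T ≤ 8 * N * X := by
      have : 0 ≤ X * N := by positivity
      nlinarith
    have h9 := mul_le_mul_of_nonneg_left h8 (by positivity : 0 ≤ c * D)
    rw [h.hα]
    have e1 : 3 * c * (8 * c * D * N + (2 * c * (c2 * D * U ^ 2 + 8 * c * D * N * T) +
        11 * c * D * N)) = c * D * (57 * c * N + 6 * c * c2 * U ^ 2 + 48 * c ^ 2 * N * T) := by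
      ring
    have e2 : 8 * c * D * N * X = c * D * (8 * N * X) := by ring
    rw [e1, e2]
    exact h9
  have k3 := mul_le_mul_of_nonneg_right k2 (by positivity : 0 ≤ s / ρ)
  have e1 : 3 * c * ((c2 * D * U ^ 2 + 8 * c * D * N / ρ * s) +
      (c3 * D * U ^ 3 + (2 * c * αw + 11 * c * D * N) / ρ * s)) =
      3 * c * (c2 * D * U ^ 2 + c3 * D * U ^ 3) +
      3 * c * (8 * c * D * N + (2 * c * αw + 11 * c * D * N)) * (s / ρ) := by ring
  have e2 : (c2 * D * U ^ 2 + 8 * c * D * N / ρ * s) * X =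
      c2 * D * U ^ 2 * X + 8 * c * D * N * X * (s / ρ) := by ring
  rw [e1, e2]
  linarith

theorem αle (h : LCtx c c2 c3 D e1 e4 C1 s1 ρ T U X N Y αw) {s : ℝ} (hs : s ≤ s1) :
    c2 * D * U ^ 2 + 8 * c * D * N / ρ * s ≤ αw := by
  obtain ⟨c0, c20, c30, D0, e10, e40, U0, ρ0, s10, T0, X0, N0, hC, u1, u2, α0⟩ := h.pos
  rw [h.hα, h.hT]
  have h1 : 8 * c * D * N / ρ * s ≤ 8 * c * D * N / ρ * s1 :=
    mul_le_mul_of_nonneg_left hs (by positivity)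
  have e : 8 * c * D * N * (s1 / ρ) = 8 * c * D * N / ρ * s1 := by ring
  linarith

end LCtx

/-- the system at level `u` for the fixed target -/
def SW (P : ℝ → ℝ → ℝ → ℝ → ℝ → ℝ → ℝ → Prop) (c c2 c3 D e1 e4 s1 ρ U N αw : ℝ) (s : ℝ) (u : ℕ) :
    Prop :=
  P ((c3 * D * U ^ 3 + (2 * c * αw + 11 * c * D * N) / ρ * s) * 2 ^ u)
    ((c2 * D * U ^ 2 + 8 * c * D * N / ρ * s) * 2 ^ u)
    ((c3 * D * U ^ 3 + (2 * c * αw + 11 * c * D * N) / ρ * s) * 2 ^ u)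
    (e1 * D * 2 ^ u) ((e4 * D * U + 5 * c * D / ρ * s) * 2 ^ u) (D * 2 ^ u)
    ((1 - s / (2 * s1)) * 2 ^ u)

theorem SW_mono {P : ℝ → ℝ → ℝ → ℝ → ℝ → ℝ → ℝ → Prop} (hmono : MonoStmt P)
    {c c2 c3 D e1 e4 C1 s1 ρ T U X N Y αw : ℝ}
    (h : LCtx c c2 c3 D e1 e4 C1 s1 ρ T U X N Y αw) {s s' : ℝ} {u : ℕ} (hs : s ≤ s')
    (hP : SW P c c2 c3 D e1 e4 s1 ρ U N αw s u) : SW P c c2 c3 D e1 e4 s1 ρ U N αw s' u := by
  obtain ⟨c0, c20, c30, D0, e10, e40, U0, ρ0, s10, T0, X0, N0, hC, u1, u2, α0⟩ := h.pos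
  refine hmono hP ?_ ?_ ?_ le_rfl ?_ le_rfl ?_
  · gcongr
  · gcongr
  · gcongr
  · gcongr
  · gcongr

theorem levels_low {P : ℝ → ℝ → ℝ → ℝ → ℝ → ℝ → ℝ → Prop} (hmono : MonoStmt P)
    {c c1 c2 c3 c4 D e1 e4 C1 s1 ρ T U X N Y αw : ℝ}
    (h : LCtx c c2 c3 D e1 e4 C1 s1 ρ T U X N Y αw) (hc1 : c1 ≤ e1) (hc4 : c4 ≤ e4)
    {u : ℕ} (hk : H201.St P c1 c2 c3 c4 D u) (hsU : (u : ℝ) + 1 ≤ U) :
    SW P c c2 c3 D e1 e4 s1 ρ U N αw ((u : ℝ) + 1) u := by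
  obtain ⟨c0, c20, c30, D0, e10, e40, U0, ρ0, s10, T0, X0, N0, hC, u1, u2, α0⟩ := h.pos
  unfold H201.St at hk
  have hs0 : (0 : ℝ) < (u : ℝ) + 1 := by positivity
  have hslope : 0 ≤ (2 * c * αw + 11 * c * D * N) / ρ * ((u : ℝ) + 1) := by positivity
  have hslope2 : 0 ≤ 8 * c * D * N / ρ * ((u : ℝ) + 1) := by positivity
  have hslope3 : 0 ≤ 5 * c * D / ρ * ((u : ℝ) + 1) := by positivity
  have h3 : c3 * D * ((u : ℝ) + 1) ^ 3 ≤ c3 * D * U ^ 3 := by gcongr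
  have h2 : c2 * D * ((u : ℝ) + 1) ^ 2 ≤ c2 * D * U ^ 2 := by gcongr
  have h4 : c4 * D * ((u : ℝ) + 1) ≤ e4 * D * U := by
    calc c4 * D * ((u : ℝ) + 1) ≤ e4 * D * ((u : ℝ) + 1) := by gcongr
      _ ≤ e4 * D * U := by gcongr
  have h5 : 0 ≤ ((u : ℝ) + 1) / (2 * s1) := by positivity
  have h6 : 0 ≤ 1 / ((u : ℝ) + 1) := by positivity
  have hp : (0 : ℝ) ≤ 2 ^ u := by positivity
  refine hmono hk ?_ ?_ ?_ ?_ ?_ le_rfl ?_
  · exact mul_le_mul_of_nonneg_right (by linarith only [h3, hslope]) hp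
  · exact mul_le_mul_of_nonneg_right (by linarith only [h2, hslope2]) hp
  · exact mul_le_mul_of_nonneg_right (by linarith only [h3, hslope]) hp
  · exact mul_le_mul_of_nonneg_right (mul_le_mul_of_nonneg_right hc1 D0.le) hp
  · exact mul_le_mul_of_nonneg_right (by linarith only [h4, hslope3]) hp
  · exact mul_le_mul_of_nonneg_right (by linarith only [h5, h6]) hp

/-- the gain of the step pays for the loss of the block -/
theorem gainW {c c2 c3 D e1 e4 C1 s1 ρ T U X N Y αw : ℝ}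
    (h : LCtx c c2 c3 D e1 e4 C1 s1 ρ T U X N Y αw) {s Zl Z : ℝ} (hs0 : 0 ≤ s)
    (hZl0 : 0 < Zl) (hZY : Z = Y * Zl) (hb2 : 6 * N ≤ Zl) :
    (1 - (s + ρ) / (2 * s1)) * Z ≤ (1 - s / (2 * s1)) * (Z - Zl) - N - 1 := by
  obtain ⟨c0, c20, c30, D0, e10, e40, U0, ρ0, s10, T0, X0, N0, hC, u1, u2, α0⟩ := h.pos
  have hN1 : 1 ≤ N := by
    have h1 := h.hN
    have h2 := h.hX
    have h3 : 4 * (0 + 1) ≤ C1 * (T + 1) := by gcongr
    linarith only [h1, h2, h3]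
  have hZ0 : 0 ≤ Z := by
    rw [hZY]
    have h2 := h.hY
    have : 0 ≤ C1 * s1 ^ 3 := by positivity
    exact mul_nonneg (by linarith only [h2, this]) hZl0.le
  have h1 : 2 * (2 * s1) * Zl ≤ Z := by
    rw [hZY]
    apply mul_le_mul_of_nonneg_right _ hZl0.le
    have h2 := h.hY
    have h3 : 4 * s1 ≤ C1 * s1 ^ 3 := by
      have h4 : s1 ≤ s1 ^ 3 := le_self_pow₀ h.s11 (by norm_num)
      exact mul_le_mul hC h4 s10.le (by linarith only [hC])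
    linarith only [h2, h3]
  have h2 : 2 * Zl ≤ Z * (ρ / (2 * s1)) := by
    have h3 : 2 * Zl ≤ Z * (1 / (2 * s1)) := by
      rw [mul_one_div, le_div_iff₀ (by positivity)]
      linarith only [h1]
    have h4 : Z * (1 / (2 * s1)) ≤ Z * (ρ / (2 * s1)) := by
      have := h.ρ1
      gcongr
    linarith only [h3, h4]
  have h4 : (1 - s / (2 * s1)) * Zl ≤ 1 * Zl := by
    have h5 : 0 ≤ s / (2 * s1) := by positivity
    exact mul_le_mul_of_nonneg_right (by linarith only [h5]) hZl0.le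
  have e1 : (1 - (s + ρ) / (2 * s1)) * Z = (1 - s / (2 * s1)) * Z - Z * (ρ / (2 * s1)) := by
    ring
  have e2 : (1 - s / (2 * s1)) * (Z - Zl) = (1 - s / (2 * s1)) * Z - (1 - s / (2 * s1)) * Zl := by
    ring
  rw [e1, e2]
  linarith only [h2, h4, hb2, hN1]

theorem levels_step {P : ℝ → ℝ → ℝ → ℝ → ℝ → ℝ → ℝ → Prop} (hG : GenStepStmt) {b c : ℝ}
    (hb : 1 ≤ b) (hbc : b ≤ c) (hch : ChainStmt P b c) (hmono : MonoStmt P)
    {c2 c3 D e1 e4 C1 s1 ρ T U X N Y αw : ℝ}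
    (h : LCtx c c2 c3 D e1 e4 C1 s1 ρ T U X N Y αw) {r lam u : ℕ}
    (hX : X = 2 ^ r) (hN : N = lam * 2 ^ r)
    (hY : Y = 2 ^ lam) (hlam : 1 ≤ lam) (hb1 : r + lam + 1 ≤ u)
    (hb2 : 6 * ((lam : ℝ) * 2 ^ r) ≤ 2 ^ (u - lam)) {s : ℝ} (hs0 : 0 ≤ s) (hss : s ≤ s1)
    (hcore : ∀ v : ℕ, u ≤ v + r + lam → v + r + 1 ≤ u →
          SW P c c2 c3 D e1 e4 s1 ρ U N αw s v) :
    SW P c c2 c3 D e1 e4 s1 ρ U N αw (s + ρ) u := by
  obtain ⟨c0, c20, c30, D0, e10, e40, U0, ρ0, s10, T0, X0, N0, hC, u1, u2, α0⟩ := h.pos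
  have hα' := h.αle hss
  have hαD : (c2 * D * U ^ 2 + 8 * c * D * N / ρ * s) * 2 ^ (u - lam) ≤ D * 2 ^ u := by
    have h1 : (2 : ℝ) ^ u = 2 ^ lam * 2 ^ (u - lam) := by
      rw [← pow_add]
      congr 1
      omega
    rw [h1, ← mul_assoc]
    apply mul_le_mul_of_nonneg_right _ (by positivity)
    rw [← hY]
    exact hα'.trans h.hαY
  have hkap : e1 * D ≤ D * 2 ^ r := by rw [← hX]; exact h.kap
  have hzet : e4 * D * U + 5 * c * D / ρ * s ≤ D * 2 ^ r := by rw [← hX]; exact h.zet hs0 hss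
  have hcov := h.cov hs0
  rw [hX] at hcov
  have ν0 : 0 ≤ c3 * D * U ^ 3 + (2 * c * αw + 11 * c * D * N) / ρ * s := by positivity
  have α0' : 0 ≤ c2 * D * U ^ 2 + 8 * c * D * N / ρ * s := by positivity
  have κ0 : 0 ≤ e1 * D := by positivity
  have ζ0 : 0 ≤ e4 * D * U + 5 * c * D / ρ * s := by positivity
  have key := hG P b c hb hbc hch hmono u r lam
    (c3 * D * U ^ 3 + (2 * c * αw + 11 * c * D * N) / ρ * s)
    (c2 * D * U ^ 2 + 8 * c * D * N / ρ * s)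
    (c3 * D * U ^ 3 + (2 * c * αw + 11 * c * D * N) / ρ * s)
    (e1 * D) (e4 * D * U + 5 * c * D / ρ * s) D (1 - s / (2 * s1)) (by omega) hlam
    ν0 α0' ν0 κ0 ζ0 h.D1 hcore hkap hzet hcov hαD hb2
  rw [← hN] at key
  have hp : (0 : ℝ) ≤ 2 ^ u := by positivity
  have hcα : αw ≤ 2 * c * αw := by
    have h1 : 1 * αw ≤ (2 * c) * αw := by
      apply mul_le_mul_of_nonneg_right _ α0.le
      linarith only [h.c1]
    linarith only [h1]
  have hcDN : 0 ≤ c * D * N := by positivity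
  have ge : c3 * D * U ^ 3 + (2 * c * αw + 11 * c * D * N) / ρ * (s + ρ) =
      (c3 * D * U ^ 3 + (2 * c * αw + 11 * c * D * N) / ρ * s) +
        (2 * c * αw + 11 * c * D * N) := by
    field_simp
    ring
  have ae : c2 * D * U ^ 2 + 8 * c * D * N / ρ * (s + ρ) =
      (c2 * D * U ^ 2 + 8 * c * D * N / ρ * s) + 8 * c * D * N := by
    field_simp
    ring
  have ze : e4 * D * U + 5 * c * D / ρ * (s + ρ) =
      (e4 * D * U + 5 * c * D / ρ * s) + 5 * c * D := by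
    field_simp
    ring
  have h2cα : 2 * c * (c2 * D * U ^ 2 + 8 * c * D * N / ρ * s) ≤ 2 * c * αw :=
    mul_le_mul_of_nonneg_left hα' (by positivity)
  unfold SW
  rw [ge, ae, ze]
  generalize c3 * D * U ^ 3 + (2 * c * αw + 11 * c * D * N) / ρ * s = ν at key ⊢
  generalize c2 * D * U ^ 2 + 8 * c * D * N / ρ * s = α at key hα' h2cα ⊢
  generalize e4 * D * U + 5 * c * D / ρ * s = ζ at key ⊢
  refine hmono key ?_ ?_ ?_ ?_ ?_ le_rfl ?_
  · exact mul_le_mul_of_nonneg_right (by linarith only [hα', hcα, hcDN]) hp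
  · exact le_rfl
  · exact mul_le_mul_of_nonneg_right (by linarith only [h2cα]) hp
  · exact mul_le_mul_of_nonneg_right (mul_le_mul_of_nonneg_right h.e11 D0.le) hp
  · exact le_rfl
  · have hZY : (2 : ℝ) ^ u = Y * 2 ^ (u - lam) := by
      rw [hY, ← pow_add]
      congr 1
      omega
    exact gainW h hs0 (by positivity) hZY (by rw [hN]; exact hb2)

theorem levels {P : ℝ → ℝ → ℝ → ℝ → ℝ → ℝ → ℝ → Prop} (hG : GenStepStmt) {b c : ℝ} (hb : 1 ≤ b)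
    (hbc : b ≤ c) (hch : ChainStmt P b c) (hmono : MonoStmt P)
    {c1 c2 c3 c4 D e1 e4 C1 s1 ρ T U X N Y αw : ℝ}
    (h : LCtx c c2 c3 D e1 e4 C1 s1 ρ T U X N Y αw) (hc1 : c1 ≤ e1) (hc4 : c4 ≤ e4)
    (hall : ∀ u : ℕ, H201.St P c1 c2 c3 c4 D u) {w r lam u0 : ℕ} (hs1 : s1 = (w : ℝ) + 1)
    (hρ : ρ = (r : ℝ) + 1) (hU : U = (u0 : ℝ) + 1) (hX : X = 2 ^ r) (hN : N = lam * 2 ^ r)
    (hY : Y = 2 ^ lam) (hlam : 1 ≤ lam)
    (hbig : ∀ u : ℕ, u0 ≤ u → r + lam + 1 ≤ u ∧ 6 * ((lam : ℝ) * 2 ^ r) ≤ 2 ^ (u - lam)) :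
    ∀ u : ℕ, u ≤ w → SW P c c2 c3 D e1 e4 s1 ρ U N αw ((u : ℝ) + 1) u := by
  intro u
  induction u using Nat.strong_induction_on with
  | _ u ih =>
    intro huw
    have huw' : (u : ℝ) + 1 ≤ s1 := by
      rw [hs1]
      have : (u : ℝ) ≤ w := by exact_mod_cast huw
      linarith only [this]
    rcases Nat.lt_or_ge u u0 with hlt | hge
    · refine levels_low hmono h hc1 hc4 (hall u) ?_
      rw [hU]
      have : (u : ℝ) ≤ u0 := by exact_mod_cast hlt.le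
      linarith only [this]
    · obtain ⟨hb1, hb2⟩ := hbig u hge
      have hsr : (u : ℝ) + 1 - ρ = ((u - r : ℕ) : ℝ) := by
        rw [hρ, Nat.cast_sub (by omega)]
        ring
      have hs0 : 0 ≤ (u : ℝ) + 1 - ρ := by rw [hsr]; exact Nat.cast_nonneg _
      have hss : (u : ℝ) + 1 - ρ ≤ s1 := by linarith only [h.ρ1, huw']
      have hcore : ∀ v : ℕ, u ≤ v + r + lam → v + r + 1 ≤ u →
          SW P c c2 c3 D e1 e4 s1 ρ U N αw ((u : ℝ) + 1 - ρ) v := by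
        intro v hv1 hv2
        have h1 := ih v (by omega) (by omega)
        refine SW_mono hmono h ?_ h1
        rw [hsr]
        have : v + 1 ≤ u - r := by omega
        exact_mod_cast this
      have key := levels_step hG hb hbc hch hmono h hX hN hY hlam hb1 hb2 hs0 hss hcore
      rwa [sub_add_cancel] at key

end Vale.Agent.P065.R2.H919
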