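import Vale.Agent.P065.R2.H919.Levels

/-!
# P065, stage B': `LevelsStmt` (helper919)
-/

set_option autoImplicit false

namespace Vale.Agent.P065.R2.H919

open Finset

theorem numFinal {c c2 c3 D U N T αw C2 w R A : ℝ} (c0 : 0 < c) (c20 : 0 < c2) (c30 : 0 < c3)
    (D0 : 0 < D) (N0 : 0 < N) (T0 : 0 < T) (C20 : 1 ≤ C2) (w1 : 1 ≤ w) (R1 : 1 ≤ R)
    (hU3 : U ^ 3 ≤ C2 * R) (hU2 : U ^ 2 ≤ U ^ 3) (hN : N ≤ C2 ^ 2 * w) (hT : T ≤ 2 * C2 * R)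
    (hα : αw = c2 * D * U ^ 2 + 8 * c * D * N * T) (hA : A = D * (c2 * C2 + 16 * c * C2 ^ 3)) :
    αw ≤ A * (w * R ^ 2) ∧
    c3 * D * U ^ 3 + (2 * c * αw + 11 * c * D * N) * T ≤
      (c3 * D * C2 + 2 * C2 * (2 * c * A + 11 * c * D * C2 ^ 2)) * (w * R ^ 2) := by
  have w0 : 0 < w := by linarith only [w1]
  have R0 : 0 < R := by linarith only [R1]
  have C0 : 0 < C2 := by linarith only [C20]
  have hRwR : R ≤ w * R := le_mul_of_one_le_left R0.le w1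
  have hwwR : w ≤ w * R := le_mul_of_one_le_right w0.le R1
  have hwR2 : w * R ≤ w * R ^ 2 := by
    have : R ≤ R ^ 2 := le_self_pow₀ R1 (by norm_num)
    exact mul_le_mul_of_nonneg_left this w0.le
  have hNT : N * T ≤ (C2 ^ 2 * w) * (2 * C2 * R) := mul_le_mul hN hT T0.le (by positivity)
  have h1 : c2 * D * U ^ 2 ≤ c2 * D * (C2 * (w * R)) := by
    apply mul_le_mul_of_nonneg_left _ (by positivity)
    calc U ^ 2 ≤ U ^ 3 := hU2
      _ ≤ C2 * R := hU3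
      _ ≤ C2 * (w * R) := mul_le_mul_of_nonneg_left hRwR C0.le
  have h2 : 8 * c * D * N * T ≤ 8 * c * D * ((C2 ^ 2 * w) * (2 * C2 * R)) := by
    calc 8 * c * D * N * T = 8 * c * D * (N * T) := by ring
      _ ≤ _ := mul_le_mul_of_nonneg_left hNT (by positivity)
  have hα1 : αw ≤ A * (w * R) := by
    rw [hα, hA]
    calc c2 * D * U ^ 2 + 8 * c * D * N * T ≤
          c2 * D * (C2 * (w * R)) + 8 * c * D * ((C2 ^ 2 * w) * (2 * C2 * R)) := add_le_add h1 h2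
      _ = D * (c2 * C2 + 16 * c * C2 ^ 3) * (w * R) := by ring
  have hA0 : 0 < A := by rw [hA]; positivity
  refine ⟨hα1.trans (mul_le_mul_of_nonneg_left hwR2 hA0.le), ?_⟩
  have h3 : 2 * c * αw + 11 * c * D * N ≤ (2 * c * A + 11 * c * D * C2 ^ 2) * (w * R) := by
    have h4 : 2 * c * αw ≤ 2 * c * (A * (w * R)) := mul_le_mul_of_nonneg_left hα1 (by positivity)
    have h5 : 11 * c * D * N ≤ 11 * c * D * (C2 ^ 2 * (w * R)) := by
      apply mul_le_mul_of_nonneg_left _ (by positivity)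
      exact hN.trans (mul_le_mul_of_nonneg_left hwwR (by positivity))
    calc 2 * c * αw + 11 * c * D * N ≤ 2 * c * (A * (w * R)) + 11 * c * D * (C2 ^ 2 * (w * R)) :=
          add_le_add h4 h5
      _ = _ := by ring
  have h6 : (2 * c * αw + 11 * c * D * N) * T ≤
      ((2 * c * A + 11 * c * D * C2 ^ 2) * (w * R)) * (2 * C2 * R) :=
    mul_le_mul h3 hT T0.le (by positivity)
  have h7 : c3 * D * U ^ 3 ≤ c3 * D * (C2 * (w * R ^ 2)) := by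
    apply mul_le_mul_of_nonneg_left _ (by positivity)
    exact hU3.trans (mul_le_mul_of_nonneg_left (hRwR.trans hwR2) C0.le)
  calc c3 * D * U ^ 3 + (2 * c * αw + 11 * c * D * N) * T ≤
        c3 * D * (C2 * (w * R ^ 2)) +
          ((2 * c * A + 11 * c * D * C2 ^ 2) * (w * R)) * (2 * C2 * R) := add_le_add h7 h6
    _ = _ := by ring

/-- (L) -/
theorem levelsStmt_of (hG : GenStepStmt) (hCh : ChoiceStmt)
    {P : ℝ → ℝ → ℝ → ℝ → ℝ → ℝ → ℝ → Prop} {b c : ℝ} (hb : 1 ≤ b) (hbc : b ≤ c)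
    (hch : ChainStmt P b c) (hmono : MonoStmt P) (hbase : BaseStmtU P) : LevelsStmt P := by
  obtain ⟨c1, c2, c3, c4, D, hc2, hc23, hD, hall⟩ := H201.all_levels hb hbc hch hmono hbase
  have hc : 1 ≤ c := hb.trans hbc
  have c0 : 0 < c := by linarith only [hc]
  have c20 : 0 < c2 := by linarith only [hc2]
  have c30 : 0 < c3 := by linarith only [hc2, hc23]
  have D0 : 0 < D := by linarith only [hD]
  obtain ⟨e1, he1⟩ : ∃ e1 : ℝ, e1 = max c1 (3 * c + 1) := ⟨_, rfl⟩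
  obtain ⟨e4, he4⟩ : ∃ e4 : ℝ, e4 = max c4 1 := ⟨_, rfl⟩
  have e11 : c1 ≤ e1 := by rw [he1]; exact le_max_left _ _
  have e12 : 3 * c + 1 ≤ e1 := by rw [he1]; exact le_max_right _ _
  have e41 : c4 ≤ e4 := by rw [he4]; exact le_max_left _ _
  have e42 : 1 ≤ e4 := by rw [he4]; exact le_max_right _ _
  obtain ⟨C1, hC1⟩ : ∃ C1 : ℝ, C1 = e1 + 10 * c + 2 * e4 + 3 * c * (c2 + c3) + 6 * c * c2 +
      57 * c + 48 * c ^ 2 + 4 := ⟨_, rfl⟩
  have hC11 : 1 ≤ C1 := by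
    have h1 : 0 ≤ 3 * c * (c2 + c3) + 6 * c * c2 + 57 * c + 48 * c ^ 2 := by positivity
    rw [hC1]
    linarith only [h1, e12, e42, c0]
  obtain ⟨C2, w0, hC2, hw⟩ := hCh C1 hC11
  have C20 : 0 < C2 := by linarith only [hC2]
  obtain ⟨A, hA⟩ : ∃ A : ℝ, A = D * (c2 * C2 + 16 * c * C2 ^ 3) := ⟨_, rfl⟩
  have hA0 : 0 < A := by rw [hA]; positivity
  obtain ⟨G, hG'⟩ : ∃ G : ℝ, G = c3 * D * C2 + 2 * C2 * (2 * c * A + 11 * c * D * C2 ^ 2) :=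
    ⟨_, rfl⟩
  have hG0 : 0 < G := by rw [hG']; positivity
  refine ⟨1 + A + G, 1 / 2, max w0 (⌈c2 * C2 + 8 * c * C2 ^ 2⌉₊), by linarith only [hA0, hG0],
    by norm_num, fun w hww => ?_⟩
  have hww0 : w0 ≤ w := le_trans (le_max_left _ _) hww
  have hww1 : c2 * C2 + 8 * c * C2 ^ 2 ≤ w :=
    (Nat.le_ceil _).trans (by exact_mod_cast le_trans (le_max_right _ _) hww)
  obtain ⟨r, lam, u0, hl, h1, h2, h3, h4, h5, h6, h7, h8, h9⟩ := hw w hww0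
  obtain ⟨ℓ, hℓ⟩ : ∃ ℓ : ℝ, ℓ = Real.log w := ⟨_, rfl⟩
  rw [← hℓ] at hl h2 h3 h4
  have ℓ0 : 0 < ℓ := by linarith only [hl]
  have hw0 : (0 : ℝ) ≤ w := Nat.cast_nonneg _
  have hℓw : ℓ ≤ w := by
    rw [hℓ]
    exact Real.log_le_self hw0
  have w1 : (1 : ℝ) ≤ w := hl.trans hℓw
  have w0' : (0 : ℝ) < w := by linarith only [w1]
  obtain ⟨R, hR⟩ : ∃ R : ℝ, R = (w : ℝ) / ℓ := ⟨_, rfl⟩
  have R1 : 1 ≤ R := by rw [hR, le_div_iff₀ ℓ0]; linarith only [hℓw]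
  rw [← hR] at h2
  obtain ⟨ρ, hρ⟩ : ∃ ρ : ℝ, ρ = (r : ℝ) + 1 := ⟨_, rfl⟩
  obtain ⟨s1, hs1⟩ : ∃ s1 : ℝ, s1 = (w : ℝ) + 1 := ⟨_, rfl⟩
  obtain ⟨T, hT⟩ : ∃ T : ℝ, T = s1 / ρ := ⟨_, rfl⟩
  obtain ⟨U, hU⟩ : ∃ U : ℝ, U = (u0 : ℝ) + 1 := ⟨_, rfl⟩
  obtain ⟨X, hX⟩ : ∃ X : ℝ, X = (2 : ℝ) ^ r := ⟨_, rfl⟩
  obtain ⟨Y, hY⟩ : ∃ Y : ℝ, Y = (2 : ℝ) ^ lam := ⟨_, rfl⟩
  obtain ⟨N, hN⟩ : ∃ N : ℝ, N = (lam : ℝ) * 2 ^ r := ⟨_, rfl⟩
  obtain ⟨αw, hα⟩ : ∃ αw : ℝ, αw = c2 * D * U ^ 2 + 8 * c * D * N * T := ⟨_, rfl⟩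
  rw [← hs1, ← hρ, ← hT, ← hX] at h1
  rw [← hX] at h2
  rw [← hs1, ← hY] at h5
  rw [← hU, ← hX] at h6
  rw [← hρ] at h4
  have hlam1 : (1 : ℝ) ≤ lam := by exact_mod_cast h7
  have ρ1 : 1 ≤ ρ := by
    rw [hρ]
    have : (0 : ℝ) ≤ r := Nat.cast_nonneg _
    linarith only [this]
  have ρ0 : 0 < ρ := by linarith only [ρ1]
  have s11 : 1 ≤ s1 := by rw [hs1]; linarith only [hw0]
  have s10 : 0 < s1 := by linarith only [s11]
  have U1 : 1 ≤ U := by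
    rw [hU]
    have : (0 : ℝ) ≤ u0 := Nat.cast_nonneg _
    linarith only [this]
  have U0 : 0 < U := by linarith only [U1]
  have X0 : 0 < X := by rw [hX]; positivity
  have XN : X ≤ N := by
    rw [hN, ← hX]
    exact le_mul_of_one_le_left X0.le hlam1
  have N0 : 0 < N := by linarith only [X0, XN]
  have T0 : 0 < T := by rw [hT]; positivity
  -- the sizes
  have hNle : N ≤ C2 ^ 2 * w := by
    have e : C2 ^ 2 * w = (C2 * ℓ) * (C2 * R) := by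
      rw [hR]
      field_simp
    rw [e, hN, ← hX]
    exact mul_le_mul h3 h2 X0.le (by positivity)
  have hTle : T ≤ 2 * C2 * R := by
    rw [hT, div_le_iff₀ ρ0, hR, hs1]
    have e1 : 2 * (w : ℝ) ≤ 2 * C2 * (w / ℓ) * ρ := by
      have e2 : 2 * C2 * ((w : ℝ) / ℓ) * ρ = 2 * w * ((C2 * ρ) / ℓ) := by ring
      rw [e2]
      have e3 : 1 ≤ (C2 * ρ) / ℓ := by rw [le_div_iff₀ ℓ0]; linarith only [h4]
      exact le_mul_of_one_le_right (by positivity) e3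
    linarith only [e1, w1]
  have hTs : T ≤ s1 := by
    rw [hT]
    exact div_le_self s10.le ρ1
  have hU3 : U ^ 3 ≤ C2 * R := by
    have e1 : U ^ 3 ≤ C1 * U ^ 3 := le_mul_of_one_le_left (by positivity) hC11
    exact e1.trans (h6.trans h2)
  have hU23 : U ^ 2 ≤ U ^ 3 := pow_le_pow_right₀ U1 (by norm_num)
  have hRw : R ≤ w := by rw [hR]; exact div_le_self hw0 hl
  have hαY : αw ≤ D * Y := by
    have e1 : αw = D * (c2 * U ^ 2 + 8 * c * (N * T)) := by rw [hα]; ring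
    rw [e1]
    apply mul_le_mul_of_nonneg_left _ D0.le
    have e2 : c2 * U ^ 2 ≤ c2 * (C2 * s1 ^ 2) := by
      apply mul_le_mul_of_nonneg_left _ c20.le
      have e3 : R ≤ s1 ^ 2 := by
        have : s1 ≤ s1 ^ 2 := le_self_pow₀ s11 (by norm_num)
        have h' : (w : ℝ) ≤ s1 := by rw [hs1]; linarith only
        linarith only [hRw, this, h']
      exact hU23.trans (hU3.trans (mul_le_mul_of_nonneg_left e3 C20.le))
    have e4 : N * T ≤ C2 ^ 2 * s1 ^ 2 := by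
      have h' : (w : ℝ) ≤ s1 := by rw [hs1]; linarith only
      calc N * T ≤ (C2 ^ 2 * w) * s1 := mul_le_mul hNle hTs T0.le (by positivity)
        _ ≤ (C2 ^ 2 * s1) * s1 := by gcongr
        _ = C2 ^ 2 * s1 ^ 2 := by ring
    have e5 : 8 * c * (N * T) ≤ 8 * c * (C2 ^ 2 * s1 ^ 2) :=
      mul_le_mul_of_nonneg_left e4 (by positivity)
    have e6 : (c2 * C2 + 8 * c * C2 ^ 2) * s1 ^ 2 ≤ s1 * s1 ^ 2 := by
      apply mul_le_mul_of_nonneg_right _ (by positivity)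
      have h' : (w : ℝ) ≤ s1 := by rw [hs1]; linarith only
      linarith only [hww1, h']
    have e7 : s1 * s1 ^ 2 ≤ C1 * s1 ^ 3 := by
      have : s1 * s1 ^ 2 = s1 ^ 3 := by ring
      rw [this]
      exact le_mul_of_one_le_left (by positivity) hC11
    calc c2 * U ^ 2 + 8 * c * (N * T) ≤ c2 * (C2 * s1 ^ 2) + 8 * c * (C2 ^ 2 * s1 ^ 2) :=
          add_le_add e2 e5
      _ = (c2 * C2 + 8 * c * C2 ^ 2) * s1 ^ 2 := by ring
      _ ≤ C1 * s1 ^ 3 := e6.trans e7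
      _ ≤ Y := h5
  have ctx : LCtx c c2 c3 D e1 e4 C1 s1 ρ T U X N Y αw :=
    ⟨hc, hc2, hc23, hD, e12, e42, U1, ρ1, s11, hT, hC1, h1, h6, XN, h5, hα, hαY⟩
  have key := levels hG hb hbc hch hmono ctx e11 e41 hall hs1 hρ hU hX hN hY h7 h9 w le_rfl
  obtain ⟨n1, n2⟩ := numFinal c0 c20 c30 D0 N0 T0 hC2 w1 R1 hU3 hU23 hNle hTle hα hA
  rw [← hG'] at n2
  have hwR : (w : ℝ) ^ 3 / (Real.log w) ^ 2 = w * R ^ 2 := by
    rw [← hℓ, hR]
    field_simp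
  have hp : (0 : ℝ) ≤ 2 ^ w := by positivity
  have hwR0 : 0 ≤ (w : ℝ) * R ^ 2 := by positivity
  have eT1 : (2 * c * αw + 11 * c * D * N) / ρ * ((w : ℝ) + 1) =
      (2 * c * αw + 11 * c * D * N) * T := by
    rw [hT, hs1]
    ring
  have eT2 : 8 * c * D * N / ρ * ((w : ℝ) + 1) = 8 * c * D * N * T := by
    rw [hT, hs1]
    ring
  have m1 : A * ((w : ℝ) * R ^ 2) ≤ (1 + A + G) * (w * R ^ 2) :=
    mul_le_mul_of_nonneg_right (by linarith only [hG0]) hwR0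
  have m2 : G * ((w : ℝ) * R ^ 2) ≤ (1 + A + G) * (w * R ^ 2) :=
    mul_le_mul_of_nonneg_right (by linarith only [hA0]) hwR0
  rw [hwR]
  refine ⟨_, _, _, hmono key ?_ ?_ ?_ le_rfl le_rfl le_rfl ?_⟩
  · apply mul_le_mul_of_nonneg_right _ hp
    rw [eT1]
    exact n2.trans m2
  · apply mul_le_mul_of_nonneg_right _ hp
    rw [eT2, ← hα]
    exact n1.trans m1
  · apply mul_le_mul_of_nonneg_right _ hp
    rw [eT1]
    exact n2.trans m2
  · apply mul_le_mul_of_nonneg_right _ hp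
    have e : ((w : ℝ) + 1) / (2 * s1) = 1 / 2 := by
      rw [← hs1]
      field_simp
    rw [e]
    norm_num

end Vale.Agent.P065.R2.H919
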