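import Vale.Agent.P065.R2.H919.RecStmt

/-!
# P065, stage C: exact slopes, no rounding; statements (helper919)
-/

set_option autoImplicit false

namespace Vale.Agent.P065.R2.H919

open Finset

/-- product of a chain of `m` different cores, exact slopes (abstract form) -/
def Chain2Stmt (P : ℝ → ℝ → ℝ → ℝ → ℝ → ℝ → ℝ → Prop) (c : ℝ) : Prop :=
  ∀ (m : ℕ) (nn aa gg qq zz dd xx : ℕ → ℝ) (e qb zb : ℝ), 1 ≤ m →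
    (∀ i < m, P (nn i) (aa i) (gg i) (qq i) (zz i) (dd i) (xx i)) →
    (∀ i < m, 0 ≤ nn i ∧ 0 ≤ aa i ∧ 0 ≤ gg i ∧ 0 ≤ qq i ∧ 0 ≤ zz i ∧ 0 ≤ dd i) →
    (∀ i < m, qq i ≤ qb ∧ zz i ≤ zb) →
    ∑ i ∈ range m, (dd i + 6) ≤ e →
    P (∑ i ∈ range m, (nn i + aa i + c * (e + 1)))
      (∑ i ∈ range m, (aa i + c * (qb + zb + e + 1)))
      (∑ i ∈ range m, (gg i + c * (aa i + qb + zb + e + 1)))
      (c * (aa (m - 1) + gg (m - 1) + qb + zb + e + 1))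
      (∑ i ∈ range m, (zz i + c)) e (∑ i ∈ range m, (xx i - 1) - 1)

/-- **the recursion**, exponent `2` -/
def Rec2Stmt : Prop :=
  ∀ (P : ℝ → ℝ → ℝ → ℝ → ℝ → ℝ → ℝ → Prop) (c : ℝ), 1 ≤ c → Chain2Stmt P c →
    MonoStmt P → BaseStmtU P →
    ∃ C : ℝ, 0 < C ∧ ∃ t0 : ℝ, ∀ t : ℝ, t0 ≤ t →
      ∃ n a g q z d x : ℝ, P n a g q z d x ∧ 0 ≤ n ∧ 0 ≤ a ∧ 0 ≤ g ∧ 0 < x ∧
        n + a + g + 1 ≤ t ∧ t ≤ C * x * (Real.log t) ^ 2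

end Vale.Agent.P065.R2.H919
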