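import Vale.Agent.P065.R2.H919.Fin3
import Vale.Agent.P065.R2.H919.LevelsB
import Vale.Agent.P065.R2.H201.EndSharp
import Vale.Agent.P065.R2.H201.Choice
import Vale.Agent.P065.R2.H427.Gen
import Vale.Agent.P065.R2.H427.Loss23

/-!
# P065: lower bounds `h(n) ≥ n ^ (1 + c (log log log n)^2 / (log log n)^3)`
(helper919, with parts by helper201 and helper427)
-/

set_option autoImplicit false

namespace Vale.Agent.P065.R2.H919

open Vale.Agent.P065

theorem sharp_of (hCh : ChoiceStmt)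
    (hψ : Loss (fun t : ℝ => Real.log t / (Real.log (Real.log t)) ^ (2 / 3 : ℝ))) :
    (∃ (c : ℝ) (N : ℕ), 0 < c ∧ ∀ n : ℕ, N ≤ n → Even n →
      ∃ P : Finset (ℝ × ℝ), P.card = n ∧ GenPos P ∧
        (n : ℝ) ^ (1 + c * ((Real.log (Real.log (Real.log n))) ^ 2 /
          (Real.log (Real.log n)) ^ 3)) ≤ halvingNumber P) ∧
    (∃ (c : ℝ) (K : ℕ), 0 < c ∧ ∀ k n : ℕ, K ≤ k → 2 * k ≤ n →
      ∃ P : Finset (ℝ × ℝ), P.card = n ∧ GenPos P ∧
        (n : ℝ) * (k : ℝ) ^ (c * ((Real.log (Real.log (Real.log k))) ^ 2 /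
          (Real.log (Real.log k)) ^ 3)) ≤ kSetNumber P k) := by
  have hLev : LevelsStmt LC3 := levelsStmt_of H427.Gen.genStep hCh (b := 40) (c := 200)
    (by norm_num) (by norm_num) chain LC3_mono LC3_base
  obtain ⟨C, hC, t0, h⟩ := H201.endSharp LC3 hLev
  have key := mainLoss_of hψ (e := 3) hC h
  have e1 : ∀ x c : ℝ, 0 ≤ Real.log (Real.log x) →
      c / ((Real.log x) / (Real.log (Real.log x)) ^ (2 / 3 : ℝ)) ^ 3 =
        c * ((Real.log (Real.log x)) ^ 2 / (Real.log x) ^ 3) := by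
    intro x c hx
    have h1 : ((Real.log (Real.log x)) ^ (2 / 3 : ℝ)) ^ 3 = (Real.log (Real.log x)) ^ 2 := by
      rw [← Real.rpow_natCast, ← Real.rpow_mul hx]
      norm_num
    rw [div_pow, h1, div_div_eq_mul_div, mul_div_assoc]
  obtain ⟨N1, hN1⟩ : ∃ N1 : ℕ, ∀ n : ℕ, N1 ≤ n → 0 ≤ Real.log (Real.log (Real.log n)) := by
    have tend : Filter.Tendsto (fun n : ℕ => Real.log (Real.log n)) Filter.atTop Filter.atTop :=
      Real.tendsto_log_atTop.comp (Real.tendsto_log_atTop.comp tendsto_natCast_atTop_atTop)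
    obtain ⟨N1, hN1⟩ := Filter.eventually_atTop.1 (tend.eventually (Filter.eventually_ge_atTop 1))
    exact ⟨N1, fun n hn => Real.log_nonneg (hN1 n hn)⟩
  obtain ⟨⟨c, N, hc, h1⟩, ⟨c', K, hc', h2⟩⟩ := key
  apply points_of (f := fun x : ℝ => (Real.log (Real.log (Real.log x))) ^ 2 /
          (Real.log (Real.log x)) ^ 3)
  refine ⟨⟨c, max N N1, hc, fun n hn he => ?_⟩, ⟨c', max K N1, hc', fun k n hk hn => ?_⟩⟩
  · have h3 := h1 n (le_trans (le_max_left _ _) hn) he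
    rwa [e1 _ _ (hN1 n (le_trans (le_max_right _ _) hn))] at h3
  · have h3 := h2 k n (le_trans (le_max_left _ _) hk) hn
    rwa [e1 _ _ (hN1 k (le_trans (le_max_right _ _) hk))] at h3

/-- (a) `h(n) ≥ n ^ (1 + c (log log log n) ^ 2 / (log log n) ^ 3)`,
(b) `e_k(n) ≥ n k ^ (c (log log log k) ^ 2 / (log log k) ^ 3)`. -/
theorem sharp :
    (∃ (c : ℝ) (N : ℕ), 0 < c ∧ ∀ n : ℕ, N ≤ n → Even n →
      ∃ P : Finset (ℝ × ℝ), P.card = n ∧ GenPos P ∧
        (n : ℝ) ^ (1 + c * ((Real.log (Real.log (Real.log n))) ^ 2 /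
          (Real.log (Real.log n)) ^ 3)) ≤ halvingNumber P) ∧
    (∃ (c : ℝ) (K : ℕ), 0 < c ∧ ∀ k n : ℕ, K ≤ k → 2 * k ≤ n →
      ∃ P : Finset (ℝ × ℝ), P.card = n ∧ GenPos P ∧
        (n : ℝ) * (k : ℝ) ^ (c * ((Real.log (Real.log (Real.log k))) ^ 2 /
          (Real.log (Real.log k)) ^ 3)) ≤ kSetNumber P k) :=
  sharp_of H201.Ch.choice H427.Loss23.loss23

end Vale.Agent.P065.R2.H919
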