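import Vale.Agent.P065.R2.H919.RecStmt

/-!
# P065, stage B', statements: `t ≤ C x (log t)^3 / (log log t)^2` (helper919)
-/

set_option autoImplicit false

namespace Vale.Agent.P065.R2.H919

open Finset

/-- (G) one step with constant multiples: all cores of the chain are `(ν, α, γ, κ, ζ, D, x) 2^v` -/
def GenStepStmt : Prop :=
  ∀ (P : ℝ → ℝ → ℝ → ℝ → ℝ → ℝ → ℝ → Prop) (b c : ℝ), 1 ≤ b → b ≤ c → ChainStmt P b c →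
    MonoStmt P → ∀ (u r lam : ℕ) (ν α γ κ ζ D x : ℝ), r + lam ≤ u → 1 ≤ lam → 0 ≤ ν → 0 ≤ α →
    0 ≤ γ → 0 ≤ κ → 0 ≤ ζ → 1 ≤ D →
    (∀ v : ℕ, u ≤ v + r + lam → v + r + 1 ≤ u →
      P (ν * 2 ^ v) (α * 2 ^ v) (γ * 2 ^ v) (κ * 2 ^ v) (ζ * 2 ^ v) (D * 2 ^ v) (x * 2 ^ v)) →
    κ ≤ D * 2 ^ r → ζ ≤ D * 2 ^ r → 3 * c * (α + γ) ≤ α * 2 ^ r →
    α * 2 ^ (u - lam) ≤ D * 2 ^ u → 6 * ((lam : ℝ) * 2 ^ r) ≤ 2 ^ (u - lam) →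
    P ((ν + α + 2 * c * D * (lam * 2 ^ r)) * 2 ^ u) ((α + 8 * c * D * (lam * 2 ^ r)) * 2 ^ u)
      ((γ + 2 * c * α + 11 * c * D * (lam * 2 ^ r)) * 2 ^ u) ((3 * c + 1) * D * 2 ^ u)
      ((ζ + 5 * c * D) * 2 ^ u) (D * 2 ^ u)
      (x * (2 ^ u - 2 ^ (u - lam)) - lam * 2 ^ r - 1)

end Vale.Agent.P065.R2.H919
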