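import Vale.Agent.P065.R2.H919.SharpStmt

/-!
# P065, stage B', further statements: choice of the block numbers, levels, end (helper919)
-/

set_option autoImplicit false

namespace Vale.Agent.P065.R2.H919

open Finset

/-- (C) choice of `r`, `lam`, `u0` for the target level `w` -/
def ChoiceStmt : Prop :=
  ∀ C1 : ℝ, 1 ≤ C1 → ∃ (C2 : ℝ) (w0 : ℕ), 1 ≤ C2 ∧ ∀ w : ℕ, w0 ≤ w → ∃ r lam u0 : ℕ,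
    1 ≤ Real.log w ∧
    C1 * (((w : ℝ) + 1) / ((r : ℝ) + 1) + 1) ≤ 2 ^ r ∧
    (2 : ℝ) ^ r ≤ C2 * (w / Real.log w) ∧
    (lam : ℝ) ≤ C2 * Real.log w ∧
    Real.log w ≤ C2 * ((r : ℝ) + 1) ∧
    C1 * ((w : ℝ) + 1) ^ 3 ≤ 2 ^ lam ∧
    C1 * ((u0 : ℝ) + 1) ^ 3 ≤ 2 ^ r ∧
    1 ≤ lam ∧ u0 ≤ w ∧
    ∀ u : ℕ, u0 ≤ u → r + lam + 1 ≤ u ∧ 6 * ((lam : ℝ) * 2 ^ r) ≤ 2 ^ (u - lam)

/-- (L) the systems at the target levels -/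
def LevelsStmt (P : ℝ → ℝ → ℝ → ℝ → ℝ → ℝ → ℝ → Prop) : Prop :=
  ∃ (C0 x0 : ℝ) (w0 : ℕ), 1 ≤ C0 ∧ 0 < x0 ∧ ∀ w : ℕ, w0 ≤ w → ∃ q z d : ℝ,
    P (C0 * ((w : ℝ) ^ 3 / (Real.log w) ^ 2) * 2 ^ w) (C0 * ((w : ℝ) ^ 3 / (Real.log w) ^ 2) * 2 ^ w)
      (C0 * ((w : ℝ) ^ 3 / (Real.log w) ^ 2) * 2 ^ w) q z d (x0 * 2 ^ w)

/-- (E) the end: choice of the target level `w` from `t` -/
def EndSharpStmt : Prop :=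
  ∀ (P : ℝ → ℝ → ℝ → ℝ → ℝ → ℝ → ℝ → Prop), LevelsStmt P →
    ∃ C : ℝ, 0 < C ∧ ∃ t0 : ℝ, ∀ t : ℝ, t0 ≤ t →
      ∃ n a g q z d x : ℝ, P n a g q z d x ∧ 0 ≤ n ∧ 0 ≤ a ∧ 0 ≤ g ∧ 0 < x ∧
        n + a + g + 1 ≤ t ∧
        t ≤ C * x * (Real.log t / (Real.log (Real.log t)) ^ (2 / 3 : ℝ)) ^ 3

end Vale.Agent.P065.R2.H919
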