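import Vale.Agent.P065.W.Tol
import Vale.Agent.P065.W.Bal
import Vale.Agent.P065.W.Clear
import Vale.Agent.P065.W.Est

/-!
P065, product theorem with separate parameters: the tolerance and the home distances of the
product depend only on the inserted gadget (and on the old home distances divided by the
shrinking factor).  (helper919)
-/

set_option linter.all false

namespace Vale.Agent.P065.R2.H919

open Vale.Agent.P065 Vale.Agent.P065.W Vale.Agent.P065.W.Tl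

variable {ι υ γ κ ν βQ βP γ' : Type}

section

variable {C : Cfg ι υ} {F : Cel ι υ γ} {o z : ι → ℝ} {r S T θ W U s Z B : ℝ}

theorem QOk_mono (h : QOk C F o z r S T θ W U s Z B) {T' W' U' : ℝ} (r0 : 0 ≤ r) (hT : T ≤ T')
    (hW : W ≤ W') (hU : U ≤ U') : QOk C F o z r S T' θ W' U' s Z B where
  σ_nonneg := h.σ_nonneg
  σ_pos := h.σ_pos
  σ_eq := h.σ_eq
  lo := h.lo
  hi := h.hi
  h1 := h.h1
  h2 := h.h2
  h3 := h.h3
  tol := fun v v' hv => (h.tol v v' hv).trans (mul_le_mul_of_nonneg_right hT (abs_nonneg _))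
  t1 := h.t1
  t2 := h.t2
  o0 := h.o0
  ob := h.ob
  o1 := h.o1
  oq := h.oq
  op := h.op
  o2 := h.o2
  sσ := h.sσ
  Zb := h.Zb
  u1 := fun v k h1 h2 => (h.u1 v k h1 h2).trans (mul_le_mul_of_nonneg_right hU (abs_nonneg _))
  wq := fun v => (h.wq v).trans (mul_le_mul_of_nonneg_right hW r0)
  wp := fun v => (h.wp v).trans (mul_le_mul_of_nonneg_right hW r0)
  uq := fun v => (h.uq v).trans (mul_le_mul_of_nonneg_right hU (h.o0 _))
  up := fun v => (h.up v).trans (mul_le_mul_of_nonneg_right hU (h.o0 _))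
  mb := h.mb
  tb := h.tb
  σb := h.σb
  xb := h.xb
  zb := h.zb

end

variable [Fintype ι] [Fintype υ] [Fintype κ] [Fintype ν] [Fintype βQ] [Fintype βP]
  {C : Cfg ι υ} {F : Cel ι υ γ} {o z : ι → ℝ} {G : Gad κ ν βQ βP}
  {F' : Cel κ ν γ'} {R ρ Γ r S T θ η ε W U s Z B s' Z' : ℝ} {A A' g D E D' E' : ℕ}
  {T' W' U' : ℝ}

theorem g_tol (hC : C.Good) (hq : QOk C F o z r S T θ W U s Z B)
    (hG : GOk G F' R ρ Γ θ η s' Z' A A' g D' E') (P : Par2 R ρ r S T θ η ε)
    (hS : SigOk C F o G r θ η ε ρ Γ R s' A A' g D E) (hT1 : 1 ≤ T') (hT : 4 * R ^ 2 * Γ ≤ T')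
    (v v' : υ × ν)
    (h : (ins2 C F o G θ η ε R s' A A' g D E).q v' ≠ (ins2 C F o G θ η ε R s' A A' g D E).q v) :
    |(ins2 C F o G θ η ε R s' A A' g D E).Δ v'| *
      |(ins2 C F o G θ η ε R s' A A' g D E).x v - (ins2 C F o G θ η ε R s' A A' g D E).x v'| ≤
      T' * |(ins2 C F o G θ η ε R s' A A' g D E).H v
        ((ins2 C F o G θ η ε R s' A A' g D E).q v')| := by
  by_cases hu : v'.1 = v.1
  · obtain ⟨u, n⟩ := v
    obtain ⟨u', n'⟩ := v'
    simp only at hu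
    subst hu
    have hne : G.L.q n' ≠ G.L.q n := by
      intro h'
      apply h
      simp only [ins2, h']
    change _ ≤ T' * |(ins2 C F o G θ η ε R s' A A' g D E).H (u', n)
      (Sum.inr (u', Sum.inl (G.L.q n')))|
    rw [same_l hq P, same_r hC hq P]
    have h1 := hG.off n (G.L.q n') hne (hG.bip n' n)
    have h2 := Δh_le hG n'
    have h3 : |G.L.x n - G.L.x n'| ≤ 2 * R := by
      have := abs_sub (G.L.x n) (G.L.x n')
      have := hG.xb n
      have := hG.xb n'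
      linarith
    have R0 : 0 ≤ R := le_trans zero_le_one hG.R1
    have h4 : |G.L.Δ n'| * |G.L.x n - G.L.x n'| ≤ T' * |G.L.H n (G.L.q n')| := by
      calc |G.L.Δ n'| * |G.L.x n - G.L.x n'| ≤ (2 * R) * (2 * R) :=
            mul_le_mul h2 h3 (abs_nonneg _) (by linarith)
        _ = 4 * R ^ 2 * 1 := by ring
        _ ≤ 4 * R ^ 2 * (Γ * |G.L.H n (G.L.q n')|) :=
            mul_le_mul_of_nonneg_left h1 (by positivity)
        _ = (4 * R ^ 2 * Γ) * |G.L.H n (G.L.q n')| := by ring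
        _ ≤ T' * |G.L.H n (G.L.q n')| := mul_le_mul_of_nonneg_right hT (abs_nonneg _)
    have h5 := mul_le_mul_of_nonneg_left h4 (c0 hq P u').le
    refine le_trans h5 (le_of_eq ?_)
    ring
  · have h1 := tol_far hq hG P hS v v' hu
    have h3 := abs_nonneg ((ins2 C F o G θ η ε R s' A A' g D E).H v
        ((ins2 C F o G θ η ε R s' A A' g D E).q v'))
    have h4 := mul_le_mul_of_nonneg_right hT1 h3
    have h5 : 0 ≤ |(ins2 C F o G θ η ε R s' A A' g D E).Δ v'| *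
      |(ins2 C F o G θ η ε R s' A A' g D E).x v - (ins2 C F o G θ η ε R s' A A' g D E).x v'| :=
      mul_nonneg (abs_nonneg _) (abs_nonneg _)
    linarith

/-- the requirement on the new home distance -/
theorem V_facts (hG : GOk G F' R ρ Γ θ η s' Z' A A' g D' E') (P : Par2 R ρ r S T θ η ε)
    (hW : 0 ≤ W) (hU0 : 0 ≤ U)
    (hU : 4 + 64 * R ^ 2 * Γ + 64 * S * R * (W + 1) / ρ + θ * η * s' * U ≤ U') :
    4 ≤ U' ∧ 64 * R ^ 2 * Γ ≤ U' ∧ 64 * S * R * (W + 1) ≤ U' * ρ ∧ 64 * R ^ 2 ≤ U' ∧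
      θ * η * s' * (U + 1 / 64) ≤ U' ∧
      4 + 64 * R ^ 2 * Γ + 64 * S * R * (W + 1) / ρ ≤ U' := by
  have S0 := lt_of_lt_of_le one_pos P.S1
  have R0 := lt_of_lt_of_le one_pos P.R1
  have Γ0 := lt_of_lt_of_le one_pos hG.Γ1
  have ρ0 := P.ρ0
  have θ0 := P.θ0
  have η0 := P.η0
  have s0 := hG.s0
  have h0 : 0 ≤ θ * η * s' * U := by positivity
  have h1 : 0 ≤ 64 * R ^ 2 * Γ := by positivity
  have h2 : 0 ≤ 64 * S * R * (W + 1) / ρ := by positivity
  have h3 : 64 * R ^ 2 ≤ 64 * R ^ 2 * Γ := by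
    have := hG.Γ1
    have h4 : 64 * R ^ 2 * 1 ≤ 64 * R ^ 2 * Γ := mul_le_mul_of_nonneg_left this (by positivity)
    linarith
  have h5 : θ * η * s' ≤ 1 := by
    have h6 := hG.ηs
    have h7 := P.θ1
    have h8 : θ * (η * s') ≤ 1 / 64 * (1 / 4) := mul_le_mul h7 h6 (by positivity) (by norm_num)
    have : θ * η * s' = θ * (η * s') := by ring
    linarith
  refine ⟨by linarith, by linarith, ?_, by linarith, by linarith, by linarith⟩
  rw [← div_le_iff₀ ρ0]
  linarith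

/-- old distance, multiplied by the new unit -/
theorem new_unit (hG : GOk G F' R ρ Γ θ η s' Z' A A' g D' E') (P : Par2 R ρ r S T θ η ε)
    {X a H : ℝ} (ha : 0 ≤ a) (hX : s * X ≤ U * a + a / 64) (haH : a ≤ 2 * H)
    (hU0 : 0 ≤ U) (hU : θ * η * s' * (U + 1 / 64) ≤ U') :
    θ * η * s' * s / 2 * X ≤ U' * H := by
  have θ0 := P.θ0
  have η0 := P.η0
  have s0 := hG.s0
  have c : 0 ≤ θ * η * s' / 2 := by positivity
  have h1 := mul_le_mul_of_nonneg_left hX c
  have H0 : 0 ≤ H := by linarith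
  have h2 : θ * η * s' / 2 * (U * a + a / 64) ≤ θ * η * s' * (U + 1 / 64) * H := by
    have e : θ * η * s' / 2 * (U * a + a / 64) = θ * η * s' / 2 * (U + 1 / 64) * a := by ring
    rw [e]
    have h3 : 0 ≤ θ * η * s' / 2 * (U + 1 / 64) := by positivity
    have h4 := mul_le_mul_of_nonneg_left haH h3
    refine h4.trans (le_of_eq ?_)
    ring
  have h3 := mul_le_mul_of_nonneg_right hU H0
  have e2 : θ * η * s' * s / 2 * X = θ * η * s' / 2 * (s * X) := by ring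
  rw [e2]
  linarith

theorem v1_a (hq : QOk C F o z r S T θ W U s Z B)
    (hG : GOk G F' R ρ Γ θ η s' Z' A A' g D' E') (P : Par2 R ρ r S T θ η ε) (hs : 0 < s)
    (hU0 : 0 ≤ U) (hU : θ * η * s' * (U + 1 / 64) ≤ U')
    (hS : SigOk C F o G r θ η ε ρ Γ R s' A A' g D E) (v : υ × ν) (k : ι) (b : Pr βQ βP)
    (h1 : k ≠ C.q v.1) (h2 : k ≠ C.p v.1) :
    θ * η * s' * s / 2 * |(C.x v.1 + dx C G ε v) - z k| ≤
      U' * |(ins2 C F o G θ η ε R s' A A' g D E).H v (Sum.inl (k, b))| := by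
  have low : |C.H v.1 k| ≤ 2 * |(ins2 C F o G θ η ε R s' A A' g D E).H v (Sum.inl (k, b))| := by
    have H0 := abs_nonneg (C.H v.1 k)
    by_cases hb : ∀ f, b ≠ Sum.inr (Sum.inr (Sum.inr f))
    · have := abs_ge_of_close (hS.par v k b hb h1 h2)
      linarith
    · push Not at hb
      obtain ⟨f, rfl⟩ := hb
      by_cases hn : F.nr (F.c v.1) k
      · have h3 := abs_ge_of_close (hS.farN v k f hn)
        have h4 : |(bs f : ℝ) * o k| = o k := by
          rw [abs_mul, abs_of_nonneg (hq.o0 k)]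
          cases f <;> simp [bs]
        rw [h4] at h3
        have h5 := hq.o1 v.1 k hn
        linarith
      · have := abs_ge_of_close (hS.farF v k f hn)
        linarith
  have a1 := hq.u1 v.1 k h1 h2
  have a2 := hq.h2 v.1 k h1 h2
  have a3 := sdx' hq hG P v v.1
  have a4 : s * |(C.x v.1 + dx C G ε v) - z k| ≤ U * |C.H v.1 k| + |C.H v.1 k| / 64 := by
    have h3 : |(C.x v.1 + dx C G ε v) - z k| ≤ |C.x v.1 - z k| + |dx C G ε v| := by
      have := abs_add_le (C.x v.1 - z k) (dx C G ε v)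
      have e : (C.x v.1 + dx C G ε v) - z k = (C.x v.1 - z k) + dx C G ε v := by ring
      rw [e]; exact this
    have h4 := mul_le_mul_of_nonneg_left h3 hs.le
    linarith
  exact new_unit hG P (abs_nonneg _) a4 low hU0 hU

theorem v1_b (hq : QOk C F o z r S T θ W U s Z B)
    (hG : GOk G F' R ρ Γ θ η s' Z' A A' g D' E') (P : Par2 R ρ r S T θ η ε) (hs : 0 < s)
    (hW : 0 ≤ W) (hU : 4 + 64 * R ^ 2 * Γ + 64 * S * R * (W + 1) / ρ ≤ U')
    (v : υ × ν) (k : ι) (hw : |C.x v.1 - z k| ≤ W * r) {H : ℝ}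
    (hH : θ * C.e ε v.1 * ρ ≤ H) :
    θ * η * s' * s / 2 * |(C.x v.1 + dx C G ε v) - z k| ≤ U' * H := by
  obtain ⟨u1, u2, u3, u4⟩ := U_facts hG P hW hU
  have a3 := Tl.dx_le hq hG P v
  have a4 := εR' P
  have r0 := P.r0
  have h3 : |(C.x v.1 + dx C G ε v) - z k| ≤ (W + 1) * r := by
    have := abs_add_le (C.x v.1 - z k) (dx C G ε v)
    have e : (C.x v.1 + dx C G ε v) - z k = (C.x v.1 - z k) + dx C G ε v := by ring
    rw [e]
    linarith
  have a5 := sn_le hs hG P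
  have θ0 := P.θ0
  have σ0 := hq.σ_pos v.1
  have hsσ := hq.sσ v.1
  have a6 : θ * η * s' * s / 2 * |(C.x v.1 + dx C G ε v) - z k| ≤
      (θ * s / 8) * ((W + 1) * r) :=
    mul_le_mul a5 h3 (abs_nonneg _) (by positivity)
  have a7 : (θ * s / 8) * ((W + 1) * r) ≤ θ * C.σ (C.q v.1) * ((W + 1) * r) := by
    apply mul_le_mul_of_nonneg_right _ (by positivity)
    have : θ * s ≤ θ * C.σ (C.q v.1) := mul_le_mul_of_nonneg_left hsσ θ0.le
    have : 0 ≤ θ * C.σ (C.q v.1) := mul_nonneg θ0.le σ0.le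
    linarith
  have a8 : θ * C.σ (C.q v.1) * ((W + 1) * r) ≤ U' * (θ * C.e ε v.1 * ρ) := by
    have e1 : U' * (θ * C.e ε v.1 * ρ) = θ * C.σ (C.q v.1) * (ε * (U' * ρ)) := by
      simp only [Cfg.e]; ring
    rw [e1]
    apply mul_le_mul_of_nonneg_left _ (mul_nonneg θ0.le σ0.le)
    have e2 : (W + 1) * r = ε * (64 * S * R * (W + 1)) := by
      rw [← P.εR]; ring
    rw [e2]
    exact mul_le_mul_of_nonneg_left u3 P.ε0.le
  have a9 : U' * (θ * C.e ε v.1 * ρ) ≤ U' * H := mul_le_mul_of_nonneg_left hH (by linarith)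
  linarith

theorem v1_c (hq : QOk C F o z r S T θ W U s Z B)
    (hG : GOk G F' R ρ Γ θ η s' Z' A A' g D' E') (P : Par2 R ρ r S T θ η ε) (hs : 0 < s)
    (hU0 : 0 ≤ U) (hU : θ * η * s' * (U + 1 / 64) ≤ U') (v : υ × ν) (k : ι)
    (hu : s * |C.x v.1 - z k| ≤ U * o k)
    (ho : r * C.σ (C.q v.1) ≤ o k) {H : ℝ} (hH : o k ≤ 2 * H) :
    θ * η * s' * s / 2 * |(C.x v.1 + dx C G ε v) - z k| ≤ U' * H := by
  have a3 := sdx' hq hG P v v.1
  have o0 := hq.o0 k
  have a4 : s * |(C.x v.1 + dx C G ε v) - z k| ≤ U * o k + o k / 64 := by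
    have h3 : |(C.x v.1 + dx C G ε v) - z k| ≤ |C.x v.1 - z k| + |dx C G ε v| := by
      have := abs_add_le (C.x v.1 - z k) (dx C G ε v)
      have e : (C.x v.1 + dx C G ε v) - z k = (C.x v.1 - z k) + dx C G ε v := by ring
      rw [e]; exact this
    have h4 := mul_le_mul_of_nonneg_left h3 hs.le
    linarith
  exact new_unit hG P o0 a4 hH hU0 hU

theorem g_u1 (hC : C.Good) (hc : CelOk C F D E) (hq : QOk C F o z r S T θ W U s Z B)
    (hG : GOk G F' R ρ Γ θ η s' Z' A A' g D' E') (P : Par2 R ρ r S T θ η ε)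
    (hS : SigOk C F o G r θ η ε ρ Γ R s' A A' g D E) (hs : 0 < s) (hW : 0 ≤ W) (hU0 : 0 ≤ U)
    (hU : 4 + 64 * R ^ 2 * Γ + 64 * S * R * (W + 1) / ρ + θ * η * s' * U ≤ U') (v : υ × ν)
    (k : (ι × Pr βQ βP) ⊕ (υ × (κ ⊕ Bool)))
    (h1 : k ≠ (ins2 C F o G θ η ε R s' A A' g D E).q v)
    (h2 : k ≠ (ins2 C F o G θ η ε R s' A A' g D E).p v) :
    θ * η * s' * s / 2 * |(ins2 C F o G θ η ε R s' A A' g D E).x v - z2 C z k| ≤
      U' * |(ins2 C F o G θ η ε R s' A A' g D E).H v k| := by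
  obtain ⟨U4, U1, U2, U3, U5, U6⟩ := V_facts hG P hW hU0 hU
  rcases k with ⟨k, b⟩ | ⟨u, j⟩
  · change θ * η * s' * s / 2 * |(C.x v.1 + dx C G ε v) - z k| ≤ _
    by_cases hkq : k = C.q v.1
    · subst hkq
      rcases b with b | b | b | b
      · exact v1_b hq hG P hs hW U6 v _ (hq.wq v.1) (hS.thinQ v b).2
      · exact v1_b hq hG P hs hW U6 v _ (hq.wq v.1) (le_trans (eρR hq P v.1) (hS.thinP v b))
      · exact v1_b hq hG P hs hW U6 v _ (hq.wq v.1) (le_trans (eρR hq P v.1) (hS.thinN v b).2)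
      · refine v1_c hq hG P hs hU0 U5 v _ (hq.uq v.1) (hq.oq v.1) ?_
        have h3 := abs_ge_of_close (hS.farN v (C.q v.1) b (hc.nq v.1))
        have h4 : |(bs b : ℝ) * o (C.q v.1)| = o (C.q v.1) := by
          rw [abs_mul, abs_of_nonneg (hq.o0 _)]
          cases b <;> simp [bs]
        rw [h4] at h3
        linarith
    · by_cases hkp : k = C.p v.1
      · subst hkp
        rcases b with b | b | b | b
        · exact v1_b hq hG P hs hW U6 v _ (hq.wp v.1) (le_trans (eρR hq P v.1) (hS.thickQ v b))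
        · exact v1_b hq hG P hs hW U6 v _ (hq.wp v.1) (le_trans (eρ hq P v.1) (hS.thickP v b).2)
        · exact v1_b hq hG P hs hW U6 v _ (hq.wp v.1) (le_trans (eρR hq P v.1) (hS.thickN v b).2)
        · refine v1_c hq hG P hs hU0 U5 v _ (hq.up v.1) (hq.op v.1) ?_
          have h3 := abs_ge_of_close (hS.farN v (C.p v.1) b (hc.np v.1))
          have h4 : |(bs b : ℝ) * o (C.p v.1)| = o (C.p v.1) := by
            rw [abs_mul, abs_of_nonneg (hq.o0 _)]
            cases b <;> simp [bs]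
          rw [h4] at h3
          linarith
      · exact v1_a hq hG P hs hU0 U5 hS v k b hkq hkp
  · by_cases hu : u = v.1
    · subst hu
      change θ * η * s' * s / 2 * |(C.x v.1 + dx C G ε v) - C.x v.1| ≤ _
      have e : (C.x v.1 + dx C G ε v) - C.x v.1 = dx C G ε v := by ring
      rw [e]
      have e0 := epos hq P v.1
      rcases j with j | b
      · have hj1 : j ≠ G.L.q v.2 := by
          rintro rfl; exact h1 rfl
        have hj2 : j ≠ G.L.p v.2 := by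
          rintro rfl; exact h2 rfl
        have h3 := hS.ownG v j hj1 hj2
        have h4 := sn_dx hq hG P v
        have h5 := mul_le_mul_of_nonneg_left h3 (show 0 ≤ 2 * R ^ 2 by positivity)
        have h6 := abs_nonneg ((ins2 C F o G θ η ε R s' A A' g D E).H v
          (Sum.inr (v.1, Sum.inl j)))
        have h7 := mul_le_mul_of_nonneg_right U1 h6
        have h8 : 0 ≤ 64 * R ^ 2 * Γ * |(ins2 C F o G θ η ε R s' A A' g D E).H v
          (Sum.inr (v.1, Sum.inl j))| := by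
          have := lt_of_lt_of_le one_pos hG.Γ1
          positivity
        linarith
      · have h3 := (hS.ownF v b).2
        have h4 := sn_le hs hG P
        have h5 := sdx hq hG P v
        have θ0 := P.θ0
        have h6 : θ * η * s' * s / 2 * |dx C G ε v| ≤ θ * s / 8 * |dx C G ε v| :=
          mul_le_mul_of_nonneg_right h4 (abs_nonneg _)
        have h7 := mul_le_mul_of_nonneg_left h5 θ0.le
        have h8 := abs_nonneg ((ins2 C F o G θ η ε R s' A A' g D E).H v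
          (Sum.inr (v.1, Sum.inr b)))
        have h9 := mul_le_mul_of_nonneg_right U4 h8
        have e1 : θ * s / 8 * |dx C G ε v| = θ * (s * |dx C G ε v|) / 8 := by ring
        have e2 : θ * (C.e ε v.1 * R) = θ * C.e ε v.1 * R := by ring
        linarith
    · change θ * η * s' * s / 2 * |(C.x v.1 + dx C G ε v) - C.x u| ≤ _
      have f1 := hS.fan1 v u j hu
      have f2 := hS.fan2 v u j hu
      set H := |(ins2 C F o G θ η ε R s' A A' g D E).H v (Sum.inr (u, j))| with hH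
      have θ0 := P.θ0
      have a3 := sdx' hq hG P v u
      have h3 : |(C.x v.1 + dx C G ε v) - C.x u| ≤ |C.x v.1 - C.x u| + |dx C G ε v| := by
        have := abs_add_le (C.x v.1 - C.x u) (dx C G ε v)
        have e : (C.x v.1 + dx C G ε v) - C.x u = (C.x v.1 - C.x u) + dx C G ε v := by ring
        rw [e]; exact this
      have h4 := mul_le_mul_of_nonneg_left h3 hs.le
      have h5 : s * |C.x v.1 - C.x u| ≤ |C.Δ u| * |C.x v.1 - C.x u| :=
        mul_le_mul_of_nonneg_right (sΔ hq u) (abs_nonneg _)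
      have h6 : s * |(C.x v.1 + dx C G ε v) - C.x u| ≤
          |C.Δ u| * |C.x v.1 - C.x u| + r * C.σ (C.q u) := by
        have : 0 ≤ r * C.σ (C.q u) := mul_nonneg P.r0.le (hq.σ_pos u).le
        linarith
      have h7 := mul_le_mul_of_nonneg_left h6 θ0.le
      have a5 := sn_le hs hG P
      have a6 : θ * η * s' * s / 2 * |(C.x v.1 + dx C G ε v) - C.x u| ≤
          θ * s / 8 * |(C.x v.1 + dx C G ε v) - C.x u| :=
        mul_le_mul_of_nonneg_right a5 (abs_nonneg _)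
      have e1 : θ * s / 8 * |(C.x v.1 + dx C G ε v) - C.x u|
          = θ * (s * |(C.x v.1 + dx C G ε v) - C.x u|) / 8 := by ring
      have Hn : 0 ≤ H := abs_nonneg _
      have b2 : 4 * H ≤ U' * H := mul_le_mul_of_nonneg_right U4 Hn
      have e2 : θ * (|C.Δ u| * |C.x v.1 - C.x u| + r * C.σ (C.q u)) =
        θ * (|C.Δ u| * |C.x v.1 - C.x u|) + θ * (r * C.σ (C.q u)) := by ring
      linarith

theorem g_w (hq : QOk C F o z r S T θ W U s Z B)
    (hG : GOk G F' R ρ Γ θ η s' Z' A A' g D' E') (P : Par2 R ρ r S T θ η ε)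
    (hW : 4 * S * R ^ 2 * Γ / ρ ≤ W') (v : υ × ν) :
    |(C.x v.1 + dx C G ε v) - C.x v.1| ≤ W' * (ρ * r / (256 * S ^ 2 * R ^ 2 * Γ)) := by
  have e : (C.x v.1 + dx C G ε v) - C.x v.1 = dx C G ε v := by ring
  rw [e]
  refine le_trans (Tl.dx_le hq hG P v) ?_
  have h1 := lt_of_lt_of_le one_pos P.S1
  have h2 := lt_of_lt_of_le one_pos P.R1
  have h3 := lt_of_lt_of_le one_pos hG.Γ1
  have ρ0 := P.ρ0
  have h4 := mul_le_mul_of_nonneg_right hW (r'_pos P hG).le
  refine le_trans (le_of_eq ?_) h4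
  rw [ε_eq P]
  field_simp
  ring

theorem g_u (hq : QOk C F o z r S T θ W U s Z B)
    (hG : GOk G F' R ρ Γ θ η s' Z' A A' g D' E') (P : Par2 R ρ r S T θ η ε)
    (hU3 : 64 * R ^ 2 ≤ U') (v : υ × ν) :
    θ * η * s' * s / 2 * |(C.x v.1 + dx C G ε v) - C.x v.1| ≤
      U' * (θ * η * C.e ε v.1 / 16) := by
  have e : (C.x v.1 + dx C G ε v) - C.x v.1 = dx C G ε v := by ring
  rw [e]
  have h4 := sn_dx hq hG P v
  have h5 := mul_le_mul_of_nonneg_right hU3 (c0 hq P v.1).le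
  have h6 : 0 ≤ 64 * R ^ 2 * (θ * η * C.e ε v.1) := by
    have := c0 hq P v.1
    positivity
  linarith

/-- the quantitative part of the product theorem, separate parameters -/
theorem tolU (hC : C.Good) (hc : CelOk C F D E) (hq : QOk C F o z r S T θ W U s Z B)
    (hG : GOk G F' R ρ Γ θ η s' Z' A A' g D' E') (P : Par2 R ρ r S T θ η ε)
    (hS : SigOk C F o G r θ η ε ρ Γ R s' A A' g D E)
    (hA : QA (ins2 C F o G θ η ε R s' A A' g D E) (ρ * r / (256 * S ^ 2 * R ^ 2 * Γ)))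
    (hW : 0 ≤ W) (hU0 : 0 ≤ U) (hs : 0 < s) (hB : 1 ≤ B)
    (h4 : 4 * Z' ≤ S * s') (hT1 : 1 ≤ T') (hT : 4 * R ^ 2 * Γ ≤ T')
    (hW' : 4 * S * R ^ 2 * Γ / ρ ≤ W')
    (hU : 4 + 64 * R ^ 2 * Γ + 64 * S * R * (W + 1) / ρ + θ * η * s' * U ≤ U') :
    QOk (ins2 C F o G θ η ε R s' A A' g D E) (cel2 F') (o2 C θ η ε) (z2 C z)
      (ρ * r / (256 * S ^ 2 * R ^ 2 * Γ)) S T' θ W' U' (θ * η * s' * s / 2) (2 * θ * η * Z' * Z)
      (3 * B) := by
  obtain ⟨Tb, hTb⟩ : ∃ Tb, Tb = max T (4 * R ^ 2 * Γ) := ⟨_, rfl⟩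
  obtain ⟨Wb, hWb⟩ : ∃ Wb, Wb = max W (4 * S * R ^ 2 * Γ / ρ) := ⟨_, rfl⟩
  obtain ⟨Ub, hUb⟩ : ∃ Ub, Ub = max U (4 + 64 * R ^ 2 * Γ + 64 * S * R * (Wb + 1) / ρ) := ⟨_, rfl⟩
  have T_le : T ≤ Tb := by rw [hTb]; exact le_max_left _ _
  have W_le : W ≤ Wb := by rw [hWb]; exact le_max_left _ _
  have U_le : U ≤ Ub := by rw [hUb]; exact le_max_left _ _
  have hqb := QOk_mono hq P.r0.le T_le W_le U_le
  have Pb : Par2 R ρ r S Tb θ η ε :=
    { R1 := P.R1, ρ0 := P.ρ0, ρ1 := P.ρ1, r0 := P.r0, r1 := P.r1, S1 := P.S1,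
      T1 := P.T1.trans T_le, θ0 := P.θ0, θ1 := P.θ1, η0 := P.η0, η1 := P.η1, ε0 := P.ε0,
      εR := P.εR }
  have h := Vale.Agent.P065.W.tol hC hc hqb hG Pb hS hA (hW.trans W_le) hs hB h4
    (by rw [hTb]; exact le_max_right _ _) (by rw [hWb]; exact le_max_right _ _)
    (by rw [hUb]; exact le_max_right _ _)
  obtain ⟨U4, U1, U2, U3, U5, U6⟩ := V_facts hG P hW hU0 hU
  exact
    { σ_nonneg := h.σ_nonneg
      σ_pos := h.σ_pos
      σ_eq := h.σ_eq
      lo := h.lo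
      hi := h.hi
      h1 := h.h1
      h2 := h.h2
      h3 := h.h3
      tol := fun v v' hv => g_tol hC hq hG P hS hT1 hT v v' hv
      t1 := h.t1
      t2 := h.t2
      o0 := h.o0
      ob := h.ob
      o1 := h.o1
      oq := h.oq
      op := h.op
      o2 := h.o2
      sσ := h.sσ
      Zb := h.Zb
      u1 := fun v k hk hk' => g_u1 hC hc hq hG P hS hs hW hU0 hU v k hk hk'
      wq := fun v => g_w hq hG P hW' v
      wp := fun v => g_w hq hG P hW' v
      uq := fun v => g_u hq hG P U3 v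
      up := fun v => g_u hq hG P U3 v
      mb := h.mb
      tb := h.tb
      σb := h.σb
      xb := h.xb
      zb := h.zb }

/-- **the product theorem with separate parameters** -/
theorem productU {N D E V : ℕ} {r S T θ W U s Z B : ℝ} (hRC : RC2 N D E V r S T θ W U s Z B)
    (hr0 : 0 < r) (hr1 : r ≤ 1) (hS1 : 1 ≤ S) (hT1 : 1 ≤ T) (hθ0 : 0 < θ) (hθ1 : θ ≤ 1 / 64)
    (hW : 0 ≤ W) (hU0 : 0 ≤ U) (hs : 0 < s) (hB1 : 1 ≤ B)
    {κ ν βQ βP γ' : Type} [Fintype κ] [Fintype ν] [Fintype βQ] [Fintype βP]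
    (G : Gad κ ν βQ βP) (F' : Cel κ ν γ') {R ρ Γ η s' Z' : ℝ} {A A' g D' E' : ℕ}
    (hG : GOk G F' R ρ Γ θ η s' Z' A A' g D' E') (h4 : 4 * Z' ≤ S * s') {T' W' U' : ℝ}
    (hT1' : 1 ≤ T') (hT' : 4 * R ^ 2 * Γ ≤ T') (hW' : 4 * S * R ^ 2 * Γ / ρ ≤ W')
    (hU' : 4 + 64 * R ^ 2 * Γ + 64 * S * R * (W + 1) / ρ + θ * η * s' * U ≤ U') :
    RC2 (N * (2 * (A + 2 * g * (D + E)))) D' E' (V * Fintype.card ν)
      (ρ * r / (256 * S ^ 2 * R ^ 2 * Γ)) S T' θ W' U' (θ * η * s' * s / 2)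
      (2 * θ * η * Z' * Z) (3 * B) := by
  obtain ⟨ι, υ, γ, _, _, C, F, o, z, hg, hc, hq, hN, hV⟩ := hRC
  have hR := hG.R1
  have P : Par2 R ρ r S T θ η (r / (64 * S * R)) :=
    { R1 := hR, ρ0 := hG.ρ0, ρ1 := hG.ρ1, r0 := hr0, r1 := hr1, S1 := hS1, T1 := hT1, θ0 := hθ0,
      θ1 := hθ1, η0 := hG.η0, η1 := hG.η1, ε0 := by positivity, εR := by field_simp }
  have sig := sigOk hg hc hq hG P
  obtain ⟨b1, b2, b3⟩ := bal hg hc hq hG P sig
  have cl := clear hg hc hq hG P sig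
  have tl := tolU hg hc hq hG P sig cl hW hU0 hs hB1 h4 hT1' hT' hW' hU'
  refine ⟨_, _, υ × γ', inferInstance, inferInstance, _, _, _, _, b1, b2, tl, ?_, ?_⟩
  · rw [b3, hN]
  · rw [Fintype.card_prod, hV]

end Vale.Agent.P065.R2.H919
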